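import Vale.Agent.P309.Defs

open MeasureTheory ProbabilityTheory Metric
open scoped ENNReal NNReal

namespace P309

/-- C1: an `r`-separated finite set in a ball of radius `R` is small. -/
theorem sep_card {F : Type*} [NormedAddCommGroup F] [NormedSpace ℝ F] [FiniteDimensional ℝ F]
    (t : Finset F) (c : F) (R r : ℝ) (hr : 0 < r) (hR : 0 ≤ R)
    (ht : ∀ x ∈ t, x ∈ closedBall c R)
    (hsep : ∀ x ∈ t, ∀ y ∈ t, x ≠ y → r < dist x y) :
    (t.card : ℝ) ≤ (1 + 2 * R / r) ^ (Module.finrank ℝ F) := by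
  borelize F
  let μ : Measure F := Measure.addHaar
  set δ : ℝ := r / 2 with hδ
  set ρ : ℝ := R + r / 2 with hρ
  have δpos : 0 < δ := by positivity
  have ρpos : 0 < ρ := by positivity
  set A := ⋃ c ∈ t, ball (c : F) δ with hA
  have D : Set.Pairwise (t : Set F) (Function.onFun Disjoint fun c => ball (c : F) δ) := by
    rintro x hx y hy hxy
    apply ball_disjoint_ball
    have := hsep x hx y hy hxy
    rw [hδ]
    linarith
  have A_subset : A ⊆ ball c ρ := by
    refine Set.iUnion₂_subset fun x hx => ?_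
    intro y hy
    have h1 := ht x hx
    rw [mem_closedBall] at h1
    rw [mem_ball] at hy ⊢
    calc dist y c ≤ dist y x + dist x c := dist_triangle _ _ _
      _ < δ + R := by linarith
      _ = ρ := by rw [hδ, hρ]; ring
  have I :
    (t.card : ℝ≥0∞) * ENNReal.ofReal (δ ^ Module.finrank ℝ F) * μ (ball 0 1) ≤
      ENNReal.ofReal (ρ ^ Module.finrank ℝ F) * μ (ball 0 1) :=
    calc
      (t.card : ℝ≥0∞) * ENNReal.ofReal (δ ^ Module.finrank ℝ F) * μ (ball 0 1) = μ A := by
        rw [hA, measure_biUnion_finset D fun c _ => measurableSet_ball]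
        simp only [μ.addHaar_ball_of_pos _ δpos]
        simp only [Finset.sum_const, nsmul_eq_mul, mul_assoc]
      _ ≤ μ (ball c ρ) := measure_mono A_subset
      _ = ENNReal.ofReal (ρ ^ Module.finrank ℝ F) * μ (ball 0 1) := by
        simp only [μ.addHaar_ball_of_pos _ ρpos]
  have J : (t.card : ℝ≥0∞) * ENNReal.ofReal (δ ^ Module.finrank ℝ F)
      ≤ ENNReal.ofReal (ρ ^ Module.finrank ℝ F) :=
    (ENNReal.mul_le_mul_iff_left (measure_ball_pos _ _ zero_lt_one).ne' measure_ball_lt_top.ne).1 I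
  have K := ENNReal.toReal_le_of_le_ofReal (pow_nonneg ρpos.le _) J
  rw [ENNReal.toReal_mul, ENNReal.toReal_natCast,
    ENNReal.toReal_ofReal (pow_nonneg δpos.le _)] at K
  have hρδ : ρ = (1 + 2 * R / r) * δ := by
    rw [hρ, hδ]
    field_simp
    ring
  rw [hρδ, mul_pow] at K
  exact le_of_mul_le_mul_right K (pow_pos δpos _)

/-- C1: nets. -/
theorem exists_net {F : Type*} [NormedAddCommGroup F] [NormedSpace ℝ F] [FiniteDimensional ℝ F]
    (c : F) (R r : ℝ) (hr : 0 < r) (hR : 0 ≤ R) :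
    ∃ t : Finset F, (∀ x ∈ t, x ∈ closedBall c R) ∧
      (∀ x ∈ t, ∀ y ∈ t, x ≠ y → r < dist x y) ∧
      (t.card : ℝ) ≤ (1 + 2 * R / r) ^ (Module.finrank ℝ F) ∧
      ∀ x ∈ closedBall c R, ∃ y ∈ t, dist x y ≤ r := by
  classical
  set B := (1 + 2 * R / r) ^ (Module.finrank ℝ F) with hB
  -- the set of possible cardinalities
  let Good : ℕ → Prop := fun n => ∃ t : Finset F, t.card = n ∧ (∀ x ∈ t, x ∈ closedBall c R) ∧
      (∀ x ∈ t, ∀ y ∈ t, x ≠ y → r < dist x y)
  have h0 : Good 0 := ⟨∅, by simp⟩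
  have hb : ∀ n, Good n → n ≤ ⌊B⌋₊ := by
    rintro n ⟨t, rfl, h1, h2⟩
    exact Nat.le_floor (sep_card t c R r hr hR h1 h2)
  have hm := Nat.findGreatest_spec (P := Good) (Nat.zero_le ⌊B⌋₊) h0
  obtain ⟨t, hcard, h1, h2⟩ := hm
  refine ⟨t, h1, h2, sep_card t c R r hr hR h1 h2, ?_⟩
  intro x hx
  by_contra hcon
  push Not at hcon
  have hxt : x ∉ t := fun h => by
    have := hcon x h
    rw [dist_self] at this
    linarith
  have hG : Good (t.card + 1) := by
    refine ⟨insert x t, Finset.card_insert_of_notMem hxt, ?_, ?_⟩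
    · intro y hy
      rcases Finset.mem_insert.mp hy with rfl | hy
      · exact hx
      · exact h1 y hy
    · intro y hy z hz hyz
      rcases Finset.mem_insert.mp hy with hy1 | hy1
      · rcases Finset.mem_insert.mp hz with hz1 | hz1
        · exact absurd (hy1.trans hz1.symm) hyz
        · rw [hy1]
          exact hcon z hz1
      · rcases Finset.mem_insert.mp hz with hz1 | hz1
        · rw [hz1, dist_comm]
          exact hcon y hy1
        · exact h2 y hy1 z hz1 hyz
  have h3 := hb _ hG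
  have h4 := Nat.le_findGreatest h3 hG
  omega

end P309
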