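import Vale.Agent.P309.C1

open MeasureTheory ProbabilityTheory Metric
open scoped ENNReal NNReal

namespace P309

theorem measurable_invd {d : ℕ} (V : Submodule ℝ (E d)) (n : ℕ) (s0 : E d) :
    Measurable fun s : E d => invd V n (s - s0) := by
  unfold invd
  refine Measurable.pow_const ?_ _
  refine Measurable.inv ?_
  refine ENNReal.measurable_ofReal.comp ?_
  exact (continuous_infDist_pt _).measurable.comp (by fun_prop)

/-- mass of a neighbourhood of an affine subspace -/
theorem slab_bound {d : ℕ} (P : Measure (E d)) (z : E d) (w K : ℝ) (hw : 0 < w) (hK : 0 ≤ K)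
    (b k : ℕ) (h : Reg P z w K b) (hb : k ≤ b) (s0 : E d)
    (hs0 : s0 ∈ closedBall z w) (V : Submodule ℝ (E d)) (hV : Module.finrank ℝ V ≤ k) (j : ℕ) :
    P {s | s ∈ closedBall z w ∧ infDist (s - s0) (V : Set (E d)) ≤ 2 * w * (1 / 2) ^ j} ≤
      ENNReal.ofReal (K * 2 ^ (2 * k + 2 * b) * (1 / 2) ^ ((b - k) * j)) := by
  classical
  set r : ℝ := 2 * w * (1 / 2) ^ j with hr
  have hr0 : 0 < r := by positivity
  obtain ⟨t, -, -, htc, htn⟩ := exists_net (F := V) (0 : V) (2 * w) r hr0 (by positivity)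
  -- covering
  have hcov : {s | s ∈ closedBall z w ∧ infDist (s - s0) (V : Set (E d)) ≤ r} ⊆
      ⋃ y ∈ t, closedBall (s0 + (y : E d)) (2 * r) := by
    rintro s ⟨hs, hsd⟩
    have hss : ‖s - s0‖ ≤ 2 * w := by
      have h1 := mem_closedBall.mp hs
      have h2 := mem_closedBall.mp hs0
      calc ‖s - s0‖ = dist s s0 := (dist_eq_norm _ _).symm
        _ ≤ dist s z + dist z s0 := dist_triangle _ _ _
        _ ≤ 2 * w := by rw [dist_comm z s0]; linarith
    set v : V := ⟨V.starProjection (s - s0), V.starProjection_apply_mem _⟩ with hv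
    have hvn : ‖(v : E d)‖ ≤ 2 * w := (V.norm_starProjection_apply_le _).trans hss
    have hvd : ‖(s - s0) - (v : E d)‖ ≤ r := by
      obtain ⟨y, hy, hyd⟩ := (Submodule.closed_of_finiteDimensional V).exists_infDist_eq_dist
        ⟨0, V.zero_mem⟩ (s - s0)
      have h1 : ‖(s - s0) - (v : E d)‖ ≤ ‖(s - s0) - y‖ := by
        have := V.starProjection_minimal (s - s0)
        calc ‖(s - s0) - (v : E d)‖ = ⨅ x : V, ‖(s - s0) - x‖ := this
          _ ≤ ‖(s - s0) - ((⟨y, hy⟩ : V) : E d)‖ :=
            ciInf_le ⟨0, by rintro _ ⟨x, rfl⟩; exact norm_nonneg _⟩ (⟨y, hy⟩ : V)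
      rw [← dist_eq_norm (s - s0) y, ← hyd] at h1
      exact h1.trans hsd
    obtain ⟨y, hyt, hyv⟩ := htn v (by
      rw [mem_closedBall_zero_iff]; exact hvn)
    refine Set.mem_iUnion₂.mpr ⟨y, hyt, ?_⟩
    rw [mem_closedBall, dist_eq_norm]
    calc ‖s - (s0 + (y : E d))‖ = ‖((s - s0) - (v : E d)) + ((v : E d) - (y : E d))‖ := by
          congr 1; abel
      _ ≤ ‖(s - s0) - (v : E d)‖ + ‖(v : E d) - (y : E d)‖ := norm_add_le _ _
      _ ≤ r + r := by
          refine add_le_add hvd ?_
          have : dist v y = ‖(v : E d) - (y : E d)‖ := by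
            rw [Subtype.dist_eq, dist_eq_norm]
          rw [← this]; exact hyv
      _ = 2 * r := by ring
  have hq0 : 0 ≤ K * (2 * r / w) ^ b := by positivity
  calc P {s | s ∈ closedBall z w ∧ infDist (s - s0) (V : Set (E d)) ≤ r}
      ≤ P (⋃ y ∈ t, closedBall (s0 + (y : E d)) (2 * r)) := measure_mono hcov
    _ ≤ ∑ y ∈ t, P (closedBall (s0 + (y : E d)) (2 * r)) := measure_biUnion_finset_le _ _
    _ ≤ ∑ y ∈ t, ENNReal.ofReal (K * (2 * r / w) ^ b) :=
        Finset.sum_le_sum fun y _ => h.reg _ _ (by positivity)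
    _ = ENNReal.ofReal (t.card * (K * (2 * r / w) ^ b)) := by
        rw [Finset.sum_const, nsmul_eq_mul, ENNReal.ofReal_mul (Nat.cast_nonneg _),
          ENNReal.ofReal_natCast]
    _ ≤ ENNReal.ofReal (K * 2 ^ (2 * k + 2 * b) * (1 / 2) ^ ((b - k) * j)) := by
        refine ENNReal.ofReal_le_ofReal ?_
        obtain ⟨e, rfl⟩ : ∃ e, b = k + e := ⟨b - k, by omega⟩
        have h2j : (0 : ℝ) < 2 ^ j := by positivity
        have e1 : (1 + 2 * (2 * w) / r : ℝ) = 1 + 2 * 2 ^ j := by
          rw [hr, one_div, inv_pow]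
          field_simp
        have e2 : (1 + 2 * 2 ^ j : ℝ) ≤ 2 ^ (j + 2) := by
          have : (1 : ℝ) ≤ 2 ^ j := one_le_pow₀ (by norm_num)
          rw [pow_add]; linarith
        have hcard : (t.card : ℝ) ≤ (2 ^ (j + 2)) ^ k := by
          calc (t.card : ℝ) ≤ (1 + 2 * (2 * w) / r) ^ Module.finrank ℝ V := htc
            _ = (1 + 2 * 2 ^ j) ^ Module.finrank ℝ V := by rw [e1]
            _ ≤ (2 ^ (j + 2)) ^ Module.finrank ℝ V := by gcongr
            _ ≤ (2 ^ (j + 2)) ^ k := pow_le_pow_right₀ (one_le_pow₀ (by norm_num)) hV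
        have e3 : (2 * r / w : ℝ) = 4 * (1 / 2) ^ j := by
          rw [hr]; field_simp; ring
        rw [e3]
        calc (t.card : ℝ) * (K * (4 * (1 / 2) ^ j) ^ (k + e))
            ≤ (2 ^ (j + 2)) ^ k * (K * (4 * (1 / 2) ^ j) ^ (k + e)) := by gcongr
          _ = K * 2 ^ (2 * k + 2 * (k + e)) * (1 / 2) ^ ((k + e - k) * j) := by
              have e4 : k + e - k = e := by omega
              rw [e4]
              have e5 : ((2 : ℝ) ^ j) ^ k * ((1 / 2) ^ j) ^ k = 1 := by
                rw [← mul_pow, ← mul_pow]; norm_num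
              calc ((2 : ℝ) ^ (j + 2)) ^ k * (K * (4 * (1 / 2) ^ j) ^ (k + e))
                  = (((2 : ℝ) ^ j) ^ k * ((1 / 2) ^ j) ^ k) *
                    (K * (4 ^ k * (4 ^ (k + e))) * ((1 / 2) ^ j) ^ e) := by
                    rw [pow_add (2 : ℝ) j 2, mul_pow, mul_pow, pow_add ((1 / 2 : ℝ) ^ j) k e]
                    norm_num
                    ring
                _ = K * 2 ^ (2 * k + 2 * (k + e)) * (1 / 2) ^ (e * j) := by
                    rw [e5, one_mul]
                    congr 1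
                    · rw [show (4 : ℝ) = 2 ^ 2 by norm_num, ← pow_mul, ← pow_mul, ← pow_add]
                    · rw [← pow_mul, mul_comm e j]

/-- C2: a regular measure has finite energy relative to low dimensional subspaces. -/
theorem energy_bound {d : ℕ} (P : Measure (E d)) (z : E d) (w K : ℝ) (hw : 0 < w) (hK : 0 ≤ K)
    (b n k : ℕ) (h : Reg P z w K b) (hb : k + 2 * n + 1 ≤ b) (s0 : E d)
    (hs0 : s0 ∈ closedBall z w) (V : Submodule ℝ (E d)) (hV : Module.finrank ℝ V ≤ k) :
    ∫⁻ s, invd V (2 * n) (s - s0) ∂P ≤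
      ENNReal.ofReal (K * 2 ^ (2 * k + 2 * b + 1) / w ^ (2 * n)) := by
  set T : ℕ → Set (E d) := fun j =>
    {s | s ∈ closedBall z w ∧ infDist (s - s0) (V : Set (E d)) ≤ 2 * w * (1 / 2) ^ j} with hT
  have hTm : ∀ j, MeasurableSet (T j) := by
    intro j
    refine IsClosed.measurableSet ?_
    refine isClosed_closedBall.inter ?_
    exact isClosed_le ((continuous_infDist_pt _).comp (by fun_prop)) continuous_const
  have hTb := fun j => slab_bound P z w K hw hK b k h (by omega) s0 hs0 V hV j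
  set A : ℝ := K * 2 ^ (2 * k + 2 * b) with hA
  have hA0 : 0 ≤ A := by positivity
  -- the points at distance zero form a null set
  have hnull : P {s | s ∈ closedBall z w ∧ infDist (s - s0) (V : Set (E d)) ≤ 0} = 0 := by
    have hlim : Filter.Tendsto (fun j : ℕ => ENNReal.ofReal (A * (1 / 2) ^ ((b - k) * j)))
        Filter.atTop (nhds 0) := by
      rw [← ENNReal.ofReal_zero]
      refine ENNReal.tendsto_ofReal ?_
      have h1 : Filter.Tendsto (fun j : ℕ => ((1 / 2 : ℝ) ^ (b - k)) ^ j) Filter.atTop (nhds 0) := by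
        refine tendsto_pow_atTop_nhds_zero_of_lt_one (by positivity) ?_
        refine pow_lt_one₀ (by norm_num) (by norm_num) (by omega)
      have h2 := h1.const_mul A
      rw [mul_zero] at h2
      refine h2.congr fun j => ?_
      rw [pow_mul]
    refine le_antisymm (ge_of_tendsto' hlim fun j => ?_) zero_le
    refine (measure_mono ?_).trans (hTb j)
    rintro s ⟨hs, hsd⟩
    exact ⟨hs, hsd.trans (by positivity)⟩
  -- pointwise bound
  have hpt : ∀ᵐ s ∂P, invd V (2 * n) (s - s0) ≤
      ∑' j, (T j).indicator (fun _ => ENNReal.ofReal ((2 ^ j / w) ^ (2 * n))) s := by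
    have h1 : ∀ᵐ s ∂P, s ∈ closedBall z w := by
      rw [ae_iff]
      exact h.supp
    have h2 : ∀ᵐ s ∂P, ¬ (s ∈ closedBall z w ∧ infDist (s - s0) (V : Set (E d)) ≤ 0) := by
      rw [ae_iff]
      simpa using hnull
    filter_upwards [h1, h2] with s hs hs2
    have hD : 0 < infDist (s - s0) (V : Set (E d)) := by
      by_contra hcon
      exact hs2 ⟨hs, not_lt.mp hcon⟩
    set D := infDist (s - s0) (V : Set (E d)) with hDdef
    have hD2 : D ≤ 2 * w := by
      calc D ≤ dist (s - s0) 0 := infDist_le_dist_of_mem V.zero_mem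
        _ = dist s s0 := by rw [dist_zero_right, dist_eq_norm]
        _ ≤ dist s z + dist z s0 := dist_triangle _ _ _
        _ ≤ 2 * w := by
            rw [dist_comm z s0]
            linarith [mem_closedBall.mp hs, mem_closedBall.mp hs0]
    obtain ⟨j, hj1, hj2⟩ := exists_nat_pow_near_of_lt_one (x := D / (2 * w)) (y := (1 / 2 : ℝ))
      (by positivity) ((div_le_one (by positivity)).mpr hD2) (by norm_num) (by norm_num)
    have hsT : s ∈ T j := by
      refine ⟨hs, ?_⟩
      rw [div_le_iff₀ (by positivity)] at hj2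
      linarith
    refine le_trans ?_ (ENNReal.le_tsum j)
    rw [Set.indicator_of_mem hsT]
    unfold invd
    rw [← hDdef, ← ENNReal.ofReal_inv_of_pos hD, ← ENNReal.ofReal_pow (by positivity)]
    refine ENNReal.ofReal_le_ofReal ?_
    refine pow_le_pow_left₀ (by positivity) ?_ _
    rw [lt_div_iff₀ (by positivity)] at hj1
    rw [inv_le_comm₀ hD (by positivity), inv_div]
    have e1 : (1 / 2 : ℝ) ^ (j + 1) * (2 * w) = w / 2 ^ j := by
      rw [pow_succ, one_div, inv_pow]
      field_simp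
    linarith
  calc ∫⁻ s, invd V (2 * n) (s - s0) ∂P
      ≤ ∫⁻ s, ∑' j, (T j).indicator (fun _ => ENNReal.ofReal ((2 ^ j / w) ^ (2 * n))) s ∂P :=
        lintegral_mono_ae hpt
    _ = ∑' j, ENNReal.ofReal ((2 ^ j / w) ^ (2 * n)) * P (T j) := by
        rw [lintegral_tsum fun j => (measurable_const.indicator (hTm j)).aemeasurable]
        exact tsum_congr fun j => lintegral_indicator_const (hTm j) _
    _ ≤ ∑' j : ℕ, ENNReal.ofReal (A / w ^ (2 * n) * (1 / 2) ^ j) := by
        refine ENNReal.tsum_le_tsum fun j => ?_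
        calc ENNReal.ofReal ((2 ^ j / w) ^ (2 * n)) * P (T j)
            ≤ ENNReal.ofReal ((2 ^ j / w) ^ (2 * n)) *
              ENNReal.ofReal (A * (1 / 2) ^ ((b - k) * j)) := by
              exact mul_le_mul_right (hTb j) _
          _ = ENNReal.ofReal ((2 ^ j / w) ^ (2 * n) * (A * (1 / 2) ^ ((b - k) * j))) := by
              exact (ENNReal.ofReal_mul (by positivity)).symm
          _ ≤ ENNReal.ofReal (A / w ^ (2 * n) * (1 / 2) ^ j) := by
              refine ENNReal.ofReal_le_ofReal ?_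
              obtain ⟨e, he⟩ : ∃ e, b - k = 2 * n + 1 + e := ⟨b - k - (2 * n + 1), by omega⟩
              rw [he]
              have e1 : (1 / 2 : ℝ) ^ ((2 * n + 1 + e) * j) =
                  ((1 / 2) ^ j) ^ (2 * n) * (1 / 2) ^ j * (1 / 2) ^ (e * j) := by
                rw [← pow_mul, ← pow_add, ← pow_add]; congr 1; ring
              have e2 : ((2 : ℝ) ^ j) ^ (2 * n) * ((1 / 2) ^ j) ^ (2 * n) = 1 := by
                rw [← mul_pow, ← mul_pow]; norm_num
              have e3 : (1 / 2 : ℝ) ^ (e * j) ≤ 1 := pow_le_one₀ (by norm_num) (by norm_num)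
              calc ((2 : ℝ) ^ j / w) ^ (2 * n) * (A * (1 / 2) ^ ((2 * n + 1 + e) * j))
                  = (((2 : ℝ) ^ j) ^ (2 * n) * ((1 / 2) ^ j) ^ (2 * n)) *
                    (A / w ^ (2 * n) * (1 / 2) ^ j) * (1 / 2) ^ (e * j) := by
                    rw [e1, div_pow]; ring
                _ ≤ (((2 : ℝ) ^ j) ^ (2 * n) * ((1 / 2) ^ j) ^ (2 * n)) *
                    (A / w ^ (2 * n) * (1 / 2) ^ j) * 1 := by
                    refine mul_le_mul_of_nonneg_left e3 ?_
                    rw [e2]; positivity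
                _ = A / w ^ (2 * n) * (1 / 2) ^ j := by rw [e2]; ring
    _ = ENNReal.ofReal (K * 2 ^ (2 * k + 2 * b + 1) / w ^ (2 * n)) := by
        rw [← ENNReal.ofReal_tsum_of_nonneg (fun j => by positivity)
          (summable_geometric_two.mul_left _), tsum_mul_left, tsum_geometric_two]
        congr 1
        rw [hA]; ring

/-- C2: the energy of the restriction to `B`, by Cauchy-Schwarz. -/
theorem energy_restrict {d : ℕ} (P : Measure (E d)) (z : E d) (w K : ℝ) (hw : 0 < w)
    (hK : 0 ≤ K) (b n k : ℕ) (h : Reg P z w K b) (hb : k + 2 * n + 1 ≤ b) (B : Set (E d))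
    (hB : MeasurableSet B) :
    Energy (P.restrict B) n k
      ((P B) ^ ((1 : ℝ) / 2) *
        ENNReal.ofReal (Real.sqrt (K * 2 ^ (2 * k + 2 * b + 1)) / w ^ n)) := by
  have hsupp : ∀ᵐ s0 ∂(P.restrict B), s0 ∈ closedBall z w := by
    refine ae_restrict_of_ae ?_
    rw [ae_iff]
    exact h.supp
  filter_upwards [hsupp] with s0 hs0 V hV
  have hpq : (2 : ℝ).HolderConjugate 2 := Real.HolderConjugate.two_two
  have hm := measurable_invd V n s0
  have hcs := ENNReal.lintegral_mul_le_Lp_mul_Lq (P.restrict B) hpq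
    (f := fun _ => (1 : ℝ≥0∞)) (g := fun s => invd V n (s - s0)) aemeasurable_const
    hm.aemeasurable
  have e0 : ∫⁻ s, invd V n (s - s0) ∂(P.restrict B) =
      ∫⁻ s, ((fun _ : E d => (1 : ℝ≥0∞)) * fun s => invd V n (s - s0)) s ∂(P.restrict B) := by
    refine lintegral_congr fun s => ?_
    simp
  rw [e0]
  refine hcs.trans ?_
  refine mul_le_mul' ?_ ?_
  · simp
  · have e1 : ∀ s, invd V n (s - s0) ^ (2 : ℝ) = invd V (2 * n) (s - s0) := by
      intro s
      unfold invd
      rw [show (2 : ℝ) = ((2 : ℕ) : ℝ) by norm_num, ENNReal.rpow_natCast, ← pow_mul, mul_comm n 2]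
    simp_rw [e1]
    calc (∫⁻ s, invd V (2 * n) (s - s0) ∂(P.restrict B)) ^ ((1 : ℝ) / 2)
        ≤ (∫⁻ s, invd V (2 * n) (s - s0) ∂P) ^ ((1 : ℝ) / 2) :=
          ENNReal.rpow_le_rpow (lintegral_mono' Measure.restrict_le_self le_rfl) (by norm_num)
      _ ≤ (ENNReal.ofReal (K * 2 ^ (2 * k + 2 * b + 1) / w ^ (2 * n))) ^ ((1 : ℝ) / 2) :=
          ENNReal.rpow_le_rpow (energy_bound P z w K hw hK b n k h hb s0 hs0 V hV) (by norm_num)
      _ = ENNReal.ofReal (Real.sqrt (K * 2 ^ (2 * k + 2 * b + 1)) / w ^ n) := by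
          rw [ENNReal.ofReal_rpow_of_nonneg (by positivity) (by norm_num), ← Real.sqrt_eq_rpow]
          congr 1
          rw [Real.sqrt_div (by positivity), mul_comm 2 n, pow_mul,
            Real.sqrt_sq (by positivity)]

end P309
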