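import Vale.Agent.P309.Model

/-! # P309: definitions used in all modules -/

open MeasureTheory ProbabilityTheory Metric
open scoped ENNReal NNReal

namespace P309

/-- The joint law of `n` independent standard Gaussian rows. -/
noncomputable def rows (d n : ℕ) : Measure (Fin n → E d) :=
  Measure.pi fun _ => stdGaussian (E d)

instance (d n : ℕ) : IsProbabilityMeasure (rows d n) := by
  unfold rows; infer_instance

/-- The labels of the rows `X` for the signal `s`. -/
noncomputable def ap {d n : ℕ} (X : Fin n → E d) (s : E d) : Fin n → ℝ :=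
  fun r => inner ℝ (X r) s

/-- Probability that one Gaussian row `x` has `|<x, u i>| ≤ η` for all `i`. -/
noncomputable def qrow {d m : ℕ} (η : ℝ) (u : Fin m → E d) : ℝ≥0∞ :=
  stdGaussian (E d) {x | ∀ i, |inner ℝ x (u i)| ≤ η}

/-- The `n`-th power of the inverse distance of `w` to the subspace `V`. -/
noncomputable def invd {d : ℕ} (V : Submodule ℝ (E d)) (n : ℕ) (w : E d) : ℝ≥0∞ :=
  (ENNReal.ofReal (infDist w (V : Set (E d))))⁻¹ ^ n

/-- Smoothed density of the labels of the window `X` under the measure `Q`. -/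
noncomputable def dens {d n : ℕ} (Q : Measure (E d)) (η : ℝ) (X : Fin n → E d)
    (Y : Fin n → ℝ) : ℝ≥0∞ :=
  (ENNReal.ofReal η ^ n)⁻¹ * Q {s | ∀ r, |ap X s r - Y r| ≤ η / 2}

/-- `Q` has energy at most `G` relative to all subspaces of dimension at most `m`
through `Q`-almost every base point. -/
def Energy {d : ℕ} (Q : Measure (E d)) (n m : ℕ) (G : ℝ≥0∞) : Prop :=
  ∀ᵐ s0 ∂Q, ∀ V : Submodule ℝ (E d), Module.finrank ℝ V ≤ m →
    ∫⁻ s, invd V n (s - s0) ∂Q ≤ G

/-- A probability measure that is regular at scale `w`: it lives in a ball of radius `w`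
and every ball of radius `r` has mass at most `K (r / w) ^ b`. -/
structure Reg {d : ℕ} (P : Measure (E d)) (z : E d) (w K : ℝ) (b : ℕ) : Prop where
  prob : IsProbabilityMeasure P
  supp : P (closedBall z w)ᶜ = 0
  reg : ∀ (x : E d) (r : ℝ), 0 < r → P (closedBall x r) ≤ ENNReal.ofReal (K * (r / w) ^ b)

/-- The sub-law of the signal together with the event that the window kernel `κ` fires. -/
noncomputable def push {d n : ℕ} (P : Measure (E d))
    (κ : (Fin n → E d) × (Fin n → ℝ) → ℝ≥0∞) : Measure (E d) :=
  P.withDensity fun s => ∫⁻ X, κ (X, ap X s) ∂(rows d n)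

end P309
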