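import Vale.Agent.P309.G0

open MeasureTheory ProbabilityTheory Metric
open scoped ENNReal NNReal

namespace P309

/-- distance to a subspace -/
theorem infDist_eq_norm {d : ℕ} (V : Submodule ℝ (E d)) (w : E d) :
    infDist w (V : Set (E d)) = ‖w - V.starProjection w‖ := by
  rw [Submodule.starProjection_minimal, infDist_eq_iInf]
  simp only [dist_eq_norm]
  rfl

/-- G1: one more Gaussian linear form costs a factor `η / dist`. -/
theorem gauss_step {d : ℕ} (V : Submodule ℝ (E d)) (A : Set (E d)) (hA : MeasurableSet A)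
    (hV : ∀ x y : E d, x - y ∈ Vᗮ → (x ∈ A ↔ y ∈ A)) (w : E d) (η : ℝ) (hη : 0 ≤ η)
    (hw : 0 < infDist w (V : Set (E d))) :
    stdGaussian (E d) (A ∩ {x | |inner ℝ x w| ≤ η}) ≤
      stdGaussian (E d) A * ENNReal.ofReal (η / infDist w (V : Set (E d))) := by
  set D := infDist w (V : Set (E d)) with hD
  set h : E d := w - V.starProjection w with hh
  have hDn : D = ‖h‖ := infDist_eq_norm V w
  have hhV : h ∈ Vᗮ := Submodule.sub_starProjection_mem_orthogonal w
  set e : E d := D⁻¹ • h with he
  have heV : e ∈ Vᗮ := Submodule.smul_mem _ _ hhV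
  have hen : ‖e‖ = 1 := by
    rw [he, norm_smul, ← hDn, Real.norm_eq_abs, abs_of_pos (inv_pos.2 hw), inv_mul_cancel₀ hw.ne']
  have hew : (inner ℝ e w : ℝ) = D := by
    have h1 : w = h + V.starProjection w := by
      rw [hh]
      abel
    have h2 : (inner ℝ h (V.starProjection w) : ℝ) = 0 :=
      Submodule.inner_left_of_mem_orthogonal (Submodule.starProjection_apply_mem V w) hhV
    have h3 : (inner ℝ h w : ℝ) = D ^ 2 := by
      conv_lhs => rw [h1]
      rw [inner_add_right, h2, add_zero, real_inner_self_eq_norm_sq, hDn]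
    rw [he, real_inner_smul_left, h3]
    field_simp
  set X : Submodule ℝ (E d) := (ℝ ∙ e)ᗮ with hX
  have hmeas : Measurable (fun p : X × ℝ => (p.1 : E d) + p.2 • e) := by
    apply Continuous.measurable
    fun_prop
  have hB : MeasurableSet (A ∩ {x | |inner ℝ x w| ≤ η}) := by
    apply hA.inter
    apply IsClosed.measurableSet
    apply isClosed_le _ continuous_const
    fun_prop
  have hsh : ∀ (x : E d) (t : ℝ), x + t • e ∈ A ↔ x ∈ A := by
    intro x t
    apply hV
    rw [add_sub_cancel_left]
    exact Submodule.smul_mem _ _ heV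
  rw [← stdGaussian_split e hen, Measure.map_apply hmeas hB, Measure.map_apply hmeas hA,
    Measure.prod_apply (hmeas hB), Measure.prod_apply (hmeas hA)]
  rw [← lintegral_mul_const]
  · apply lintegral_mono
    intro x
    by_cases hx : (x : E d) ∈ A
    · have h1 : Prod.mk x ⁻¹' ((fun p : X × ℝ => (p.1 : E d) + p.2 • e) ⁻¹' A) = Set.univ := by
        ext t
        simp only [Set.mem_preimage, Set.mem_univ, iff_true]
        exact (hsh x t).2 hx
      have h2 : Prod.mk x ⁻¹' ((fun p : X × ℝ => (p.1 : E d) + p.2 • e) ⁻¹'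
          (A ∩ {x | |inner ℝ x w| ≤ η}))
          ⊆ Set.Icc ((-η - inner ℝ (x : E d) w) / D) ((η - inner ℝ (x : E d) w) / D) := by
        intro t ht
        have h3 : |inner ℝ ((x : E d) + t • e) w| ≤ η := ht.2
        rw [inner_add_left, real_inner_smul_left, hew, abs_le] at h3
        rw [Set.mem_Icc, div_le_iff₀ hw, le_div_iff₀ hw]
        constructor <;> linarith [h3.1, h3.2]
      simp only [h1, measure_univ, one_mul]
      refine (measure_mono h2).trans ((gaussianReal_Icc_le _ _).trans (le_of_eq ?_))
      congr 1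
      field_simp
      ring
    · have h2 : Prod.mk x ⁻¹' ((fun p : X × ℝ => (p.1 : E d) + p.2 • e) ⁻¹'
          (A ∩ {x | |inner ℝ x w| ≤ η})) = ∅ := by
        ext t
        simp only [Set.mem_preimage, Set.mem_empty_iff_false, iff_false]
        intro ht
        exact hx ((hsh x t).1 ht.1)
      simp only [h2, measure_empty]
      exact zero_le
  · exact measurable_measure_prodMk_left (hmeas hA)

end P309
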