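import Vale.Agent.P309.G1

open MeasureTheory ProbabilityTheory Metric
open scoped ENNReal NNReal

namespace P309

/-- the event of `qrow` is closed -/
theorem qset_meas {d m : ℕ} (η : ℝ) (u : Fin m → E d) :
    MeasurableSet {x : E d | ∀ i, |inner ℝ x (u i)| ≤ η} := by
  apply IsClosed.measurableSet
  have : {x : E d | ∀ i, |inner ℝ x (u i)| ≤ η} = ⋂ i, {x : E d | |inner ℝ x (u i)| ≤ η} := by
    ext x
    simp
  rw [this]
  refine isClosed_iInter fun i => isClosed_le ?_ continuous_const
  fun_prop

theorem qrow_measurable {d m : ℕ} (η : ℝ) : Measurable (fun u : Fin m → E d => qrow η u) := by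
  unfold qrow
  have hS : MeasurableSet {p : (Fin m → E d) × E d | ∀ i, |inner ℝ p.2 (p.1 i)| ≤ η} := by
    apply IsClosed.measurableSet
    have : {p : (Fin m → E d) × E d | ∀ i, |inner ℝ p.2 (p.1 i)| ≤ η}
        = ⋂ i, {p : (Fin m → E d) × E d | |inner ℝ p.2 (p.1 i)| ≤ η} := by
      ext x
      simp
    rw [this]
    refine isClosed_iInter fun i => isClosed_le ?_ continuous_const
    fun_prop
  exact measurable_measure_prodMk_left (ν := stdGaussian (E d)) hS

theorem qrow_le_one {d m : ℕ} (η : ℝ) (u : Fin m → E d) : qrow η u ≤ 1 := prob_le_one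

/-- one step of the replica induction -/
theorem qrow_cons_pow_le {d n m : ℕ} (η : ℝ) (hη : 0 < η) (u : Fin m → E d) (w : E d) :
    (qrow η (Fin.cons w u : Fin (m + 1) → E d)) ^ n ≤
      (qrow η u) ^ n * (ENNReal.ofReal η ^ n
        * invd (Submodule.span ℝ (Set.range u)) n w) := by
  set V := Submodule.span ℝ (Set.range u) with hVdef
  have hset : {x : E d | ∀ i, |inner ℝ x ((Fin.cons w u : Fin (m + 1) → E d) i)| ≤ η}
      = {x : E d | ∀ i, |inner ℝ x (u i)| ≤ η} ∩ {x | |inner ℝ x w| ≤ η} := by
    ext x
    simp only [Set.mem_ofPred_eq, Set.mem_inter_iff, Fin.forall_fin_succ, Fin.cons_zero,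
      Fin.cons_succ]
    tauto
  rcases Nat.eq_zero_or_pos n with hn | hn
  · subst hn
    simp [invd]
  unfold invd
  rw [← mul_pow, ← mul_pow]
  apply pow_le_pow_left₀ zero_le
  rcases eq_or_lt_of_le (infDist_nonneg (x := w) (s := (V : Set (E d)))) with hD | hD
  · rw [← hD, ENNReal.ofReal_zero, ENNReal.inv_zero]
    by_cases hq : qrow η u = 0
    · have : qrow η (Fin.cons w u : Fin (m + 1) → E d) = 0 := by
        apply le_antisymm _ zero_le
        rw [← hq]
        unfold qrow
        rw [hset]
        exact measure_mono Set.inter_subset_left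
      rw [this]
      exact zero_le
    · rw [ENNReal.mul_top (by simpa using hη), ENNReal.mul_top hq]
      exact le_top
  · have hstep := gauss_step V {x : E d | ∀ i, |inner ℝ x (u i)| ≤ η} (qset_meas η u) (by
      intro x y hxy
      have h1 : ∀ i, (inner ℝ x (u i) : ℝ) = inner ℝ y (u i) := by
        intro i
        have h2 : (inner ℝ (x - y) (u i) : ℝ) = 0 :=
          Submodule.inner_left_of_mem_orthogonal
            (Submodule.subset_span (Set.mem_range_self i)) hxy
        rw [inner_sub_left] at h2
        linarith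
      simp only [Set.mem_ofPred_eq, h1]) w η hη.le hD
    unfold qrow
    rw [hset]
    refine hstep.trans (le_of_eq ?_)
    rw [ENNReal.ofReal_div_of_pos hD, ENNReal.div_eq_inv_mul, mul_comm (ENNReal.ofReal _)⁻¹]

/-- G2: integrating `m` replicas around the base point `s0`. -/
theorem replica {d n : ℕ} (m : ℕ) (Q : Measure (E d)) [IsFiniteMeasure Q] (s0 : E d) (η : ℝ)
    (hη : 0 < η) (G : ℝ≥0∞)
    (hG : ∀ V : Submodule ℝ (E d), Module.finrank ℝ V ≤ m → ∫⁻ s, invd V n (s - s0) ∂Q ≤ G) :
    ∫⁻ s : Fin m → E d, (qrow η (fun i => s i - s0)) ^ n ∂(Measure.pi fun _ => Q) ≤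
      (ENNReal.ofReal η ^ n * G) ^ m := by
  induction m with
  | zero =>
    rw [pow_zero]
    calc ∫⁻ s : Fin 0 → E d, (qrow η (fun i => s i - s0)) ^ n ∂(Measure.pi fun _ => Q)
        ≤ ∫⁻ _ : Fin 0 → E d, 1 ∂(Measure.pi fun _ => Q) :=
          lintegral_mono fun s => pow_le_one₀ zero_le (qrow_le_one _ _)
      _ = 1 := by
          rw [lintegral_one]
          simp
  | succ m ih =>
    have ih' := ih (fun V hV => hG V (hV.trans (Nat.le_succ m)))
    have hmp := measurePreserving_piFinSuccAbove (fun _ : Fin (m + 1) => Q) 0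
    have hsymm : ∀ p : E d × (Fin m → E d),
        (MeasurableEquiv.piFinSuccAbove (fun _ : Fin (m + 1) => E d) 0).symm p
          = (Fin.cons p.1 p.2 : Fin (m + 1) → E d) := by
      intro p
      change (Fin.insertNth (0 : Fin (m + 1)) p.1 p.2 : Fin (m + 1) → E d) = _
      rw [Fin.insertNth_zero']
    have hmeas : Measurable (fun s : Fin (m + 1) → E d => (qrow η (fun i => s i - s0)) ^ n) := by
      apply Measurable.pow_const
      exact (qrow_measurable η).comp (by fun_prop)
    have h1 : ∫⁻ s : Fin (m + 1) → E d, (qrow η (fun i => s i - s0)) ^ n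
          ∂(Measure.pi fun _ => Q)
        = ∫⁻ p : E d × (Fin m → E d), (qrow η (fun i =>
            ((Fin.cons p.1 p.2 : Fin (m + 1) → E d) i) - s0)) ^ n
            ∂(Q.prod (Measure.pi fun _ => Q)) := by
      rw [← hmp.symm.lintegral_comp hmeas]
      refine lintegral_congr fun p => ?_
      rw [hsymm]
    have hmeas2 : Measurable (fun p : E d × (Fin m → E d) => (qrow η (fun i =>
            ((Fin.cons p.1 p.2 : Fin (m + 1) → E d) i) - s0)) ^ n) := by
      have h3 := hmeas.comp (hmp.symm.measurable)
      have h4 : (fun p : E d × (Fin m → E d) => (qrow η (fun i =>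
            ((Fin.cons p.1 p.2 : Fin (m + 1) → E d) i) - s0)) ^ n)
          = (fun s : Fin (m + 1) → E d => (qrow η (fun i => s i - s0)) ^ n)
            ∘ (MeasurableEquiv.piFinSuccAbove (fun _ : Fin (m + 1) => E d) 0).symm := by
        funext p
        simp only [Function.comp_apply, hsymm]
      rw [h4]
      exact h3
    rw [h1, lintegral_prod_symm _ hmeas2.aemeasurable]
    calc ∫⁻ u : Fin m → E d, ∫⁻ w, (qrow η (fun i =>
            ((Fin.cons w u : Fin (m + 1) → E d) i) - s0)) ^ n ∂Q ∂(Measure.pi fun _ => Q)
        ≤ ∫⁻ u : Fin m → E d, (qrow η (fun i => u i - s0)) ^ n * (ENNReal.ofReal η ^ n * G)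
            ∂(Measure.pi fun _ => Q) := by
          apply lintegral_mono
          intro u
          have h2 : ∀ w : E d, (fun i => ((Fin.cons w u : Fin (m + 1) → E d) i) - s0)
              = (Fin.cons (w - s0) (fun i => u i - s0) : Fin (m + 1) → E d) := by
            intro w
            ext i : 1
            refine Fin.cases ?_ (fun i => ?_) i
            · simp
            · simp
          simp only [h2]
          set V := Submodule.span ℝ (Set.range fun i => u i - s0) with hV
          have hfr : Module.finrank ℝ V ≤ m + 1 := by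
            have := finrank_range_le_card (R := ℝ) (fun i : Fin m => u i - s0)
            rw [Fintype.card_fin] at this
            exact this.trans (Nat.le_succ m)
          calc ∫⁻ w, (qrow η (Fin.cons (w - s0) (fun i => u i - s0) : Fin (m + 1) → E d)) ^ n ∂Q
              ≤ ∫⁻ w, (qrow η (fun i => u i - s0)) ^ n
                  * (ENNReal.ofReal η ^ n * invd V n (w - s0)) ∂Q :=
                lintegral_mono fun w => qrow_cons_pow_le η hη _ _
            _ = (qrow η (fun i => u i - s0)) ^ n
                  * (ENNReal.ofReal η ^ n * ∫⁻ w, invd V n (w - s0) ∂Q) := by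
                rw [lintegral_const_mul', lintegral_const_mul']
                · exact ENNReal.pow_ne_top ENNReal.ofReal_ne_top
                · exact ENNReal.pow_ne_top (ne_top_of_le_ne_top ENNReal.one_ne_top
                    (qrow_le_one _ _))
            _ ≤ _ := by
                have := hG V hfr
                gcongr
      _ = (∫⁻ u : Fin m → E d, (qrow η (fun i => u i - s0)) ^ n ∂(Measure.pi fun _ => Q))
            * (ENNReal.ofReal η ^ n * G) := by
          rw [lintegral_mul_const]
          apply Measurable.pow_const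
          exact (qrow_measurable η).comp (by fun_prop)
      _ ≤ (ENNReal.ofReal η ^ n * G) ^ m * (ENNReal.ofReal η ^ n * G) := by gcongr
      _ = _ := (pow_succ _ _).symm

end P309
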