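import Vale.Agent.P309.G2

open MeasureTheory ProbabilityTheory Metric
open scoped ENNReal NNReal

namespace P309

/-- G3: the `(m+1)`-st moment of the smoothed label density. -/
theorem dens_pow {d n : ℕ} (m : ℕ) (Q : Measure (E d)) [IsFiniteMeasure Q] (η : ℝ)
    (hη : 0 < η) (G : ℝ≥0∞) (hG : Energy Q n m G) :
    ∫⁻ X : Fin n → E d, ∫⁻ Y : Fin n → ℝ, (dens Q η X Y) ^ (m + 1) ∂volume ∂(rows d n) ≤
      G ^ m * Q Set.univ := by
  classical
  set c : ℝ≥0∞ := (ENNReal.ofReal η ^ n)⁻¹ with hc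
  have hη0 : ENNReal.ofReal η ≠ 0 := by simpa using hη
  have hηn0 : ENNReal.ofReal η ^ n ≠ 0 := pow_ne_zero _ hη0
  have hηnt : ENNReal.ofReal η ^ n ≠ ∞ := ENNReal.pow_ne_top ENNReal.ofReal_ne_top
  set μN : Measure (Fin (m + 1) → E d) := Measure.pi fun _ => Q with hμN
  -- step 1
  have h1 : ∀ (X : Fin n → E d) (Y : Fin n → ℝ), (dens Q η X Y) ^ (m + 1) =
      c ^ (m + 1) * μN {s | ∀ i, ∀ r, |ap X (s i) r - Y r| ≤ η / 2} := by
    intro X Y
    have : {s : Fin (m + 1) → E d | ∀ i, ∀ r, |ap X (s i) r - Y r| ≤ η / 2} =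
        Set.univ.pi fun _ => {s | ∀ r, |ap X s r - Y r| ≤ η / 2} := by
      ext s; simp [Set.mem_pi]
    rw [this, hμN, Measure.pi_pi, dens, mul_pow, ← hc]
    simp
  -- measurability of the basic sets
  have hmeasS : ∀ X : Fin n → E d, MeasurableSet
      {p : (Fin (m + 1) → E d) × (Fin n → ℝ) | ∀ i, ∀ r, |ap X (p.1 i) r - p.2 r| ≤ η / 2} := by
    intro X
    refine IsClosed.measurableSet ?_
    simp only [Set.ofPred_forall]
    refine isClosed_iInter fun i => isClosed_iInter fun r => ?_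
    refine isClosed_le ?_ continuous_const
    unfold ap
    fun_prop
  have hmeasT : MeasurableSet
      {p : (Fin n → E d) × (Fin (m + 1) → E d) |
        ∀ i : Fin m, ∀ r, |inner ℝ (p.1 r) (p.2 i.succ - p.2 0)| ≤ η} := by
    refine IsClosed.measurableSet ?_
    simp only [Set.ofPred_forall]
    refine isClosed_iInter fun i => isClosed_iInter fun r => ?_
    refine isClosed_le ?_ continuous_const
    fun_prop
  -- step 2 and 3
  have h2 : ∀ X : Fin n → E d,
      ∫⁻ Y : Fin n → ℝ, (dens Q η X Y) ^ (m + 1) ∂volume ≤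
        c ^ (m + 1) * (ENNReal.ofReal η ^ n *
          μN {s | ∀ i : Fin m, ∀ r, |inner ℝ (X r) (s i.succ - s 0)| ≤ η}) := by
    intro X
    simp_rw [h1 X]
    rw [lintegral_const_mul']
    swap
    · exact ENNReal.pow_ne_top (ENNReal.inv_ne_top.mpr hηn0)
    refine mul_le_mul_right ?_ _
    have e1 := Measure.prod_apply (μ := μN) (ν := (volume : Measure (Fin n → ℝ))) (hmeasS X)
    have e2 := Measure.prod_apply_symm (μ := μN) (ν := (volume : Measure (Fin n → ℝ))) (hmeasS X)
    rw [e1] at e2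
    have e3 : ∫⁻ Y : Fin n → ℝ, μN {s | ∀ i, ∀ r, |ap X (s i) r - Y r| ≤ η / 2} ∂volume =
        ∫⁻ s, volume {Y : Fin n → ℝ | ∀ i, ∀ r, |ap X (s i) r - Y r| ≤ η / 2} ∂μN := e2.symm
    rw [e3]
    have hT : MeasurableSet
        {s : Fin (m + 1) → E d | ∀ i : Fin m, ∀ r, |inner ℝ (X r) (s i.succ - s 0)| ≤ η} :=
      measurable_prodMk_left (x := X) hmeasT
    calc ∫⁻ s, volume {Y : Fin n → ℝ | ∀ i, ∀ r, |ap X (s i) r - Y r| ≤ η / 2} ∂μN
        ≤ ∫⁻ s, ENNReal.ofReal η ^ n *
            ({s : Fin (m + 1) → E d |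
              ∀ i : Fin m, ∀ r, |inner ℝ (X r) (s i.succ - s 0)| ≤ η}.indicator 1 s) ∂μN := by
          refine lintegral_mono fun s => ?_
          by_cases hs : s ∈ {s : Fin (m + 1) → E d |
              ∀ i : Fin m, ∀ r, |inner ℝ (X r) (s i.succ - s 0)| ≤ η}
          · rw [Set.indicator_of_mem hs, Pi.one_apply, mul_one]
            have hsub : {Y : Fin n → ℝ | ∀ i, ∀ r, |ap X (s i) r - Y r| ≤ η / 2} ⊆
                Set.univ.pi fun r => Set.Icc (ap X (s 0) r - η / 2) (ap X (s 0) r + η / 2) := by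
              intro Y hY r _
              have := abs_le.mp (hY 0 r)
              exact ⟨by linarith [this.2], by linarith [this.1]⟩
            refine (measure_mono hsub).trans ?_
            rw [volume_pi_pi]
            simp only [Real.volume_Icc]
            have : ∀ r : Fin n, ap X (s 0) r + η / 2 - (ap X (s 0) r - η / 2) = η := by
              intro r; ring
            simp [this]
          · rw [Set.indicator_of_notMem hs, mul_zero]
            have : {Y : Fin n → ℝ | ∀ i, ∀ r, |ap X (s i) r - Y r| ≤ η / 2} = ∅ := by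
              ext Y
              simp only [Set.mem_ofPred_eq, Set.mem_empty_iff_false, iff_false]
              intro hY
              apply hs
              intro i r
              have a1 := hY i.succ r
              have a2 := hY 0 r
              have : inner ℝ (X r) (s i.succ - s 0) =
                  (ap X (s i.succ) r - Y r) - (ap X (s 0) r - Y r) := by
                unfold ap
                rw [inner_sub_right]; ring
              rw [this]
              calc |(ap X (s i.succ) r - Y r) - (ap X (s 0) r - Y r)|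
                  ≤ |ap X (s i.succ) r - Y r| + |ap X (s 0) r - Y r| := abs_sub _ _
                _ ≤ η / 2 + η / 2 := add_le_add a1 a2
                _ = η := by ring
            rw [this, measure_empty]
      _ = ENNReal.ofReal η ^ n *
          μN {s | ∀ i : Fin m, ∀ r, |inner ℝ (X r) (s i.succ - s 0)| ≤ η} := by
          rw [lintegral_const_mul' _ _ hηnt, lintegral_indicator_one hT]
  -- step 4
  have h4 : ∫⁻ X : Fin n → E d,
      μN {s | ∀ i : Fin m, ∀ r, |inner ℝ (X r) (s i.succ - s 0)| ≤ η} ∂(rows d n) =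
      ∫⁻ s, (rows d n) {X | ∀ i : Fin m, ∀ r, |inner ℝ (X r) (s i.succ - s 0)| ≤ η} ∂μN := by
    have e1 := Measure.prod_apply (μ := rows d n) (ν := μN) hmeasT
    have e2 := Measure.prod_apply_symm (μ := rows d n) (ν := μN) hmeasT
    rw [e1] at e2
    exact e2
  have h5 : ∀ s : Fin (m + 1) → E d,
      (rows d n) {X | ∀ i : Fin m, ∀ r, |inner ℝ (X r) (s i.succ - s 0)| ≤ η} =
        (qrow η fun i : Fin m => s i.succ - s 0) ^ n := by
    intro s
    have : {X : Fin n → E d | ∀ i : Fin m, ∀ r, |inner ℝ (X r) (s i.succ - s 0)| ≤ η} =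
        Set.univ.pi fun _ => {x | ∀ i : Fin m, |inner ℝ x (s i.succ - s 0)| ≤ η} := by
      ext X
      simp only [Set.mem_ofPred_eq, Set.mem_pi, Set.mem_univ, true_imp_iff]
      exact forall_comm
    rw [this, rows, Measure.pi_pi, qrow]
    simp
  -- step 5
  have hmeasf : Measurable fun s : Fin (m + 1) → E d =>
      (rows d n) {X | ∀ i : Fin m, ∀ r, |inner ℝ (X r) (s i.succ - s 0)| ≤ η} :=
    measurable_measure_prodMk_right hmeasT
  have h6 : ∫⁻ s, (rows d n) {X | ∀ i : Fin m, ∀ r, |inner ℝ (X r) (s i.succ - s 0)| ≤ η} ∂μN ≤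
      (ENNReal.ofReal η ^ n * G) ^ m * Q Set.univ := by
    have hmp := measurePreserving_piFinSuccAbove (fun _ : Fin (m + 1) => Q) 0
    have e1 := (hmp.symm _).lintegral_comp hmeasf
    rw [hμN, ← e1, lintegral_prod]
    swap
    · exact (hmeasf.comp (MeasurableEquiv.measurable _)).aemeasurable
    calc ∫⁻ s0, ∫⁻ s : Fin m → E d, (rows d n) {X | ∀ i : Fin m, ∀ r,
            |inner ℝ (X r) ((MeasurableEquiv.piFinSuccAbove (fun _ => E d) 0).symm (s0, s) i.succ
              - (MeasurableEquiv.piFinSuccAbove (fun _ => E d) 0).symm (s0, s) 0)| ≤ η}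
            ∂(Measure.pi fun _ => Q) ∂Q
        ≤ ∫⁻ _ : E d, (ENNReal.ofReal η ^ n * G) ^ m ∂Q := by
          refine lintegral_mono_ae ?_
          filter_upwards [hG] with s0 hs0
          refine le_trans (le_of_eq ?_) (replica m Q s0 η hη G hs0)
          refine lintegral_congr fun s => ?_
          rw [h5]
          rfl
      _ = (ENNReal.ofReal η ^ n * G) ^ m * Q Set.univ := by rw [lintegral_const]
  -- assembly
  calc ∫⁻ X : Fin n → E d, ∫⁻ Y : Fin n → ℝ, (dens Q η X Y) ^ (m + 1) ∂volume ∂(rows d n)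
      ≤ ∫⁻ X : Fin n → E d, c ^ (m + 1) * (ENNReal.ofReal η ^ n *
          μN {s | ∀ i : Fin m, ∀ r, |inner ℝ (X r) (s i.succ - s 0)| ≤ η}) ∂(rows d n) :=
        lintegral_mono h2
    _ = c ^ (m + 1) * (ENNReal.ofReal η ^ n * ∫⁻ X : Fin n → E d,
          μN {s | ∀ i : Fin m, ∀ r, |inner ℝ (X r) (s i.succ - s 0)| ≤ η} ∂(rows d n)) := by
        rw [lintegral_const_mul' _ _ (ENNReal.pow_ne_top (ENNReal.inv_ne_top.mpr hηn0)),
          lintegral_const_mul' _ _ hηnt]
    _ ≤ c ^ (m + 1) * (ENNReal.ofReal η ^ n *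
          ((ENNReal.ofReal η ^ n * G) ^ m * Q Set.univ)) := by
        rw [h4]
        exact mul_le_mul_right (mul_le_mul_right h6 _) _
    _ = (c * ENNReal.ofReal η ^ n) ^ (m + 1) * (G ^ m * Q Set.univ) := by ring
    _ = G ^ m * Q Set.univ := by
        rw [hc, ENNReal.inv_mul_cancel hηn0 hηnt, one_pow, one_mul]

end P309
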