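import Vale.Agent.P309.G3

open MeasureTheory ProbabilityTheory Metric Filter Topology
open scoped ENNReal NNReal

namespace P309

/-- The set of `(s, (X, Y))` such that all labels of `X` at `s` are `η / 2`-close to `Y`. -/
def closeSet (d n : ℕ) (η : ℝ) : Set (E d × ((Fin n → E d) × (Fin n → ℝ))) :=
  {p | ∀ r, |ap p.2.1 p.1 r - p.2.2 r| ≤ η / 2}

theorem measurableSet_closeSet (d n : ℕ) (η : ℝ) : MeasurableSet (closeSet d n η) := by
  refine IsClosed.measurableSet ?_
  unfold closeSet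
  simp only [Set.ofPred_forall]
  refine isClosed_iInter fun r => ?_
  refine isClosed_le ?_ continuous_const
  unfold ap
  fun_prop

theorem measurable_dens {d n : ℕ} (Q : Measure (E d)) [IsFiniteMeasure Q] (η : ℝ) :
    Measurable fun z : (Fin n → E d) × (Fin n → ℝ) => dens Q η z.1 z.2 := by
  unfold dens
  refine Measurable.const_mul ?_ _
  exact measurable_measure_prodMk_right (μ := Q) (measurableSet_closeSet d n η)

theorem continuous_ap {d n : ℕ} : Continuous fun p : E d × (Fin n → E d) => ap p.2 p.1 := by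
  unfold ap
  fun_prop

/-- smoothed function -/
noncomputable def smooth {d n : ℕ} (η : ℝ) (g : (Fin n → E d) × (Fin n → ℝ) → ℝ≥0∞)
    (X : Fin n → E d) (Y : Fin n → ℝ) : ℝ≥0∞ :=
  (ENNReal.ofReal η ^ n)⁻¹ *
    ∫⁻ y, (closedBall (0 : Fin n → ℝ) (η / 2)).indicator (fun _ => (1 : ℝ≥0∞)) y * g (X, Y + y)

theorem mem_cb_iff {n : ℕ} {η : ℝ} (hη : 0 < η) (y : Fin n → ℝ) :
    y ∈ closedBall (0 : Fin n → ℝ) (η / 2) ↔ ∀ r, |y r| ≤ η / 2 := by
  rw [mem_closedBall_zero_iff, pi_norm_le_iff_of_nonneg (by positivity)]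
  simp [Real.norm_eq_abs]

theorem volume_cb {n : ℕ} {η : ℝ} (hη : 0 < η) :
    volume (closedBall (0 : Fin n → ℝ) (η / 2)) = ENNReal.ofReal η ^ n := by
  rw [Real.volume_pi_closedBall _ (by positivity)]
  rw [show 2 * (η / 2) = η by ring, Fintype.card_fin, ENNReal.ofReal_pow hη.le]

/-- smoothed integral identity (inequality form) -/
theorem smooth_int {d n : ℕ} (Q : Measure (E d)) [IsFiniteMeasure Q] {η : ℝ} (hη : 0 < η)
    (g : (Fin n → E d) × (Fin n → ℝ) → ℝ≥0∞) (hg : Measurable g) :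
    ∫⁻ p, smooth η g p.2 (ap p.2 p.1) ∂(Q.prod (rows d n)) =
      ∫⁻ z, g z * dens Q η z.1 z.2 ∂((rows d n).prod volume) := by
  set c : ℝ≥0∞ := (ENNReal.ofReal η ^ n)⁻¹ with hc
  have hη0 : ENNReal.ofReal η ≠ 0 := by simpa using hη
  have hct : c ≠ ∞ := ENNReal.inv_ne_top.mpr (pow_ne_zero _ hη0)
  -- rewrite smooth at the labels
  have h1 : ∀ (s : E d) (X : Fin n → E d), smooth η g X (ap X s) =
      c * ∫⁻ Y, (closeSet d n η).indicator (fun _ => (1 : ℝ≥0∞)) (s, (X, Y)) * g (X, Y) := by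
    intro s X
    unfold smooth
    rw [← hc]
    congr 1
    rw [← lintegral_sub_right_eq_self _ (ap X s)]
    refine lintegral_congr fun Y => ?_
    rw [add_sub_cancel]
    congr 1
    by_cases hY : (s, (X, Y)) ∈ closeSet d n η
    · rw [Set.indicator_of_mem hY, Set.indicator_of_mem]
      rw [mem_cb_iff hη]
      intro r
      rw [Pi.sub_apply, abs_sub_comm]
      exact hY r
    · rw [Set.indicator_of_notMem hY, Set.indicator_of_notMem]
      rw [mem_cb_iff hη]
      intro h
      apply hY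
      intro r
      have := h r
      rwa [Pi.sub_apply, abs_sub_comm] at this
  have hmI : Measurable fun p : E d × ((Fin n → E d) × (Fin n → ℝ)) =>
      (closeSet d n η).indicator (fun _ => (1 : ℝ≥0∞)) p :=
    measurable_const.indicator (measurableSet_closeSet d n η)
  have hmIg : Measurable fun p : E d × ((Fin n → E d) × (Fin n → ℝ)) =>
      (closeSet d n η).indicator (fun _ => (1 : ℝ≥0∞)) p * g p.2 :=
    hmI.mul (hg.comp measurable_snd)
  -- the function of (s, X)
  have hm2 : Measurable fun p : E d × (Fin n → E d) =>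
      ∫⁻ Y : Fin n → ℝ, (closeSet d n η).indicator (fun _ => (1 : ℝ≥0∞)) (p.1, (p.2, Y)) *
        g (p.2, Y) := by
    have : Measurable fun q : (E d × (Fin n → E d)) × (Fin n → ℝ) =>
        (closeSet d n η).indicator (fun _ => (1 : ℝ≥0∞)) (q.1.1, (q.1.2, q.2)) *
          g (q.1.2, q.2) :=
      hmIg.comp (by fun_prop :
        Measurable fun q : (E d × (Fin n → E d)) × (Fin n → ℝ) => (q.1.1, (q.1.2, q.2)))
    exact this.lintegral_prod_right'
  calc ∫⁻ p, smooth η g p.2 (ap p.2 p.1) ∂(Q.prod (rows d n))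
      = c * ∫⁻ p : E d × (Fin n → E d), ∫⁻ Y : Fin n → ℝ,
          (closeSet d n η).indicator (fun _ => (1 : ℝ≥0∞)) (p.1, (p.2, Y)) * g (p.2, Y)
            ∂volume ∂(Q.prod (rows d n)) := by
        rw [← lintegral_const_mul' _ _ hct]
        exact lintegral_congr fun p => h1 p.1 p.2
    _ = c * ∫⁻ s, ∫⁻ X, ∫⁻ Y : Fin n → ℝ,
          (closeSet d n η).indicator (fun _ => (1 : ℝ≥0∞)) (s, (X, Y)) * g (X, Y)
            ∂volume ∂(rows d n) ∂Q := by
        rw [lintegral_prod _ hm2.aemeasurable]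
    _ = c * ∫⁻ s, ∫⁻ z, (closeSet d n η).indicator (fun _ => (1 : ℝ≥0∞)) (s, z) * g z
            ∂((rows d n).prod volume) ∂Q := by
        congr 1
        refine lintegral_congr fun s => ?_
        have hms : Measurable fun z : (Fin n → E d) × (Fin n → ℝ) =>
            (closeSet d n η).indicator (fun _ => (1 : ℝ≥0∞)) (s, z) * g z :=
          hmIg.comp measurable_prodMk_left
        exact (lintegral_prod _ hms.aemeasurable).symm
    _ = c * ∫⁻ z, ∫⁻ s, (closeSet d n η).indicator (fun _ => (1 : ℝ≥0∞)) (s, z) * g z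
            ∂Q ∂((rows d n).prod volume) := by
        rw [lintegral_lintegral_swap hmIg.aemeasurable]
    _ = ∫⁻ z, g z * dens Q η z.1 z.2 ∂((rows d n).prod volume) := by
        rw [← lintegral_const_mul' _ _ hct]
        refine lintegral_congr fun z => ?_
        have hms : Measurable fun s : E d =>
            (closeSet d n η).indicator (fun _ => (1 : ℝ≥0∞)) (s, z) :=
          hmI.comp measurable_prodMk_right
        rw [lintegral_mul_const _ hms]
        have : ∫⁻ s, (closeSet d n η).indicator (fun _ => (1 : ℝ≥0∞)) (s, z) ∂Q =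
            Q {s | ∀ r, |ap z.1 s r - z.2 r| ≤ η / 2} := by
          have hS : MeasurableSet {s : E d | ∀ r, |ap z.1 s r - z.2 r| ≤ η / 2} :=
            measurable_prodMk_right (y := z) (measurableSet_closeSet d n η)
          rw [← lintegral_indicator_one hS]
          rfl
        rw [this, dens]
        ring

theorem le_liminf_smooth {d n : ℕ} (g : (Fin n → E d) × (Fin n → ℝ) → ℝ≥0∞)
    (hg : LowerSemicontinuous g) (X : Fin n → E d) (Y : Fin n → ℝ) :
    g (X, Y) ≤ liminf (fun k : ℕ => smooth (1 / ((k : ℝ) + 1)) g X Y) atTop := by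
  refine le_of_forall_lt fun a ha => ?_
  obtain ⟨a', ha1, ha2⟩ := exists_between ha
  refine lt_of_lt_of_le ha1 (le_liminf_of_le (by isBoundedDefault) ?_)
  have h1 := hg (X, Y) a' ha2
  -- near Y
  have h2 : ∀ᶠ y in 𝓝 (0 : Fin n → ℝ), a' < g (X, Y + y) := by
    have ht : Tendsto (fun y : Fin n → ℝ => (X, Y + y)) (𝓝 0) (𝓝 (X, Y)) := by
      have : Continuous fun y : Fin n → ℝ => (X, Y + y) := by fun_prop
      simpa using this.tendsto 0
    exact ht.eventually h1
  obtain ⟨ε, hε, hball⟩ := Metric.eventually_nhds_iff_ball.mp h2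
  have h3 : ∀ᶠ k : ℕ in atTop, 1 / ((k : ℝ) + 1) < ε :=
    (tendsto_one_div_add_atTop_nhds_zero_nat (𝕜 := ℝ)).eventually (gt_mem_nhds hε)
  filter_upwards [h3] with k hk
  have hη : (0 : ℝ) < 1 / ((k : ℝ) + 1) := by positivity
  set η : ℝ := 1 / ((k : ℝ) + 1) with hηdef
  have hη0 : ENNReal.ofReal η ≠ 0 := by simpa using hη
  have hηn0 : ENNReal.ofReal η ^ n ≠ 0 := pow_ne_zero _ hη0
  have hηnt : ENNReal.ofReal η ^ n ≠ ∞ := ENNReal.pow_ne_top ENNReal.ofReal_ne_top
  unfold smooth
  calc a' = (ENNReal.ofReal η ^ n)⁻¹ * (ENNReal.ofReal η ^ n * a') := by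
        rw [← mul_assoc, ENNReal.inv_mul_cancel hηn0 hηnt, one_mul]
    _ = (ENNReal.ofReal η ^ n)⁻¹ *
        ∫⁻ y, (closedBall (0 : Fin n → ℝ) (η / 2)).indicator (fun _ => (1 : ℝ≥0∞)) y * a' := by
        congr 1
        rw [lintegral_mul_const' _ _ (ne_top_of_lt ha2)]
        congr 1
        rw [lintegral_indicator_const measurableSet_closedBall, one_mul, volume_cb hη]
    _ ≤ (ENNReal.ofReal η ^ n)⁻¹ *
        ∫⁻ y, (closedBall (0 : Fin n → ℝ) (η / 2)).indicator (fun _ => (1 : ℝ≥0∞)) y *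
          g (X, Y + y) := by
        refine mul_le_mul_right (lintegral_mono fun y => ?_) _
        by_cases hy : y ∈ closedBall (0 : Fin n → ℝ) (η / 2)
        · rw [Set.indicator_of_mem hy, one_mul, one_mul]
          refine (hball y ?_).le
          rw [mem_closedBall] at hy
          rw [mem_ball]
          linarith
        · rw [Set.indicator_of_notMem hy, zero_mul, zero_mul]

/-- The inequality for lower semicontinuous functions. -/
theorem star_lsc {d n : ℕ} (m : ℕ) (hm : 1 ≤ m) (Q : Measure (E d)) [IsFiniteMeasure Q]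
    (G : ℝ≥0∞) (hG : Energy Q n m G) (g : (Fin n → E d) × (Fin n → ℝ) → ℝ≥0∞)
    (hg : LowerSemicontinuous g) (hg1 : ∀ z, g z ≤ 1) :
    ∫⁻ p, g (p.2, ap p.2 p.1) ∂(Q.prod (rows d n)) ≤
      (∫⁻ z, g z ∂((rows d n).prod volume)) ^ ((m : ℝ) / (m + 1)) *
        (G ^ m * Q Set.univ) ^ ((1 : ℝ) / (m + 1)) := by
  have hgm : Measurable g := hg.measurable
  have hm0 : (0 : ℝ) < m := by exact_mod_cast hm
  -- bound for every eta
  have hstep : ∀ η : ℝ, 0 < η →
      ∫⁻ p, smooth η g p.2 (ap p.2 p.1) ∂(Q.prod (rows d n)) ≤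
      (∫⁻ z, g z ∂((rows d n).prod volume)) ^ ((m : ℝ) / (m + 1)) *
        (G ^ m * Q Set.univ) ^ ((1 : ℝ) / (m + 1)) := by
    intro η hη
    rw [smooth_int Q hη g hgm]
    have hpq : (((m : ℝ) + 1) / m).HolderConjugate ((m : ℝ) + 1) := by
      rw [Real.holderConjugate_iff]
      constructor
      · rw [lt_div_iff₀ hm0]; linarith
      · field_simp
    refine (ENNReal.lintegral_mul_le_Lp_mul_Lq _ hpq hgm.aemeasurable
      (measurable_dens Q η).aemeasurable).trans ?_
    have e1 : (1 : ℝ) / (((m : ℝ) + 1) / m) = (m : ℝ) / (m + 1) := by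
      field_simp
    rw [e1]
    refine mul_le_mul' ?_ ?_
    · refine ENNReal.rpow_le_rpow (lintegral_mono fun z => ?_) (by positivity)
      calc g z ^ (((m : ℝ) + 1) / m) ≤ g z ^ (1 : ℝ) := by
            refine ENNReal.rpow_le_rpow_of_exponent_ge (hg1 z) ?_
            rw [le_div_iff₀ hm0]; linarith
        _ = g z := ENNReal.rpow_one _
    · refine ENNReal.rpow_le_rpow ?_ (by positivity)
      have e2 : ∀ z : (Fin n → E d) × (Fin n → ℝ),
          dens Q η z.1 z.2 ^ ((m : ℝ) + 1) = dens Q η z.1 z.2 ^ (m + 1) := by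
        intro z
        rw [← ENNReal.rpow_natCast]
        congr 1
        push_cast
        rfl
      simp_rw [e2]
      rw [lintegral_prod _ ((measurable_dens Q η).pow_const _).aemeasurable]
      exact dens_pow m Q η hη G hG
  -- measurability of the smoothed function
  have hmeas : ∀ η : ℝ, Measurable fun p : E d × (Fin n → E d) => smooth η g p.2 (ap p.2 p.1) := by
    intro η
    unfold smooth
    refine Measurable.const_mul ?_ _
    have h1 : Measurable fun q : (E d × (Fin n → E d)) × (Fin n → ℝ) =>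
        (closedBall (0 : Fin n → ℝ) (η / 2)).indicator (fun _ => (1 : ℝ≥0∞)) q.2 *
          g (q.1.2, ap q.1.2 q.1.1 + q.2) := by
      refine Measurable.mul ?_ ?_
      · exact (measurable_const.indicator measurableSet_closedBall).comp measurable_snd
      · refine hgm.comp ?_
        refine Measurable.prodMk (by fun_prop) ?_
        exact ((continuous_ap.comp continuous_fst).add continuous_snd).measurable
    exact h1.lintegral_prod_right'
  calc ∫⁻ p, g (p.2, ap p.2 p.1) ∂(Q.prod (rows d n))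
      ≤ ∫⁻ p, liminf (fun k : ℕ => smooth (1 / ((k : ℝ) + 1)) g p.2 (ap p.2 p.1)) atTop
          ∂(Q.prod (rows d n)) := lintegral_mono fun p => le_liminf_smooth g hg _ _
    _ ≤ liminf (fun k : ℕ => ∫⁻ p, smooth (1 / ((k : ℝ) + 1)) g p.2 (ap p.2 p.1)
          ∂(Q.prod (rows d n))) atTop := lintegral_liminf_le fun k => hmeas _
    _ ≤ _ := by
        refine liminf_le_of_frequently_le' (Frequently.of_forall fun k => ?_)
        exact hstep _ (by positivity)

/-- G4: the replica Hoelder inequality for exact labels. -/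
theorem star {d n : ℕ} (m : ℕ) (Q : Measure (E d)) [IsFiniteMeasure Q] (G : ℝ≥0∞)
    (hG : Energy Q n m G) (hGt : G ≠ ∞) (F : (Fin n → E d) × (Fin n → ℝ) → ℝ≥0∞)
    (hF : Measurable F) (hF1 : ∀ z, F z ≤ 1) :
    ∫⁻ s, ∫⁻ X, F (X, ap X s) ∂(rows d n) ∂Q ≤
      (∫⁻ z, F z ∂((rows d n).prod volume)) ^ ((m : ℝ) / (m + 1)) *
        (G ^ m * Q Set.univ) ^ ((1 : ℝ) / (m + 1)) := by
  rcases Nat.eq_zero_or_pos m with rfl | hm
  · -- trivial case
    simp only [Nat.cast_zero, ENNReal.rpow_zero, one_mul, pow_zero, zero_add, div_one,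
      ENNReal.rpow_one]
    calc ∫⁻ s, ∫⁻ X, F (X, ap X s) ∂(rows d n) ∂Q ≤ ∫⁻ _, ∫⁻ _, 1 ∂(rows d n) ∂Q :=
          lintegral_mono fun s => lintegral_mono fun X => hF1 _
      _ = Q Set.univ := by simp
  have hFm : Measurable fun p : E d × (Fin n → E d) => F (p.2, ap p.2 p.1) :=
    hF.comp (Measurable.prodMk measurable_snd continuous_ap.measurable)
  have hL : ∫⁻ s, ∫⁻ X, F (X, ap X s) ∂(rows d n) ∂Q =
      ∫⁻ p, F (p.2, ap p.2 p.1) ∂(Q.prod (rows d n)) := by
    rw [lintegral_prod _ hFm.aemeasurable]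
  rw [hL]
  set C : ℝ≥0∞ := (G ^ m * Q Set.univ) ^ ((1 : ℝ) / (m + 1)) with hC
  have hCt : C ≠ ∞ := by
    refine ENNReal.rpow_ne_top_of_nonneg (by positivity) ?_
    exact ENNReal.mul_ne_top (ENNReal.pow_ne_top hGt) (measure_ne_top _ _)
  have hα : 0 < (m : ℝ) / (m + 1) := by positivity
  -- bound by every lower semicontinuous majorant
  have hmaj : ∀ ε : ℝ≥0∞, ε ≠ 0 →
      ∫⁻ p, F (p.2, ap p.2 p.1) ∂(Q.prod (rows d n)) ≤
        (∫⁻ z, F z ∂((rows d n).prod volume) + ε) ^ ((m : ℝ) / (m + 1)) * C := by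
    intro ε hε
    obtain ⟨g, hFg, hglsc, hgint⟩ :=
      exists_le_lowerSemicontinuous_lintegral_ge ((rows d n).prod (volume : Measure (Fin n → ℝ)))
        F hF hε
    have hmlsc : LowerSemicontinuous fun z => min (g z) 1 := by
      intro z a ha
      have h1 := (lt_min_iff.mp ha)
      filter_upwards [hglsc z a h1.1] with z' hz'
      exact lt_min hz' h1.2
    calc ∫⁻ p, F (p.2, ap p.2 p.1) ∂(Q.prod (rows d n))
        ≤ ∫⁻ p, (fun z => min (g z) 1) (p.2, ap p.2 p.1) ∂(Q.prod (rows d n)) :=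
          lintegral_mono fun p => le_min (hFg _) (hF1 _)
      _ ≤ (∫⁻ z, (fun z => min (g z) 1) z ∂((rows d n).prod volume)) ^ ((m : ℝ) / (m + 1)) * C :=
          star_lsc m hm Q G hG _ hmlsc fun z => min_le_right _ _
      _ ≤ (∫⁻ z, F z ∂((rows d n).prod volume) + ε) ^ ((m : ℝ) / (m + 1)) * C := by
          refine mul_le_mul_left (ENNReal.rpow_le_rpow ?_ hα.le) _
          exact (lintegral_mono fun z => min_le_left _ _).trans hgint
  -- let eps tend to zero
  have hlim : Tendsto (fun k : ℕ =>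
      (∫⁻ z, F z ∂((rows d n).prod volume) + ((k : ℝ≥0∞) + 1)⁻¹) ^ ((m : ℝ) / (m + 1)) * C) atTop
      (𝓝 ((∫⁻ z, F z ∂((rows d n).prod volume) + 0) ^ ((m : ℝ) / (m + 1)) * C)) := by
    refine ENNReal.Tendsto.mul_const ?_ (Or.inr hCt)
    refine (ENNReal.continuous_rpow_const.tendsto _).comp ?_
    refine tendsto_const_nhds.add ?_
    have := ENNReal.tendsto_inv_nat_nhds_zero
    have h2 := (tendsto_add_atTop_iff_nat 1).mpr this
    refine h2.congr fun k => ?_
    push_cast
    rfl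
  rw [add_zero] at hlim
  refine ge_of_tendsto' hlim fun k => hmaj _ ?_
  rw [ENNReal.inv_ne_zero]
  finiteness

end P309
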