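import Vale.Agent.P309.Defs

open MeasureTheory ProbabilityTheory Metric
open scoped ENNReal NNReal Pointwise

namespace P309

theorem s1_univ_ne_zero {d : ℕ} (hd : 1 ≤ d) :
    (volume : Measure (E d)).toSphere Set.univ ≠ 0 := by
  have : Nontrivial (E d) := by
    have : Nonempty (Fin d) := ⟨⟨0, hd⟩⟩
    infer_instance
  rw [ne_eq, Measure.measure_univ_eq_zero]
  exact Measure.toSphere_ne_zero _

theorem unif_prob {d : ℕ} (hd : 1 ≤ d) : IsProbabilityMeasure (unif d) := by
  refine ⟨?_⟩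
  unfold unif
  rw [Measure.smul_apply, smul_eq_mul, Measure.map_apply measurable_subtype_coe MeasurableSet.univ,
    Set.preimage_univ]
  exact ENNReal.inv_mul_cancel (s1_univ_ne_zero hd) (measure_ne_top _ _)

theorem unif_sphere {d : ℕ} : unif d {x | ‖x‖ = 1}ᶜ = 0 := by
  unfold unif
  have hm : MeasurableSet ({x : E d | ‖x‖ = 1}ᶜ) :=
    (isClosed_eq continuous_norm continuous_const).measurableSet.compl
  rw [Measure.smul_apply, smul_eq_mul, Measure.map_apply measurable_subtype_coe hm]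
  have : (Subtype.val ⁻¹' ({x : E d | ‖x‖ = 1}ᶜ) : Set (sphere (0 : E d) 1)) = ∅ := by
    ext ⟨x, hx⟩
    simp
  rw [this, measure_empty, mul_zero]

theorem s1_cone {d : ℕ} (x : E d) (r : ℝ) (hr : 0 < r) (hr1 : r < 1) :
    volume (Set.Ioo (0 : ℝ) 1 •
        ((↑) '' (Subtype.val ⁻¹' closedBall x r : Set (sphere (0 : E d) 1)) : Set (E d))) ≤
      ENNReal.ofReal (2 ^ (2 * d + 1) * r ^ (d - 1)) * volume (ball (0 : E d) 1) := by
  rcases Set.eq_empty_or_nonempty
    (Subtype.val ⁻¹' closedBall x r : Set (sphere (0 : E d) 1)) with h | ⟨s0, hs0⟩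
  · rw [h]; simp
  by_cases hd : d = 0
  · subst hd
    exact absurd s0.2 (by
      have : (s0 : E 0) = 0 := Subsingleton.elim _ _
      rw [this]; simp)
  set M : ℕ := ⌈1 / r⌉₊ with hM
  have hM2 : (M : ℝ) ≤ 2 / r := by
    have h1 : (M : ℝ) < 1 / r + 1 := Nat.ceil_lt_add_one (by positivity)
    have h2 : 1 ≤ 1 / r := by rw [le_div_iff₀ hr]; linarith
    have h3 : 2 / r = 1 / r + 1 / r := by ring
    linarith
  have hsub : Set.Ioo (0 : ℝ) 1 •
      ((↑) '' (Subtype.val ⁻¹' closedBall x r : Set (sphere (0 : E d) 1)) : Set (E d)) ⊆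
      ⋃ i ∈ Finset.range M, closedBall (((i : ℝ) * r) • (s0 : E d)) (3 * r) := by
    rintro _ ⟨t, ht, _, ⟨s, hs, rfl⟩, rfl⟩
    have hti : (⌊t / r⌋₊ : ℝ) ≤ t / r := Nat.floor_le (div_nonneg ht.1.le hr.le)
    have hti2 : t / r < ⌊t / r⌋₊ + 1 := Nat.lt_floor_add_one _
    rw [le_div_iff₀ hr] at hti
    rw [div_lt_iff₀ hr] at hti2
    simp only [Set.mem_iUnion]
    refine ⟨⌊t / r⌋₊, ?_, ?_⟩
    · rw [Finset.mem_range, hM, Nat.lt_ceil, lt_div_iff₀ hr]
      exact hti.trans_lt ht.2
    · rw [mem_closedBall, dist_eq_norm]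
      have h1 : t • (s : E d) - ((⌊t / r⌋₊ : ℝ) * r) • (s0 : E d) =
          (t - (⌊t / r⌋₊ : ℝ) * r) • (s : E d) +
            ((⌊t / r⌋₊ : ℝ) * r) • ((s : E d) - (s0 : E d)) := by
        rw [sub_smul, smul_sub]; abel
      have hsn : ‖(s : E d)‖ = 1 := by
        simp
      have hss : ‖(s : E d) - (s0 : E d)‖ ≤ 2 * r := by
        have h2 : dist (s : E d) x ≤ r := hs
        have h3 : dist (s0 : E d) x ≤ r := hs0
        rw [← dist_eq_norm]
        calc dist (s : E d) (s0 : E d) ≤ dist (s : E d) x + dist (s0 : E d) x :=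
              dist_triangle_right _ _ _
          _ ≤ 2 * r := by linarith
      show ‖t • (s : E d) - ((⌊t / r⌋₊ : ℝ) * r) • (s0 : E d)‖ ≤ 3 * r
      rw [h1]
      refine (norm_add_le _ _).trans ?_
      rw [norm_smul, norm_smul, hsn, mul_one, Real.norm_of_nonneg (by linarith),
        Real.norm_of_nonneg (by positivity)]
      have h4 : (⌊t / r⌋₊ : ℝ) * r * ‖(s : E d) - (s0 : E d)‖ ≤ 1 * (2 * r) := by
        apply mul_le_mul (hti.trans ht.2.le) hss (norm_nonneg _) zero_le_one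
      nlinarith
  refine (measure_mono hsub).trans ((measure_biUnion_finset_le _ _).trans ?_)
  calc ∑ i ∈ Finset.range M, volume (closedBall (((i : ℝ) * r) • (s0 : E d)) (3 * r))
      = ∑ _i ∈ Finset.range M, ENNReal.ofReal ((3 * r) ^ d) * volume (ball (0 : E d) 1) := by
        refine Finset.sum_congr rfl fun i _ => ?_
        rw [Measure.addHaar_closedBall _ _ (by positivity)]
        simp
    _ = ENNReal.ofReal (M * (3 * r) ^ d) * volume (ball (0 : E d) 1) := by
        rw [Finset.sum_const, Finset.card_range, nsmul_eq_mul, ← mul_assoc,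
          ENNReal.ofReal_mul (by positivity), ENNReal.ofReal_natCast]
    _ ≤ ENNReal.ofReal (2 ^ (2 * d + 1) * r ^ (d - 1)) * volume (ball (0 : E d) 1) := by
        refine mul_le_mul_left (ENNReal.ofReal_le_ofReal ?_) _
        have h5 : r ^ d = r ^ (d - 1) * r := by
          rw [← pow_succ]; congr 1; omega
        calc (M : ℝ) * (3 * r) ^ d ≤ 2 / r * (3 * r) ^ d := by gcongr
          _ = 2 * 3 ^ d * r ^ (d - 1) := by
              rw [mul_pow, h5]; field_simp
          _ ≤ 2 * 4 ^ d * r ^ (d - 1) := by gcongr; norm_num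
          _ = 2 ^ (2 * d + 1) * r ^ (d - 1) := by
              rw [pow_succ, pow_mul, show (2 : ℝ) ^ 2 = 4 by norm_num, mul_comm ((4 : ℝ) ^ d)]

theorem unif_closedBall {d : ℕ} (hd : 1 ≤ d) (x : E d) (r : ℝ) (hr : 0 < r) :
    unif d (closedBall x r) ≤ ENNReal.ofReal (2 ^ (2 * d + 1) * r ^ (d - 1)) := by
  rcases lt_or_ge r 1 with hr1 | hr1
  · unfold unif
    have hm : MeasurableSet (Subtype.val ⁻¹' closedBall x r : Set (sphere (0 : E d) 1)) :=
      measurable_subtype_coe measurableSet_closedBall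
    rw [Measure.smul_apply, smul_eq_mul,
      Measure.map_apply measurable_subtype_coe measurableSet_closedBall,
      Measure.toSphere_apply' _ hm, ENNReal.inv_mul_le_iff (s1_univ_ne_zero hd)
        (measure_ne_top _ _), Measure.toSphere_apply_univ]
    calc _ ≤ (Module.finrank ℝ (E d) : ℝ≥0∞) *
          (ENNReal.ofReal (2 ^ (2 * d + 1) * r ^ (d - 1)) * volume (ball (0 : E d) 1)) := by
          refine mul_le_mul_right (s1_cone x r hr hr1) _
      _ = _ := by ring
  · have := unif_prob hd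
    refine prob_le_one.trans ?_
    rw [ENNReal.one_le_ofReal]
    have h1 : (1 : ℝ) ≤ 2 ^ (2 * d + 1) := one_le_pow₀ (by norm_num)
    have h2 : (1 : ℝ) ≤ r ^ (d - 1) := one_le_pow₀ hr1
    nlinarith

end P309
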