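import Vale.Agent.P309.O1
import Vale.Agent.P309.S1

open MeasureTheory ProbabilityTheory Metric
open scoped ENNReal NNReal

namespace P309

/-- Success probability with `i` windows to go, from memory state `m`, for the signal `s`:
`g i m X Y` is the new state, `o` the output, `ε` the accuracy. -/
noncomputable def val {d n : ℕ} {σ : Type} (g : ℕ → σ → (Fin n → E d) → (Fin n → ℝ) → σ)
    (o : σ → E d) (ε : ℝ) : ℕ → σ → E d → ℝ≥0∞
  | 0, m, s => (closedBall (o m) ε).indicator 1 s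
  | i + 1, m, s => ∫⁻ X, val g o ε i (g i m X (ap X s)) s ∂(rows d n)

lemma measurable_ap {d n : ℕ} :
    Measurable (fun p : (Fin n → E d) × E d => ap p.1 p.2) := by
  unfold ap
  fun_prop

lemma measurable_ap_left {d n : ℕ} (s : E d) :
    Measurable (fun X : (Fin n → E d) => (X, ap X s)) := by
  unfold ap
  fun_prop

/-- indicator kernels of a window map -/
noncomputable def kap {d n : ℕ} {σ : Type} [DecidableEq σ]
    (g : (Fin n → E d) → (Fin n → ℝ) → σ) (v : σ)
    (p : (Fin n → E d) × (Fin n → ℝ)) : ℝ≥0∞ :=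
  {p : (Fin n → E d) × (Fin n → ℝ) | g p.1 p.2 = v}.indicator 1 p

lemma measurable_kap {d n : ℕ} {σ : Type} [DecidableEq σ]
    (g : (Fin n → E d) → (Fin n → ℝ) → σ)
    (hg : ∀ v, MeasurableSet {p : (Fin n → E d) × (Fin n → ℝ) | g p.1 p.2 = v}) (v : σ) :
    Measurable (kap g v) := by
  unfold kap
  exact measurable_one.indicator (hg v)

lemma sum_kap_mul {d n : ℕ} {σ : Type} [Fintype σ] [DecidableEq σ]
    (g : (Fin n → E d) → (Fin n → ℝ) → σ) (p : (Fin n → E d) × (Fin n → ℝ))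
    (f : σ → ℝ≥0∞) : ∑ v, kap g v p * f v = f (g p.1 p.2) := by
  classical
  rw [Finset.sum_eq_single (g p.1 p.2)]
  · simp [kap]
  · intro v _ hv
    have : kap g v p = 0 := by
      unfold kap
      rw [Set.indicator_of_notMem]
      simpa using fun h => hv h.symm
    simp [this]
  · simp

lemma sum_kap {d n : ℕ} {σ : Type} [Fintype σ] [DecidableEq σ]
    (g : (Fin n → E d) → (Fin n → ℝ) → σ) (p : (Fin n → E d) × (Fin n → ℝ)) :
    ∑ v, kap g v p = 1 := by
  have := sum_kap_mul g p (fun _ => 1)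
  simpa using this

lemma measurable_val {d n : ℕ} {σ : Type} [Fintype σ] [DecidableEq σ]
    (g : ℕ → σ → (Fin n → E d) → (Fin n → ℝ) → σ)
    (hg : ∀ i m v, MeasurableSet {p : (Fin n → E d) × (Fin n → ℝ) | g i m p.1 p.2 = v})
    (o : σ → E d) (ε : ℝ) (i : ℕ) : ∀ m, Measurable (val g o ε i m) := by
  induction i with
  | zero =>
    intro m
    exact measurable_one.indicator measurableSet_closedBall
  | succ i ih =>
    intro m
    have h1 : ∀ s, val g o ε (i + 1) m s =
        ∑ v, ∫⁻ X, kap (g i m) v (X, ap X s) * val g o ε i v s ∂(rows d n) := by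
      intro s
      rw [← lintegral_finsetSum]
      · simp only [val]
        congr 1
        ext X
        exact (sum_kap_mul (g i m) (X, ap X s) (fun v => val g o ε i v s)).symm
      · intro v _
        exact ((measurable_kap (g i m) (hg i m) v).comp (measurable_ap_left s)).mul_const _
    have h2 : val g o ε (i + 1) m =
        fun s => ∑ v, ∫⁻ X, kap (g i m) v (X, ap X s) * val g o ε i v s ∂(rows d n) := by
      ext s; exact h1 s
    rw [h2]
    refine Finset.measurable_sum _ fun v _ => ?_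
    refine Measurable.lintegral_prod_right' (f := fun p : E d × (Fin n → E d) =>
      kap (g i m) v (p.2, ap p.2 p.1) * val g o ε i v p.1) ?_
    refine Measurable.mul ?_ ((ih v).comp measurable_fst)
    exact (measurable_kap (g i m) (hg i m) v).comp
      (measurable_snd.prodMk (measurable_ap.comp (measurable_snd.prodMk measurable_fst)))

lemma measurable_inner_kap {d n : ℕ} (κ : (Fin n → E d) × (Fin n → ℝ) → ℝ≥0∞)
    (hκ : Measurable κ) :
    Measurable (fun s => ∫⁻ X, κ (X, ap X s) ∂(rows d n)) := by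
  refine Measurable.lintegral_prod_right' (f := fun p : E d × (Fin n → E d) =>
      κ (p.2, ap p.2 p.1)) ?_
  exact hκ.comp
      (measurable_snd.prodMk (measurable_ap.comp (measurable_snd.prodMk measurable_fst)))

lemma val_le_one {d n : ℕ} {σ : Type} (g : ℕ → σ → (Fin n → E d) → (Fin n → ℝ) → σ)
    (o : σ → E d) (ε : ℝ) (i : ℕ) : ∀ m s, val g o ε i m s ≤ 1 := by
  induction i with
  | zero =>
    intro m s
    exact Set.indicator_le_self' (by simp) s |>.trans (by simp)
  | succ i ih =>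
    intro m s
    simp only [val]
    calc _ ≤ ∫⁻ _ : Fin n → E d, 1 ∂(rows d n) := lintegral_mono fun X => ih _ _
      _ = 1 := by simp

lemma val_succ_lintegral {d n : ℕ} {σ : Type} [Fintype σ] [DecidableEq σ]
    (g : ℕ → σ → (Fin n → E d) → (Fin n → ℝ) → σ)
    (hg : ∀ i m v, MeasurableSet {p : (Fin n → E d) × (Fin n → ℝ) | g i m p.1 p.2 = v})
    (o : σ → E d) (ε : ℝ) (i : ℕ) (m : σ) (P : Measure (E d)) [SFinite P] :
    ∫⁻ s, val g o ε (i + 1) m s ∂P =
      ∑ v, ∫⁻ s, val g o ε i v s ∂(push P (kap (g i m) v)) := by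
  have h1 : ∀ s, val g o ε (i + 1) m s =
      ∑ v, (∫⁻ X, kap (g i m) v (X, ap X s) ∂(rows d n)) * val g o ε i v s := by
    intro s
    have : ∀ v, (∫⁻ X, kap (g i m) v (X, ap X s) ∂(rows d n)) * val g o ε i v s =
        ∫⁻ X, kap (g i m) v (X, ap X s) * val g o ε i v s ∂(rows d n) := by
      intro v
      rw [lintegral_mul_const]
      exact (measurable_kap (g i m) (hg i m) v).comp (measurable_ap_left s)
    simp_rw [this]
    rw [← lintegral_finsetSum]
    · simp only [val]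
      congr 1
      ext X
      exact (sum_kap_mul (g i m) (X, ap X s) (fun v => val g o ε i v s)).symm
    · intro v _
      exact ((measurable_kap (g i m) (hg i m) v).comp (measurable_ap_left s)).mul_const _
  simp_rw [h1]
  rw [lintegral_finsetSum]
  · refine Finset.sum_congr rfl fun v _ => ?_
    unfold push
    rw [lintegral_withDensity_eq_lintegral_mul]
    · rfl
    · exact measurable_inner_kap _ (measurable_kap (g i m) (hg i m) v)
    · exact measurable_val g hg o ε i v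
  · intro v _
    exact (measurable_inner_kap _ (measurable_kap (g i m) (hg i m) v)).mul
      (measurable_val g hg o ε i v)

lemma push_univ_sum {d n : ℕ} {ι : Type} [Fintype ι] (P : Measure (E d))
    [IsProbabilityMeasure P] (κ : ι → (Fin n → E d) × (Fin n → ℝ) → ℝ≥0∞)
    (hκ : ∀ v, Measurable (κ v)) (hsum : ∀ x, ∑ v, κ v x ≤ 1) :
    ∑ v, push P (κ v) Set.univ ≤ 1 := by
  have h : ∀ v, push P (κ v) Set.univ = ∫⁻ s, ∫⁻ X, κ v (X, ap X s) ∂(rows d n) ∂P := by
    intro v
    unfold push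
    rw [withDensity_apply _ MeasurableSet.univ, Measure.restrict_univ]
  simp_rw [h]
  rw [← lintegral_finsetSum _ (fun v _ => measurable_inner_kap _ (hκ v))]
  calc ∫⁻ s, ∑ v, ∫⁻ X, κ v (X, ap X s) ∂(rows d n) ∂P
      ≤ ∫⁻ _, 1 ∂P := by
        refine lintegral_mono fun s => ?_
        rw [← lintegral_finsetSum]
        · calc ∫⁻ X, ∑ v, κ v (X, ap X s) ∂(rows d n) ≤ ∫⁻ _, 1 ∂(rows d n) :=
              lintegral_mono fun X => hsum _
            _ = 1 := by simp
        · intro v _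
          exact (hκ v).comp (measurable_ap_left s)
    _ = 1 := by simp

lemma pow_half_aux {n : ℕ} (hn : 8 ≤ n) : 28 * (n + 1) ≤ 2 ^ n := by
  induction n, hn using Nat.le_induction with
  | base => norm_num
  | succ n hn ih =>
    rw [pow_succ]
    omega

theorem core_aux {d : ℕ} (A : ℕ) (hd : 64 ≤ d) {σ : Type} [Fintype σ] [DecidableEq σ]
    (hcard : (Fintype.card σ : ℝ) ≤ 2 ^ (A * d ^ 2))
    (N : ℕ) (hN : Jmax A N ≤ d) (ε : ℝ) (hε : 0 < ε)
    (hε2 : ε ≤ (1 / 2 : ℝ) ^ (Jmax A N + 21))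
    (g : ℕ → σ → (Fin (d / 8) → E d) → (Fin (d / 8) → ℝ) → σ)
    (hg : ∀ i m v, MeasurableSet {p : (Fin (d / 8) → E d) × (Fin (d / 8) → ℝ) |
      g i m p.1 p.2 = v})
    (o : σ → E d) (μ : Measure (E d)) (hμ1 : μ (closedBall (0 : E d) 1)ᶜ = 0)
    (hμ : ∀ (x : E d) (r : ℝ), 0 < r →
      μ (closedBall x r) ≤ ENNReal.ofReal (2 ^ (2 * d + 1) * r ^ (d - 1))) (i : ℕ) :
    ∀ (t : ℕ) (P : Measure (E d)) (m : σ), i + t = N → Good A μ (Jmax A N) t P →
    ∫⁻ s, val g o ε i m s ∂P ≤ i * (6 * (1 / 2) ^ (d / 8)) + (1 / 2) ^ d := by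
  induction i with
  | zero =>
    intro t P m _ hP
    obtain ⟨L, z, hL, hR, _⟩ := hP
    have h0 : ∫⁻ s, val g o ε 0 m s ∂P = P (closedBall (o m) ε) := by
      simp only [val]
      rw [lintegral_indicator_one measurableSet_closedBall]
    rw [h0]
    refine (hR.reg (o m) ε hε).trans ?_
    have h1 : (2 : ℝ) ^ (6 * d) * (ε / (1 / 2 : ℝ) ^ L) ^ (d / 2) ≤ (1 / 2 : ℝ) ^ d := by
      have h2 : ε / (1 / 2 : ℝ) ^ L ≤ (1 / 2 : ℝ) ^ 21 := by
        rw [div_le_iff₀ (by positivity)]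
        refine hε2.trans ?_
        rw [pow_add, mul_comm]
        refine mul_le_mul_of_nonneg_left ?_ (by positivity)
        exact pow_le_pow_of_le_one (by norm_num) (by norm_num) hL
      have h3 : (ε / (1 / 2 : ℝ) ^ L) ^ (d / 2) ≤ (1 / 2 : ℝ) ^ (7 * d) := by
        calc (ε / (1 / 2 : ℝ) ^ L) ^ (d / 2) ≤ ((1 / 2 : ℝ) ^ 21) ^ (d / 2) :=
              pow_le_pow_left₀ (by positivity) h2 _
          _ = (1 / 2 : ℝ) ^ (21 * (d / 2)) := by rw [← pow_mul]
          _ ≤ (1 / 2 : ℝ) ^ (7 * d) :=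
              pow_le_pow_of_le_one (by norm_num) (by norm_num) (by omega)
      calc (2 : ℝ) ^ (6 * d) * (ε / (1 / 2 : ℝ) ^ L) ^ (d / 2)
          ≤ (2 : ℝ) ^ (6 * d) * (1 / 2 : ℝ) ^ (7 * d) :=
            mul_le_mul_of_nonneg_left h3 (by positivity)
        _ = (1 / 2 : ℝ) ^ d := by
            have : 7 * d = 6 * d + d := by ring
            rw [this, pow_add, ← mul_assoc, ← mul_pow]
            norm_num
    calc ENNReal.ofReal ((2 : ℝ) ^ (6 * d) * (ε / (1 / 2 : ℝ) ^ L) ^ (d / 2))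
        ≤ ENNReal.ofReal ((1 / 2 : ℝ) ^ d) := ENNReal.ofReal_le_ofReal h1
      _ = (1 / 2 : ℝ≥0∞) ^ d := by
          rw [ENNReal.ofReal_pow (by norm_num)]
          congr 1
          rw [ENNReal.ofReal_div_of_pos (by norm_num)]
          simp
      _ ≤ _ := by simp
  | succ i ih =>
    intro t P m hit hP
    have hPr : IsProbabilityMeasure P := by
      obtain ⟨L, z, hL, hR, _⟩ := hP
      exact hR.prob
    obtain ⟨k, c, P', q, h1, h2, h3⟩ := one_step A hd μ hμ1 hμ hcard N t (by omega) hN P hP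
      (fun v => kap (g i m) v) (fun v => measurable_kap (g i m) (hg i m) v)
      (fun x => (sum_kap (g i m) x).le)
    rw [val_succ_lintegral g hg o ε i m P]
    set B : ℝ≥0∞ := i * (6 * (1 / 2) ^ (d / 8)) + (1 / 2) ^ d with hB
    have h4 : ∀ v, ∫⁻ s, val g o ε i v s ∂(push P (kap (g i m) v)) ≤
        (∑ j, c v j) * B + q v Set.univ := by
      intro v
      rw [h1 v, lintegral_add_measure, lintegral_finsetSum_measure]
      refine add_le_add ?_ ?_
      · rw [Finset.sum_mul]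
        refine Finset.sum_le_sum fun j _ => ?_
        rw [lintegral_smul_measure, smul_eq_mul]
        exact mul_le_mul_right (ih (t + 1) (P' v j) v (by omega) (h2 v j)) _
      · calc ∫⁻ s, val g o ε i v s ∂(q v) ≤ ∫⁻ _, 1 ∂(q v) :=
            lintegral_mono fun s => val_le_one g o ε i v s
          _ = q v Set.univ := by simp
    have h5 : ∀ v, ∑ j, c v j ≤ push P (kap (g i m) v) Set.univ := by
      intro v
      rw [h1 v, Measure.add_apply, Measure.finsetSum_apply]
      refine le_add_right ?_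
      refine Finset.sum_le_sum fun j _ => ?_
      obtain ⟨L, z, hL, hR, _⟩ := h2 v j
      have := hR.prob
      rw [Measure.smul_apply, measure_univ, smul_eq_mul, mul_one]
    have h6 : ∑ v, ∑ j, c v j ≤ 1 :=
      (Finset.sum_le_sum fun v _ => h5 v).trans
        (push_univ_sum P _ (fun v => measurable_kap (g i m) (hg i m) v)
          (fun x => (sum_kap (g i m) x).le))
    calc ∑ v, ∫⁻ s, val g o ε i v s ∂(push P (kap (g i m) v))
        ≤ ∑ v, ((∑ j, c v j) * B + q v Set.univ) := Finset.sum_le_sum fun v _ => h4 v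
      _ = (∑ v, ∑ j, c v j) * B + ∑ v, q v Set.univ := by
          rw [Finset.sum_add_distrib, Finset.sum_mul]
      _ ≤ 1 * B + 6 * (1 / 2) ^ (d / 8) := by gcongr
      _ = _ := by
          rw [hB]
          push_cast
          ring

lemma good_start {d : ℕ} (A J : ℕ) (hd : 64 ≤ d) : Good A (unif d) J 0 (unif d) := by
  have hP := unif_prob (d := d) (by omega)
  refine ⟨0, 0, Nat.zero_le _, ⟨hP, ?_, ?_⟩, ?_⟩
  · refine measure_mono_null ?_ (unif_sphere (d := d))
    intro x hx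
    simp only [pow_zero, Set.mem_compl_iff, mem_closedBall, dist_zero_right, not_le] at hx
    simp only [Set.mem_compl_iff, Set.mem_ofPred_eq]
    exact fun h => by linarith
  · intro x r hr
    simp only [pow_zero, div_one]
    rcases le_or_gt r 1 with h | h
    · refine (unif_closedBall (by omega) x r hr).trans (ENNReal.ofReal_le_ofReal ?_)
      refine mul_le_mul ?_ ?_ (by positivity) (by positivity)
      · exact pow_le_pow_right₀ (by norm_num) (by omega)
      · exact pow_le_pow_of_le_one hr.le h (by omega)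
    · have h1 : (1 : ℝ≥0∞) = ENNReal.ofReal 1 := by simp
      refine prob_le_one.trans ?_
      rw [h1]
      refine ENNReal.ofReal_le_ofReal ?_
      have h2 : (1 : ℝ) ≤ 2 ^ (6 * d) := one_le_pow₀ (by norm_num)
      have h3 : (1 : ℝ) ≤ r ^ (d / 2) := one_le_pow₀ h.le
      nlinarith
  · simp

/-- I1: a windowed learner with few memory states fails. -/
theorem core {d : ℕ} (A : ℕ) (hd : 64 ≤ d) {σ : Type} [Fintype σ] [DecidableEq σ]
    (hcard : (Fintype.card σ : ℝ) ≤ 2 ^ (A * d ^ 2))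
    (N : ℕ) (hN : Jmax A N ≤ d) (ε : ℝ) (hε : 0 < ε)
    (hε2 : ε ≤ (1 / 2 : ℝ) ^ (Jmax A N + 21))
    (g : ℕ → σ → (Fin (d / 8) → E d) → (Fin (d / 8) → ℝ) → σ)
    (hg : ∀ i m v, MeasurableSet {p : (Fin (d / 8) → E d) × (Fin (d / 8) → ℝ) |
      g i m p.1 p.2 = v})
    (o : σ → E d) (m : σ) :
    ∫⁻ s, val g o ε N m s ∂(unif d) ≤ 1 / 2 := by
  have hμ1 : unif d (closedBall (0 : E d) 1)ᶜ = 0 := by
    refine measure_mono_null ?_ (unif_sphere (d := d))
    intro x hx
    simp only [Set.mem_compl_iff, mem_closedBall, dist_zero_right, not_le] at hx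
    simp only [Set.mem_compl_iff, Set.mem_ofPred_eq]
    exact fun h => by linarith
  refine (core_aux A hd hcard N hN ε hε hε2 g hg o (unif d) hμ1
    (fun x r hr => unif_closedBall (by omega) x r hr) N 0 (unif d) m (by omega)
    (good_start A _ hd)).trans ?_
  have hn : 8 ≤ d / 8 := by omega
  have hNn : N ≤ d / 8 + 1 := by
    unfold Jmax at hN
    have : 76 * N ≤ (64 * A + 76) * N := Nat.mul_le_mul_right _ (by omega)
    omega
  have h28 := pow_half_aux hn
  have hr : (N : ℝ) * (6 * (1 / 2) ^ (d / 8)) + (1 / 2) ^ d ≤ 1 / 2 := by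
    have h1 : (28 : ℝ) * ((d / 8 : ℕ) + 1) ≤ 2 ^ (d / 8) := by exact_mod_cast h28
    have h2 : (N : ℝ) ≤ (d / 8 : ℕ) + 1 := by exact_mod_cast hNn
    have h3 : (N : ℝ) * (1 / 2) ^ (d / 8) ≤ 1 / 28 := by
      rw [one_div, inv_pow, ← div_eq_mul_inv, div_le_iff₀ (by positivity)]
      linarith
    have h4 : (1 / 2 : ℝ) ^ d ≤ (1 / 2) ^ 2 :=
      pow_le_pow_of_le_one (by norm_num) (by norm_num) (by omega)
    nlinarith
  have he : ((N : ℝ≥0∞) * (6 * (1 / 2) ^ (d / 8)) + (1 / 2) ^ d) =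
      ENNReal.ofReal ((N : ℝ) * (6 * (1 / 2) ^ (d / 8)) + (1 / 2) ^ d) := by
    have hh : ENNReal.ofReal (1 / 2 : ℝ) = 1 / 2 := by
      rw [ENNReal.ofReal_div_of_pos (by norm_num)]; simp
    rw [ENNReal.ofReal_add (by positivity) (by positivity),
      ENNReal.ofReal_mul (by positivity), ENNReal.ofReal_mul (by positivity),
      ENNReal.ofReal_pow (by positivity), ENNReal.ofReal_pow (by positivity), hh]
    simp
  rw [he]
  calc ENNReal.ofReal _ ≤ ENNReal.ofReal (1 / 2) := ENNReal.ofReal_le_ofReal hr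
    _ = 1 / 2 := by rw [ENNReal.ofReal_div_of_pos (by norm_num)]; simp

/-- I1: numerical part of the counting bound for very small `ε`. -/
theorem count_aux {d : ℕ} (A : ℕ) (hd : A + 64 ≤ d) {σ : Type} [Fintype σ]
    (hcard : (Fintype.card σ : ℝ) ≤ 2 ^ (A * d ^ 2)) (ε : ℝ) (hε : 0 < ε)
    (hε2 : ε ≤ (1 / 2 : ℝ) ^ ((A + 4) * d)) :
    (Fintype.card σ : ℝ) * (2 ^ (2 * d + 1) * ε ^ (d - 1)) ≤ 1 / 2 := by
  have h4 : ε ^ (d - 1) ≤ (1 / 2 : ℝ) ^ ((A + 4) * d * (d - 1)) := by
    calc ε ^ (d - 1) ≤ ((1 / 2 : ℝ) ^ ((A + 4) * d)) ^ (d - 1) :=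
          pow_le_pow_left₀ hε.le hε2 _
      _ = _ := by rw [← pow_mul]
  have h5 : A * d ^ 2 + (2 * d + 1) + 1 ≤ (A + 4) * d * (d - 1) := by
    obtain ⟨e, rfl⟩ : ∃ e, d = A + 64 + e := ⟨d - (A + 64), by omega⟩
    have : A + 64 + e - 1 = A + 63 + e := by omega
    rw [this]
    nlinarith [Nat.zero_le A, Nat.zero_le e, Nat.zero_le (A * e), Nat.zero_le (A * A)]
  calc (Fintype.card σ : ℝ) * (2 ^ (2 * d + 1) * ε ^ (d - 1))
      ≤ 2 ^ (A * d ^ 2) * (2 ^ (2 * d + 1) * (1 / 2 : ℝ) ^ ((A + 4) * d * (d - 1))) := by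
        gcongr
    _ ≤ 2 ^ (A * d ^ 2) * (2 ^ (2 * d + 1) *
          (1 / 2 : ℝ) ^ (A * d ^ 2 + (2 * d + 1) + 1)) := by
        gcongr ?_ * (?_ * ?_)
        exact pow_le_pow_of_le_one (by norm_num) (by norm_num) h5
    _ = 1 / 2 := by
        rw [pow_add, pow_add, pow_one]
        have e1 : (2 : ℝ) ^ (A * d ^ 2) * (1 / 2 : ℝ) ^ (A * d ^ 2) = 1 := by
          rw [← mul_pow]; norm_num
        have e2 : (2 : ℝ) ^ (2 * d + 1) * (1 / 2 : ℝ) ^ (2 * d + 1) = 1 := by
          rw [← mul_pow]; norm_num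
        calc _ = ((2 : ℝ) ^ (A * d ^ 2) * (1 / 2 : ℝ) ^ (A * d ^ 2)) *
              ((2 : ℝ) ^ (2 * d + 1) * (1 / 2 : ℝ) ^ (2 * d + 1)) * (1 / 2) := by ring
          _ = 1 / 2 := by rw [e1, e2]; norm_num

end P309
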