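import Vale.Agent.P309.Defs

open MeasureTheory ProbabilityTheory Metric
open scoped ENNReal NNReal

namespace P309

/-- K1: cutting off the part of large likelihood. -/
theorem cut {d : ℕ} (P P' : Measure (E d)) [IsFiniteMeasure P] [IsFiniteMeasure P']
    (K t : ℝ≥0) (ht : 0 < t)
    (h : ∀ B : Set (E d), MeasurableSet B → P' B ≤ K * (P B) ^ ((1 : ℝ) / 2)) :
    ∃ H : Set (E d), MeasurableSet H ∧ P' Hᶜ ≤ (K : ℝ≥0∞) ^ 2 / t ∧
      P'.restrict H ≤ t • P := by
  obtain ⟨H, hH, h1, h2⟩ := hahn_decomposition (t • P) P'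
  refine ⟨H, hH, ?_, ?_⟩
  · have ht0 : (t : ℝ≥0∞) ≠ 0 := by exact_mod_cast ht.ne'
    have httop : (t : ℝ≥0∞) ≠ ∞ := ENNReal.coe_ne_top
    set x := P' Hᶜ with hx
    have hxtop : x ≠ ∞ := measure_ne_top _ _
    have h3 : (t : ℝ≥0∞) * P Hᶜ ≤ x := by
      have := h2 Hᶜ hH.compl subset_rfl
      simpa using this
    have h4 : P Hᶜ ≤ x / t := by
      rw [ENNReal.le_div_iff_mul_le (Or.inl ht0) (Or.inl httop), mul_comm]
      exact h3
    have h5 : x ≤ K * (x / t) ^ ((1 : ℝ) / 2) := by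
      refine (h Hᶜ hH.compl).trans ?_
      gcongr
    rcases eq_or_ne x 0 with h0 | h0
    · rw [h0]; exact zero_le
    · have h6 : x ^ 2 ≤ K ^ 2 * (x / t) := by
        calc x ^ 2 ≤ (K * (x / t) ^ ((1 : ℝ) / 2)) ^ 2 := by gcongr
          _ = K ^ 2 * (x / t) := by
              rw [mul_pow]
              congr 1
              rw [← ENNReal.rpow_natCast, ← ENNReal.rpow_mul]
              norm_num
      have h7 : x * x ≤ x * (K ^ 2 / t) := by
        calc x * x = x ^ 2 := (sq x).symm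
          _ ≤ K ^ 2 * (x / t) := h6
          _ = x * (K ^ 2 / t) := by
              rw [ENNReal.div_eq_inv_mul, ENNReal.div_eq_inv_mul]; ring
      exact (ENNReal.mul_le_mul_iff_right h0 hxtop).1 h7
  · refine Measure.le_iff.2 fun s hs => ?_
    rw [Measure.restrict_apply hs]
    refine (h1 (s ∩ H) (hs.inter hH) Set.inter_subset_right).trans ?_
    exact measure_mono Set.inter_subset_left

end P309
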