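import Vale.Agent.P309.C1

open MeasureTheory ProbabilityTheory Metric
open scoped ENNReal NNReal

namespace P309

/-- K2: cells of diameter `r`. -/
theorem exists_cells (d : ℕ) (r : ℝ) (hr : 0 < r) :
    ∃ (N : ℕ) (c : Fin N → Set (E d)), (∀ i, MeasurableSet (c i)) ∧
      (∀ i j, i ≠ j → Disjoint (c i) (c j)) ∧ closedBall (0 : E d) 1 ⊆ ⋃ i, c i ∧
      (∀ i, ∃ y, c i ⊆ closedBall y r) ∧
      ∀ x : E d, ∃ t : Finset (Fin N), t.card ≤ 7 ^ d ∧
        ∀ i, (c i ∩ closedBall x r).Nonempty → i ∈ t := by
  classical
  obtain ⟨t, _, hsep, _, hnet⟩ := exists_net (0 : E d) 1 (r / 2) (by positivity) (by norm_num)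
  let y : Fin t.card → E d := fun i => (t.equivFin.symm i : E d)
  have hyt : ∀ i, y i ∈ t := fun i => (t.equivFin.symm i).2
  have hyinj : Function.Injective y := by
    intro i j hij
    have : t.equivFin.symm i = t.equivFin.symm j := Subtype.ext hij
    exact t.equivFin.symm.injective this
  have hysurj : ∀ x ∈ t, ∃ i, y i = x := by
    intro x hx
    refine ⟨t.equivFin ⟨x, hx⟩, ?_⟩
    change ((t.equivFin.symm (t.equivFin ⟨x, hx⟩)) : E d) = x
    rw [Equiv.symm_apply_apply]
  let c : Fin t.card → Set (E d) := fun i =>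
    closedBall (y i) (r / 2) \ ⋃ j : Fin t.card, ⋃ _ : j < i, closedBall (y j) (r / 2)
  have hcsub : ∀ i, c i ⊆ closedBall (y i) (r / 2) := fun i x hx => hx.1
  refine ⟨t.card, c, ?_, ?_, ?_, ?_, ?_⟩
  · intro i
    refine isClosed_closedBall.measurableSet.diff ?_
    exact MeasurableSet.iUnion fun j => MeasurableSet.iUnion fun _ => isClosed_closedBall.measurableSet
  · have key : ∀ i j, i < j → Disjoint (c i) (c j) := by
      intro i j hij
      rw [Set.disjoint_left]
      intro x hxi hxj
      apply hxj.2
      simp only [Set.mem_iUnion]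
      exact ⟨i, hij, hxi.1⟩
    intro i j hij
    rcases lt_or_gt_of_ne hij with h | h
    · exact key i j h
    · exact (key j i h).symm
  · intro x hx
    obtain ⟨z, hz, hxz⟩ := hnet x hx
    obtain ⟨i0, hi0⟩ := hysurj z hz
    have hex : ∃ i, x ∈ closedBall (y i) (r / 2) := ⟨i0, by rw [mem_closedBall, hi0]; exact hxz⟩
    let S : Finset (Fin t.card) := Finset.univ.filter (fun i => x ∈ closedBall (y i) (r / 2))
    have hS : S.Nonempty := by
      obtain ⟨i, hi⟩ := hex
      exact ⟨i, by simp only [S, Finset.mem_filter, Finset.mem_univ, true_and]; exact hi⟩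
    let i := S.min' hS
    have hi : i ∈ S := S.min'_mem hS
    have hi' : x ∈ closedBall (y i) (r / 2) := (Finset.mem_filter.mp hi).2
    simp only [Set.mem_iUnion]
    refine ⟨i, hi', ?_⟩
    simp only [Set.mem_iUnion, not_exists]
    intro j hj hxj
    have : i ≤ j := S.min'_le j (by
      simp only [S, Finset.mem_filter, Finset.mem_univ, true_and]; exact hxj)
    exact absurd hj (not_lt.mpr this)
  · intro i
    exact ⟨y i, (hcsub i).trans (closedBall_subset_closedBall (by linarith))⟩
  · intro x
    refine ⟨Finset.univ.filter (fun i => (c i ∩ closedBall x r).Nonempty), ?_, ?_⟩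
    · set S := Finset.univ.filter (fun i => (c i ∩ closedBall x r).Nonempty) with hSdef
      have h1 := sep_card (S.image y) x (3 * r / 2) (r / 2) (by positivity) (by positivity) (by
        intro z hz
        obtain ⟨i, hi, rfl⟩ := Finset.mem_image.mp hz
        obtain ⟨p, hp1, hp2⟩ := (Finset.mem_filter.mp hi).2
        have hp1' := hcsub i hp1
        rw [mem_closedBall] at hp1' hp2 ⊢
        calc dist (y i) x ≤ dist (y i) p + dist p x := dist_triangle _ _ _
          _ ≤ r / 2 + r := by
            rw [dist_comm (y i) p]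
            exact add_le_add hp1' hp2
          _ = 3 * r / 2 := by ring) (by
        intro a ha a' ha' hne
        obtain ⟨i, _, rfl⟩ := Finset.mem_image.mp ha
        obtain ⟨j, _, rfl⟩ := Finset.mem_image.mp ha'
        exact hsep _ (hyt i) _ (hyt j) hne)
      rw [Finset.card_image_of_injective _ hyinj, finrank_euclideanSpace_fin] at h1
      have h2 : 1 + 2 * (3 * r / 2) / (r / 2) = 7 := by
        field_simp
        norm_num
      rw [h2] at h1
      exact_mod_cast h1
    · intro i hi
      simp only [Finset.mem_filter, Finset.mem_univ, true_and]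
      exact hi

end P309
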