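import Vale.Agent.P309.K2

open MeasureTheory ProbabilityTheory Metric
open scoped ENNReal NNReal

namespace P309

/-! ### Decompositions -/

/-- decomposition of `ν` into good pieces and a remainder of mass at most `δ` -/
def K3Dec {d : ℕ} (G : Measure (E d) → ℕ → Prop) (ν : Measure (E d)) (δ : ℝ≥0∞) : Prop :=
  ∃ (ι : Type) (_ : Fintype ι) (c : ι → ℝ≥0∞) (P : ι → Measure (E d)) (L' : ι → ℕ)
    (q : Measure (E d)), ν = (∑ i, c i • P i) + q ∧ q Set.univ ≤ δ ∧ ∀ i, G (P i) (L' i)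

theorem K3Dec_add {d : ℕ} {G : Measure (E d) → ℕ → Prop} {ν1 ν2 : Measure (E d)} {δ1 δ2 : ℝ≥0∞}
    (h1 : K3Dec G ν1 δ1) (h2 : K3Dec G ν2 δ2) : K3Dec G (ν1 + ν2) (δ1 + δ2) := by
  obtain ⟨ι1, i1, c1, P1, L1, q1, e1, b1, g1⟩ := h1
  obtain ⟨ι2, i2, c2, P2, L2, q2, e2, b2, g2⟩ := h2
  refine ⟨ι1 ⊕ ι2, inferInstance, Sum.elim c1 c2, Sum.elim P1 P2, Sum.elim L1 L2, q1 + q2, ?_, ?_, ?_⟩
  · rw [Fintype.sum_sum_type]
    simp only [Sum.elim_inl, Sum.elim_inr]
    rw [e1, e2]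
    exact add_add_add_comm _ _ _ _
  · rw [Measure.add_apply]
    exact add_le_add b1 b2
  · rintro (i | i)
    · exact g1 i
    · exact g2 i

theorem K3Dec_mono {d : ℕ} {G : Measure (E d) → ℕ → Prop} {ν : Measure (E d)} {δ δ' : ℝ≥0∞}
    (h : K3Dec G ν δ) (hδ : δ ≤ δ') : K3Dec G ν δ' := by
  obtain ⟨ι1, i1, c1, P1, L1, q1, e1, b1, g1⟩ := h
  exact ⟨ι1, i1, c1, P1, L1, q1, e1, b1.trans hδ, g1⟩

theorem K3Dec_zero {d : ℕ} {G : Measure (E d) → ℕ → Prop} : K3Dec G (0 : Measure (E d)) 0 :=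
  ⟨Empty, inferInstance, fun _ => 0, fun _ => 0, fun _ => 0, 0, by simp, by simp, fun i => i.elim⟩

theorem K3Dec_discard {d : ℕ} {G : Measure (E d) → ℕ → Prop} {ν : Measure (E d)} {δ : ℝ≥0∞}
    (h : ν Set.univ ≤ δ) : K3Dec G ν δ :=
  ⟨Empty, inferInstance, fun _ => 0, fun _ => 0, fun _ => 0, ν, by simp, h, fun i => i.elim⟩

theorem K3Dec_single {d : ℕ} {G : Measure (E d) → ℕ → Prop} {P : Measure (E d)} {L' : ℕ}
    (c : ℝ≥0∞) (h : G P L') : K3Dec G (c • P) 0 :=
  ⟨Unit, inferInstance, fun _ => c, fun _ => P, fun _ => L', 0, by simp, by simp, fun _ => h⟩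

theorem K3Dec_fin {d : ℕ} {G : Measure (E d) → ℕ → Prop} {ν : Measure (E d)} {δ : ℝ≥0∞}
    (h : K3Dec G ν δ) : ∃ (k : ℕ) (c : Fin k → ℝ≥0∞) (P : Fin k → Measure (E d)) (L' : Fin k → ℕ)
      (q : Measure (E d)), ν = (∑ i, c i • P i) + q ∧ q Set.univ ≤ δ ∧ ∀ i, G (P i) (L' i) := by
  obtain ⟨ι, i1, c, P, L, q, e1, b1, g1⟩ := h
  let e := Fintype.equivFin ι
  refine ⟨Fintype.card ι, c ∘ e.symm, P ∘ e.symm, L ∘ e.symm, q, ?_, b1, fun i => g1 _⟩
  rw [e1]
  congr 1
  exact (Equiv.sum_comp e.symm (fun i => c i • P i)).symm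

/-! ### powers of one half -/

theorem k3_half_pow (n : ℕ) : (2⁻¹ : ℝ≥0∞) ^ n = ENNReal.ofReal ((1 / 2 : ℝ) ^ n) := by
  rw [ENNReal.ofReal_pow (by norm_num)]
  congr 1
  rw [one_div, ENNReal.ofReal_inv_of_pos (by norm_num)]
  norm_num

theorem k3_half_pow_inv (n : ℕ) : ((2⁻¹ : ℝ≥0∞) ^ n)⁻¹ = ENNReal.ofReal ((2 : ℝ) ^ n) := by
  rw [ENNReal.inv_pow, inv_inv, ENNReal.ofReal_pow (by norm_num)]
  norm_num

theorem k3_geom (d n : ℕ) :
    ∑ k ∈ Finset.range n, (2⁻¹ : ℝ≥0∞) ^ (d + k) ≤ 2 * (2⁻¹) ^ d := by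
  have h : ∀ n : ℕ, ∑ k ∈ Finset.range n, (2⁻¹ : ℝ≥0∞) ^ (d + k) + 2 * (2⁻¹) ^ (d + n)
      = 2 * (2⁻¹) ^ d := by
    intro n
    induction n with
    | zero => simp
    | succ n ih =>
      rw [Finset.sum_range_succ, ← ih, add_assoc]
      congr 1
      rw [← add_assoc d n 1, pow_succ, mul_comm ((2⁻¹ : ℝ≥0∞) ^ (d + n)) (2⁻¹), ← mul_assoc,
        ENNReal.mul_inv_cancel (by norm_num) (by norm_num), one_mul, two_mul]
  calc _ ≤ ∑ k ∈ Finset.range n, (2⁻¹ : ℝ≥0∞) ^ (d + k) + 2 * (2⁻¹) ^ (d + n) := le_self_add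
    _ = _ := h n

/-! ### One piece -/

section piece

variable {d : ℕ} (μ P1 : Measure (E d)) [IsProbabilityMeasure P1]
  (b L J : ℕ) (D : ℝ)
  (N : ℕ → ℕ) (C : ∀ j, Fin (N j) → Set (E d))

/-- properties of the cells of all depths -/
structure K3Cells : Prop where
  meas : ∀ j i, MeasurableSet (C j i)
  disj : ∀ j i i', i ≠ i' → Disjoint (C j i) (C j i')
  cov : ∀ j, closedBall (0 : E d) 1 ⊆ ⋃ i, C j i
  ball : ∀ j i, ∃ y, C j i ⊆ closedBall y ((1 / 2 : ℝ) ^ j)
  cnt : ∀ j (x : E d), ∃ t : Finset (Fin (N j)), t.card ≤ 7 ^ d ∧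
        ∀ i, (C j i ∩ closedBall x ((1 / 2 : ℝ) ^ j)).Nonempty → i ∈ t

variable {μ P1 b L J D N C}

theorem k3_piece_reg (hC0 : K3Cells N C) (hb : b ≤ d) (hJd : J ≤ d)
    (hP1 : P1 (closedBall (0 : E d) 1)ᶜ = 0)
    (j : ℕ) (hLj : L ≤ j) (hjJ : j ≤ J) (A : Set (E d)) (hA : MeasurableSet A)
    (y : E d) (hAy : P1 (A \ closedBall y ((1 / 2 : ℝ) ^ j)) = 0)
    (hkeep : (2⁻¹ : ℝ≥0∞) ^ (d + (j - L) + b * (j - L)) ≤ P1 A)
    (hcells : ∀ j', j < j' → ∀ i, (C j' i ∩ A).Nonempty → P1 (C j' i) ≤ (2⁻¹) ^ (b * (j' - L))) :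
    Reg ((P1 A)⁻¹ • P1.restrict A) y ((1 / 2 : ℝ) ^ j) (2 ^ (6 * d)) b := by
  have hpos : P1 A ≠ 0 := by
    intro h0
    rw [h0] at hkeep
    have : (0 : ℝ≥0∞) < (2⁻¹ : ℝ≥0∞) ^ (d + (j - L) + b * (j - L)) := by
      rw [k3_half_pow]
      exact ENNReal.ofReal_pos.mpr (by positivity)
    exact absurd hkeep (not_le.mpr this)
  have hfin : P1 A ≠ ⊤ := measure_ne_top _ _
  have hinv : (P1 A)⁻¹ ≤ ENNReal.ofReal ((2 : ℝ) ^ (d + (j - L) + b * (j - L))) := by
    rw [← k3_half_pow_inv]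
    exact ENNReal.inv_le_inv.mpr hkeep
  have hprob : IsProbabilityMeasure ((P1 A)⁻¹ • P1.restrict A) := by
    refine ⟨?_⟩
    rw [Measure.smul_apply, Measure.restrict_apply MeasurableSet.univ, Set.univ_inter, smul_eq_mul,
      ENNReal.inv_mul_cancel hpos hfin]
  refine ⟨hprob, ?_, ?_⟩
  · rw [Measure.smul_apply, Measure.restrict_apply isClosed_closedBall.measurableSet.compl,
      smul_eq_mul]
    have : (closedBall y ((1 / 2 : ℝ) ^ j))ᶜ ∩ A = A \ closedBall y ((1 / 2 : ℝ) ^ j) := by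
      rw [Set.inter_comm]; rfl
    rw [this, hAy, mul_zero]
  · intro x r hr
    by_cases hbig : (1 / 2 : ℝ) ^ (j + 1) ≤ r
    · refine le_trans prob_le_one ?_
      rw [← ENNReal.ofReal_one]
      apply ENNReal.ofReal_le_ofReal
      have h1 : (1 / 2 : ℝ) ≤ r / (1 / 2 : ℝ) ^ j := by
        rw [le_div_iff₀ (by positivity)]
        calc (1 / 2 : ℝ) * (1 / 2) ^ j = (1 / 2) ^ (j + 1) := by rw [pow_succ]; ring
          _ ≤ r := hbig
      calc (1 : ℝ) = 2 ^ b * (1 / 2) ^ b := by rw [← mul_pow]; norm_num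
        _ ≤ 2 ^ (6 * d) * (r / (1 / 2 : ℝ) ^ j) ^ b := by
          gcongr
          · norm_num
          · omega
    · push Not at hbig
      obtain ⟨j', hj1, hj2⟩ := exists_nat_pow_near_of_lt_one (x := r) (y := (1 / 2 : ℝ)) hr
        (hbig.le.trans (pow_le_one₀ (by norm_num) (by norm_num))) (by norm_num) (by norm_num)
      have hjj' : j < j' := by
        have h1 : (1 / 2 : ℝ) ^ (j' + 1) < (1 / 2 : ℝ) ^ (j + 1) := hj1.trans hbig
        have h2 := (pow_lt_pow_iff_right_of_lt_one₀ (by norm_num : (0:ℝ) < 1 / 2)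
          (by norm_num : (1:ℝ) / 2 < 1)).mp h1
        omega
      obtain ⟨t, ht, htx⟩ := hC0.cnt j' x
      rw [Measure.smul_apply, Measure.restrict_apply isClosed_closedBall.measurableSet, smul_eq_mul]
      have hle : P1 (closedBall x r ∩ A) ≤ (7 ^ d : ℕ) * (2⁻¹ : ℝ≥0∞) ^ (b * (j' - L)) := by
        have hsub : closedBall x r ∩ A ⊆ (⋃ i ∈ t, C j' i ∩ A) ∪ (closedBall (0 : E d) 1)ᶜ := by
          intro p hp
          by_cases hp1 : p ∈ closedBall (0 : E d) 1
          · left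
            obtain ⟨i, hi⟩ := Set.mem_iUnion.mp (hC0.cov j' hp1)
            simp only [Set.mem_iUnion]
            exact ⟨i, htx i ⟨p, hi, closedBall_subset_closedBall hj2 hp.1⟩, hi, hp.2⟩
          · right; exact hp1
        calc P1 (closedBall x r ∩ A) ≤ P1 ((⋃ i ∈ t, C j' i ∩ A) ∪ (closedBall (0 : E d) 1)ᶜ) :=
              measure_mono hsub
          _ ≤ P1 (⋃ i ∈ t, C j' i ∩ A) + P1 (closedBall (0 : E d) 1)ᶜ := measure_union_le _ _
          _ = P1 (⋃ i ∈ t, C j' i ∩ A) := by rw [hP1, add_zero]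
          _ ≤ ∑ i ∈ t, P1 (C j' i ∩ A) := measure_biUnion_finset_le _ _
          _ ≤ ∑ i ∈ t, (2⁻¹ : ℝ≥0∞) ^ (b * (j' - L)) := by
              refine Finset.sum_le_sum fun i _ => ?_
              by_cases hne : (C j' i ∩ A).Nonempty
              · exact (measure_mono Set.inter_subset_left).trans (hcells j' hjj' i hne)
              · rw [Set.not_nonempty_iff_eq_empty.mp hne, measure_empty]
                exact zero_le
          _ = t.card * (2⁻¹ : ℝ≥0∞) ^ (b * (j' - L)) := by rw [Finset.sum_const, nsmul_eq_mul]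
          _ ≤ (7 ^ d : ℕ) * (2⁻¹ : ℝ≥0∞) ^ (b * (j' - L)) := by gcongr
      calc (P1 A)⁻¹ * P1 (closedBall x r ∩ A)
          ≤ ENNReal.ofReal ((2 : ℝ) ^ (d + (j - L) + b * (j - L))) *
            ((7 ^ d : ℕ) * (2⁻¹ : ℝ≥0∞) ^ (b * (j' - L))) := by gcongr
        _ = ENNReal.ofReal ((2 : ℝ) ^ (d + (j - L) + b * (j - L)) *
            (7 ^ d * (1 / 2 : ℝ) ^ (b * (j' - L)))) := by
            rw [k3_half_pow, ENNReal.ofReal_mul (by positivity), ENNReal.ofReal_mul (by positivity)]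
            congr 2
            rw [← ENNReal.ofReal_natCast]
            push_cast
            rfl
        _ ≤ ENNReal.ofReal (2 ^ (6 * d) * (r / (1 / 2 : ℝ) ^ j) ^ b) := by
            apply ENNReal.ofReal_le_ofReal
            obtain ⟨k, rfl⟩ : ∃ k, j' = j + k := ⟨j' - j, by omega⟩
            have h1 : (1 / 2 : ℝ) ^ (k + 1) ≤ r / (1 / 2 : ℝ) ^ j := by
              rw [le_div_iff₀ (by positivity), ← pow_add]
              have : k + 1 + j = j + k + 1 := by omega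
              rw [this]
              exact hj1.le
            have h2 : (1 / 2 : ℝ) ^ (b * (j + k - L)) = (1 / 2 : ℝ) ^ (b * (j - L)) * (1 / 2) ^ (k * b) := by
              rw [← pow_add]
              congr 1
              have : j + k - L = (j - L) + k := by omega
              rw [this]; ring
            have h3 : (2 : ℝ) ^ (d + (j - L) + b * (j - L)) * (7 ^ d * (1 / 2 : ℝ) ^ (b * (j + k - L)))
                = 2 ^ (d + (j - L)) * 7 ^ d * (1 / 2) ^ (k * b) := by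
              rw [h2, pow_add (2:ℝ) (d + (j - L)) (b * (j - L))]
              have h4 : (2:ℝ) ^ (b * (j - L)) * (1 / 2) ^ (b * (j - L)) = 1 := by
                rw [← mul_pow]; norm_num
              calc _ = 2 ^ (d + (j - L)) * 7 ^ d * (1 / 2) ^ (k * b) *
                    ((2:ℝ) ^ (b * (j - L)) * (1 / 2) ^ (b * (j - L))) := by ring
                _ = _ := by rw [h4, mul_one]
            rw [h3]
            calc (2:ℝ) ^ (d + (j - L)) * 7 ^ d * (1 / 2) ^ (k * b)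
                ≤ 2 ^ (2 * d) * 8 ^ d * (1 / 2) ^ (k * b) := by
                  gcongr
                  · norm_num
                  · omega
                  · norm_num
              _ = 2 ^ (5 * d) * (1 / 2) ^ (k * b) := by
                  rw [show (8:ℝ) = 2 ^ 3 by norm_num, ← pow_mul, ← pow_add]
                  congr 2; ring
              _ = 2 ^ (5 * d) * (2 ^ b * (1 / 2) ^ b) * (1 / 2) ^ (k * b) := by
                  rw [← mul_pow]; norm_num
              _ = 2 ^ (5 * d + b) * ((1 / 2) ^ (k + 1)) ^ b := by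
                  rw [pow_add, ← pow_mul, add_mul, one_mul, pow_add (1 / 2 : ℝ)]
                  ring
              _ ≤ 2 ^ (6 * d) * (r / (1 / 2 : ℝ) ^ j) ^ b := by
                  gcongr
                  · norm_num
                  · omega

theorem k3_piece_dens {j : ℕ} (hLj : L ≤ j) (hden : P1 ≤ ENNReal.ofReal ((2 : ℝ) ^ D) • μ) (A : Set (E d))
    (hA : MeasurableSet A)
    (hkeep : (2⁻¹ : ℝ≥0∞) ^ (d + (j - L) + b * (j - L)) ≤ P1 A) :
    (P1 A)⁻¹ • P1.restrict A ≤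
      ENNReal.ofReal ((2 : ℝ) ^ (D + d + (b + 1) * ((j : ℝ) - L))) • μ := by
  have hinv : (P1 A)⁻¹ ≤ ENNReal.ofReal ((2 : ℝ) ^ (d + (j - L) + b * (j - L))) := by
    rw [← k3_half_pow_inv]
    exact ENNReal.inv_le_inv.mpr hkeep
  rw [Measure.le_iff]
  intro s hs
  rw [Measure.smul_apply, Measure.restrict_apply hs, smul_eq_mul, Measure.smul_apply, smul_eq_mul]
  have h1 : P1 (s ∩ A) ≤ ENNReal.ofReal ((2 : ℝ) ^ D) * μ s := by
    refine (measure_mono Set.inter_subset_left).trans ?_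
    have := Measure.le_iff.mp hden s hs
    rwa [Measure.smul_apply, smul_eq_mul] at this
  calc (P1 A)⁻¹ * P1 (s ∩ A)
      ≤ ENNReal.ofReal ((2 : ℝ) ^ (d + (j - L) + b * (j - L))) * (ENNReal.ofReal ((2 : ℝ) ^ D) * μ s) := by
        gcongr
    _ = ENNReal.ofReal ((2 : ℝ) ^ (D + d + (b + 1) * ((j : ℝ) - L))) * μ s := by
        rw [← mul_assoc, ← ENNReal.ofReal_mul (by positivity)]
        congr 2
        rw [← Real.rpow_natCast, ← Real.rpow_add (by norm_num)]
        congr 1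
        push_cast
        rw [Nat.cast_sub hLj]
        ring

end piece

/-- K3: revealing the deepest heavy cell. -/
theorem reveal {d : ℕ} (μ P1 : Measure (E d)) [IsProbabilityMeasure P1] (z : E d)
    (b L J : ℕ) (D : ℝ) (hd : 1 ≤ d) (hb : b ≤ d)
    (hμ1 : μ (closedBall (0 : E d) 1)ᶜ = 0)
    (hμ : ∀ (x : E d) (r : ℝ), 0 < r →
      μ (closedBall x r) ≤ ENNReal.ofReal (2 ^ (2 * d + 1) * r ^ (d - 1)))
    (hsupp : P1 (closedBall z ((1 / 2 : ℝ) ^ L))ᶜ = 0)
    (hden : P1 ≤ ENNReal.ofReal ((2 : ℝ) ^ D) • μ)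
    (hLJ : L ≤ J) (hJd : J ≤ d)
    (hJ : ∀ j : ℕ, J < j → D + (2 * d + 1) + b * ((j : ℝ) - L) ≤ ((d : ℝ) - 1) * j) :
    ∃ (k : ℕ) (c : Fin k → ℝ≥0∞) (P : Fin k → Measure (E d)) (L' : Fin k → ℕ)
      (q : Measure (E d)),
      P1 = (∑ i, c i • P i) + q ∧ q Set.univ ≤ 2 * (1 / 2) ^ d ∧
      ∀ i, L ≤ L' i ∧ L' i ≤ J ∧
        (∃ z', Reg (P i) z' ((1 / 2 : ℝ) ^ (L' i)) (2 ^ (6 * d)) b) ∧
        P i ≤ ENNReal.ofReal ((2 : ℝ) ^ (D + d + (b + 1) * ((L' i : ℝ) - L))) • μ := by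
  classical
  choose N C hCm hCd hCc hCb hCt using fun j : ℕ => exists_cells d ((1 / 2 : ℝ) ^ j) (by positivity)
  have hC0 : K3Cells N C := ⟨hCm, hCd, hCc, hCb, hCt⟩
  have hP1 : P1 (closedBall (0 : E d) 1)ᶜ = 0 := by
    have := Measure.le_iff.mp hden _ (isClosed_closedBall (x := (0 : E d)) (ε := 1)).measurableSet.compl
    rw [Measure.smul_apply, smul_eq_mul, hμ1, mul_zero] at this
    exact le_antisymm this zero_le
  -- good pieces
  let G : Measure (E d) → ℕ → Prop := fun P L' => L ≤ L' ∧ L' ≤ J ∧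
        (∃ z', Reg P z' ((1 / 2 : ℝ) ^ L') (2 ^ (6 * d)) b) ∧
        P ≤ ENNReal.ofReal ((2 : ℝ) ^ (D + d + (b + 1) * ((L' : ℝ) - L))) • μ
  -- one piece
  have hpiece : ∀ (j : ℕ), L ≤ j → j ≤ J → ∀ (B A : Set (E d)), MeasurableSet A →
      (∃ y : E d, P1 (A \ closedBall y ((1 / 2 : ℝ) ^ j)) = 0) →
      (2⁻¹ : ℝ≥0∞) ^ (b * (j - L)) ≤ P1 B →
      (∀ j', j < j' → ∀ i, (C j' i ∩ A).Nonempty → P1 (C j' i) ≤ (2⁻¹) ^ (b * (j' - L))) →
      K3Dec G (P1.restrict A) ((2⁻¹ : ℝ≥0∞) ^ (d + (j - L)) * P1 B) := by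
    intro j hLj hjJ B A hA hAy hB hcells
    by_cases hkeep : (2⁻¹ : ℝ≥0∞) ^ (d + (j - L)) * P1 B ≤ P1 A
    · have hkeep' : (2⁻¹ : ℝ≥0∞) ^ (d + (j - L) + b * (j - L)) ≤ P1 A := by
        refine le_trans ?_ hkeep
        rw [pow_add (2⁻¹ : ℝ≥0∞) (d + (j - L)) (b * (j - L))]
        gcongr
      have hpos : P1 A ≠ 0 := by
        intro h0
        rw [h0] at hkeep'
        have : (0 : ℝ≥0∞) < (2⁻¹ : ℝ≥0∞) ^ (d + (j - L) + b * (j - L)) := by
          rw [k3_half_pow]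
          exact ENNReal.ofReal_pos.mpr (by positivity)
        exact absurd hkeep' (not_le.mpr this)
      have hfin : P1 A ≠ ⊤ := measure_ne_top _ _
      obtain ⟨y, hy⟩ := hAy
      have hG : G ((P1 A)⁻¹ • P1.restrict A) j :=
        ⟨hLj, hjJ, ⟨y, k3_piece_reg hC0 hb hJd hP1 j hLj hjJ A hA y hy hkeep' hcells⟩,
          k3_piece_dens hLj hden A hA hkeep'⟩
      have h1 := K3Dec_single (P1 A) hG
      rw [smul_smul, ENNReal.mul_inv_cancel hpos hfin, one_smul] at h1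
      exact K3Dec_mono h1 zero_le
    · push Not at hkeep
      apply K3Dec_discard
      rw [Measure.restrict_apply MeasurableSet.univ, Set.univ_inter]
      exact hkeep.le
  -- heavy cells
  let heavy : ∀ j, Finset (Fin (N j)) := fun j =>
    Finset.univ.filter (fun i => (2⁻¹ : ℝ≥0∞) ^ (b * (j - L)) ≤ P1 (C j i))
  let H : ℕ → Set (E d) := fun j => ⋃ i ∈ heavy j, C j i
  let Hgt : ℕ → Set (E d) := fun j => ⋃ j' : ℕ, ⋃ _ : j < j' ∧ j' ≤ J, H j'
  have hHm : ∀ j, MeasurableSet (H j) := fun j =>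
    Finset.measurableSet_biUnion _ fun i _ => hCm j i
  have hHgtm : ∀ j, MeasurableSet (Hgt j) := fun j =>
    MeasurableSet.iUnion fun j' => MeasurableSet.iUnion fun _ => hHm j'
  have hlight : ∀ j, L ≤ j → ∀ j', j < j' → ∀ i, (C j' i ∩ (Hgt j)ᶜ).Nonempty →
      P1 (C j' i) ≤ (2⁻¹) ^ (b * (j' - L)) := by
    intro j hLj j' hjj' i hne
    by_cases hj'J : j' ≤ J
    · by_contra hcon
      push Not at hcon
      obtain ⟨p, hp1, hp2⟩ := hne
      apply hp2
      simp only [Hgt, Set.mem_iUnion]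
      refine ⟨j', ⟨hjj', hj'J⟩, ?_⟩
      simp only [H, Set.mem_iUnion]
      refine ⟨i, ?_, hp1⟩
      simp only [heavy, Finset.mem_filter, Finset.mem_univ, true_and]
      exact hcon.le
    · push Not at hj'J
      obtain ⟨y, hy⟩ := hCb j' i
      have h1 : P1 (C j' i) ≤ ENNReal.ofReal ((2 : ℝ) ^ D) * μ (C j' i) := by
        have := Measure.le_iff.mp hden _ (hCm j' i)
        rwa [Measure.smul_apply, smul_eq_mul] at this
      refine h1.trans ?_
      rw [k3_half_pow]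
      calc ENNReal.ofReal ((2 : ℝ) ^ D) * μ (C j' i)
          ≤ ENNReal.ofReal ((2 : ℝ) ^ D) * ENNReal.ofReal (2 ^ (2 * d + 1) * ((1 / 2 : ℝ) ^ j') ^ (d - 1)) := by
            gcongr
            exact (measure_mono hy).trans (hμ y _ (by positivity))
        _ = ENNReal.ofReal ((2 : ℝ) ^ D * (2 ^ (2 * d + 1) * ((1 / 2 : ℝ) ^ j') ^ (d - 1))) := by
            rw [← ENNReal.ofReal_mul (by positivity)]
        _ ≤ ENNReal.ofReal ((1 / 2 : ℝ) ^ (b * (j' - L))) := by
            apply ENNReal.ofReal_le_ofReal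
            have h2 := hJ j' hj'J
            have e1 : ((1 / 2 : ℝ) ^ j') ^ (d - 1) = (2 : ℝ) ^ (-(((d : ℝ) - 1) * j')) := by
              rw [← pow_mul, one_div, inv_pow, Real.rpow_neg (by norm_num), ← Real.rpow_natCast]
              congr 2
              push_cast
              rw [Nat.cast_sub hd]
              push_cast
              ring
            have e2 : (1 / 2 : ℝ) ^ (b * (j' - L)) = (2 : ℝ) ^ (-((b : ℝ) * ((j' : ℝ) - L))) := by
              rw [one_div, inv_pow, Real.rpow_neg (by norm_num), ← Real.rpow_natCast]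
              congr 2
              push_cast
              rw [Nat.cast_sub (by omega)]
            have e3 : (2 : ℝ) ^ (2 * d + 1) = (2 : ℝ) ^ ((2 : ℝ) * d + 1) := by
              rw [← Real.rpow_natCast]
              congr 1
              push_cast
              ring
            rw [e1, e2, e3, ← Real.rpow_add (by norm_num), ← Real.rpow_add (by norm_num)]
            apply Real.rpow_le_rpow_of_exponent_le (by norm_num)
            linarith
  -- the union of the pieces of one depth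
  have hdepth : ∀ j, L < j → j ≤ J → ∀ S : Finset (Fin (N j)), S ⊆ heavy j →
      K3Dec G (P1.restrict ((⋃ i ∈ S, C j i) ∩ (Hgt j)ᶜ))
        ((2⁻¹ : ℝ≥0∞) ^ (d + (j - L)) * ∑ i ∈ S, P1 (C j i)) := by
    intro j hLj hjJ S
    induction S using Finset.induction_on with
    | empty =>
      intro _
      have e : ((⋃ i ∈ (∅ : Finset (Fin (N j))), C j i) ∩ (Hgt j)ᶜ) = ∅ := by simp
      rw [e, Measure.restrict_empty, Finset.sum_empty, mul_zero]
      exact K3Dec_zero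
    | insert a S ha ih =>
      intro hS
      have ih' := ih ((Finset.subset_insert a S).trans hS)
      rw [Finset.sum_insert ha, mul_add]
      have hset : ((⋃ i ∈ insert a S, C j i) ∩ (Hgt j)ᶜ)
          = (C j a ∩ (Hgt j)ᶜ) ∪ ((⋃ i ∈ S, C j i) ∩ (Hgt j)ᶜ) := by
        rw [Finset.set_biUnion_insert, Set.union_inter_distrib_right]
      have hdisj : Disjoint (C j a ∩ (Hgt j)ᶜ) ((⋃ i ∈ S, C j i) ∩ (Hgt j)ᶜ) := by
        rw [Set.disjoint_left]
        rintro p ⟨hp1, _⟩ ⟨hp2, _⟩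
        simp only [Set.mem_iUnion] at hp2
        obtain ⟨i, hi, hpi⟩ := hp2
        have hne : a ≠ i := fun h => ha (h ▸ hi)
        exact (Set.disjoint_left.mp (hCd j a i hne)) hp1 hpi
      rw [hset, Measure.restrict_union hdisj
        ((Finset.measurableSet_biUnion _ fun i _ => hCm j i).inter (hHgtm j).compl)]
      refine K3Dec_add ?_ ih'
      have hheavy : (2⁻¹ : ℝ≥0∞) ^ (b * (j - L)) ≤ P1 (C j a) := by
        have := hS (Finset.mem_insert_self a S)
        exact (Finset.mem_filter.mp this).2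
      refine hpiece j hLj.le hjJ (C j a) _ ((hCm j a).inter (hHgtm j).compl) ?_ hheavy ?_
      · obtain ⟨y, hy⟩ := hCb j a
        refine ⟨y, ?_⟩
        have : (C j a ∩ (Hgt j)ᶜ) \ closedBall y ((1 / 2 : ℝ) ^ j) = ∅ := by
          rw [Set.sdiff_eq_empty]
          exact Set.inter_subset_left.trans hy
        rw [this, measure_empty]
      · intro j' hjj' i hne
        refine hlight j hLj.le j' hjj' i ?_
        obtain ⟨p, hp1, hp2⟩ := hne
        exact ⟨p, hp1, hp2.2⟩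
  -- induction on the depth
  have hmain : ∀ n : ℕ, L + n ≤ J → K3Dec G (P1.restrict (Hgt (L + n))ᶜ)
      (∑ k ∈ Finset.range (n + 1), (2⁻¹ : ℝ≥0∞) ^ (d + k)) := by
    intro n
    induction n with
    | zero =>
      intro hn
      have h1 := hpiece L le_rfl hLJ Set.univ ((Hgt L)ᶜ) (hHgtm L).compl
        ⟨z, measure_mono_null (fun p hp => hp.2) hsupp⟩ (by simp) (hlight L le_rfl)
      rw [measure_univ, mul_one, Nat.sub_self] at h1
      simpa using h1
    | succ n ih =>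
      intro hn
      have ih' := ih (by omega)
      rw [Finset.sum_range_succ, add_comm (∑ k ∈ Finset.range (n + 1), (2⁻¹ : ℝ≥0∞) ^ (d + k))]
      have hstep : (Hgt (L + (n + 1)))ᶜ = (H (L + (n + 1)) ∩ (Hgt (L + (n + 1)))ᶜ) ∪ (Hgt (L + n))ᶜ := by
        ext p
        simp only [Set.mem_compl_iff, Set.mem_union, Set.mem_inter_iff, Hgt, Set.mem_iUnion,
          exists_prop, not_exists, not_and]
        constructor
        · intro h
          by_cases hp : p ∈ H (L + (n + 1))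
          · exact Or.inl ⟨hp, h⟩
          · right
            intro j' hj' 
            by_cases he : j' = L + (n + 1)
            · rw [he]; exact hp
            · exact h j' ⟨by omega, hj'.2⟩
        · rintro (h | h)
          · exact h.2
          · intro j' hj'
            exact h j' ⟨by omega, hj'.2⟩
      have hdisj : Disjoint (H (L + (n + 1)) ∩ (Hgt (L + (n + 1)))ᶜ) (Hgt (L + n))ᶜ := by
        rw [Set.disjoint_left]
        rintro p ⟨hp1, _⟩ hp2
        apply hp2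
        simp only [Hgt, Set.mem_iUnion]
        exact ⟨L + (n + 1), ⟨by omega, hn⟩, hp1⟩
      rw [hstep, Measure.restrict_union hdisj (hHgtm (L + n)).compl]
      refine K3Dec_add ?_ ih'
      have h1 := hdepth (L + (n + 1)) (by omega) hn (heavy (L + (n + 1))) (Finset.Subset.refl _)
      refine K3Dec_mono h1 ?_
      have e1 : L + (n + 1) - L = n + 1 := by omega
      rw [e1]
      have h2 : ∑ i ∈ heavy (L + (n + 1)), P1 (C (L + (n + 1)) i) ≤ 1 := by
        rw [← measure_biUnion_finset]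
        · exact prob_le_one
        · intro i _ i' _ hne
          exact hCd _ i i' hne
        · intro i _
          exact hCm _ i
      calc (2⁻¹ : ℝ≥0∞) ^ (d + (n + 1)) * ∑ i ∈ heavy (L + (n + 1)), P1 (C (L + (n + 1)) i)
          ≤ (2⁻¹ : ℝ≥0∞) ^ (d + (n + 1)) * 1 := by gcongr
        _ = (2⁻¹ : ℝ≥0∞) ^ (d + (n + 1)) := mul_one _
  -- conclusion
  have hfinal := hmain (J - L) (by omega)
  have e1 : L + (J - L) = J := by omega
  rw [e1] at hfinal
  have e2 : (Hgt J)ᶜ = Set.univ := by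
    ext p
    simp only [Hgt, Set.mem_compl_iff, Set.mem_iUnion, exists_prop, not_exists, not_and, Set.mem_univ,
      iff_true]
    intro j' hj'
    omega
  rw [e2, Measure.restrict_univ] at hfinal
  have h3 := K3Dec_mono hfinal (k3_geom d _)
  obtain ⟨k, c, P, L', q, h4, h5, h6⟩ := K3Dec_fin h3
  refine ⟨k, c, P, L', q, h4, ?_, h6⟩
  rw [one_div]
  exact h5

end P309
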