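import Vale.Agent.P309.Defs
import Vale.Agent.P309.S1

open MeasureTheory ProbabilityTheory Metric
open scoped ENNReal NNReal

namespace P309

instance (d : ℕ) : IsProbabilityMeasure (rowsInf d) := by
  unfold rowsInf; infer_instance

variable {d : ℕ} {σ Ξ : Type} [MeasurableSpace Ξ]

lemma Learner.measurableSet_run [Fintype σ] (A : Learner d σ Ξ) (t : ℕ) :
    ∀ v : σ × Bool, MeasurableSet
      {p : Ξ × E d × (ℕ → E d) | A.run p.1 p.2.1 p.2.2 t = v} := by
  classical
  induction t with
  | zero =>
    intro v
    have : {p : Ξ × E d × (ℕ → E d) | A.run p.1 p.2.1 p.2.2 0 = v} =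
        {p : Ξ × E d × (ℕ → E d) | A.init p.1 = v.1} ∩ {p | false = v.2} := by
      ext p
      simp [Learner.run, Prod.ext_iff]
    rw [this]
    refine MeasurableSet.inter ?_ (MeasurableSet.const _)
    exact measurable_fst (A.meas_init v.1)
  | succ t ih =>
    intro v
    have : {p : Ξ × E d × (ℕ → E d) | A.run p.1 p.2.1 p.2.2 (t + 1) = v} =
        ({p : Ξ × E d × (ℕ → E d) | A.run p.1 p.2.1 p.2.2 t = v} ∩ {p | v.2 = true}) ∪
        ⋃ m : σ, ({p : Ξ × E d × (ℕ → E d) | A.run p.1 p.2.1 p.2.2 t = (m, false)} ∩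
          {p | A.step t p.1 m (p.2.2 t) (inner ℝ (p.2.2 t) p.2.1) = v}) := by
      ext p
      simp only [Learner.run, Set.mem_ofPred_eq, Set.mem_union, Set.mem_inter_iff,
        Set.mem_iUnion]
      rcases h : A.run p.1 p.2.1 p.2.2 t with ⟨m, b⟩
      cases b
      · simp only [Bool.false_eq_true, if_false]
        constructor
        · intro hv
          exact Or.inr ⟨m, rfl, hv⟩
        · rintro (⟨h1, h2⟩ | ⟨m', h1, h2⟩)
          · rw [← h1] at h2
            simp at h2
          · simp only [Prod.mk.injEq, and_true] at h1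
            rw [h1]
            exact h2
      · simp only [if_true]
        constructor
        · intro hv
          exact Or.inl ⟨hv, by rw [← hv]⟩
        · rintro (⟨h1, h2⟩ | ⟨m', h1, h2⟩)
          · exact h1
          · simp at h1
    rw [this]
    refine MeasurableSet.union ((ih v).inter (MeasurableSet.const _)) ?_
    refine MeasurableSet.iUnion fun m => (ih _).inter ?_
    have hm : Measurable (fun p : Ξ × E d × (ℕ → E d) =>
        ((p.1, p.2.2 t, (inner ℝ (p.2.2 t) p.2.1 : ℝ)) : Ξ × E d × ℝ)) := by
      fun_prop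
    exact hm (A.meas_step t m v)

end P309
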