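import Vale.Agent.P309.L1b

open MeasureTheory ProbabilityTheory Metric
open scoped ENNReal NNReal

namespace P309

/-- Numerical part of the main theorem. -/
lemma arith_bound {d a T : ℕ} {R : ℝ} (hd : 16 + 8 * (16 * a + 19) + a + 64 ≤ d)
    (hR0 : 58 + 8 * (16 * a + 19) ≤ R) (hR : R < (a + 4) * d)
    (h : ∀ N : ℕ, T ≤ d / 8 * N → Jmax a N ≤ d → R < Jmax a N + 21) :
    1 / (128 * (16 * a + 19) * (a + 4)) * d * R ≤ T := by
  set n := d / 8 with hn
  set N := (T + n - 1) / n with hN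
  have hn8 : 8 ≤ n := by omega
  have hn16 : d ≤ 16 * n := by omega
  have hTN : T ≤ n * N := by
    have h1 := Nat.div_add_mod (T + n - 1) n
    have h2 := Nat.mod_lt (T + n - 1) (show 0 < n by omega)
    rw [← hN] at h1
    omega
  have hNT : n * N ≤ T + n - 1 := Nat.mul_div_le _ _
  have hNT' : (n : ℝ) * (N - 1) ≤ T := by
    have : n * N ≤ T + n := by omega
    have : (n : ℝ) * N ≤ T + n := by exact_mod_cast this
    linarith
  have hn16' : (d : ℝ) ≤ 16 * n := by exact_mod_cast hn16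
  have hd' : (16 : ℝ) + 8 * (16 * a + 19) + a + 64 ≤ d := by exact_mod_cast hd
  have ha0 : (0 : ℝ) ≤ a := Nat.cast_nonneg _
  have hd0 : (0 : ℝ) ≤ d := Nat.cast_nonneg _
  have hn0 : (0 : ℝ) ≤ n := Nat.cast_nonneg _
  have hJ : ((Jmax a N : ℕ) : ℝ) = 4 * (16 * a + 19) * N + 8 := by
    unfold Jmax
    push_cast
    ring
  set B : ℝ := 16 * a + 19 with hB
  have hB19 : 19 ≤ B := by rw [hB]; linarith
  have hBpos : 0 < B := by linarith
  -- the number of windows is large
  have key : R / (8 * B * (a + 4)) ≤ N - 1 := by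
    by_cases hJd : Jmax a N ≤ d
    · have h1 := h N hTN hJd
      rw [hJ] at h1
      have h2 : R / (8 * B) ≤ N - 1 := by
        rw [div_le_iff₀ (by positivity)]
        nlinarith
      have h3 : R / (8 * B * (a + 4)) ≤ R / (8 * B) := by
        have hRpos : 0 ≤ R := by linarith
        apply div_le_div_of_nonneg_left hRpos (by positivity)
        nlinarith
      linarith
    · push Not at hJd
      have h1 : (d : ℝ) < 4 * B * N + 8 := by
        rw [← hJ]
        exact_mod_cast hJd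
      have h2 : (d : ℝ) / (8 * B) ≤ N - 1 := by
        rw [div_le_iff₀ (by positivity)]
        nlinarith
      have h3 : R / (8 * B * (a + 4)) ≤ (d : ℝ) / (8 * B) := by
        rw [div_le_div_iff₀ (by positivity) (by positivity)]
        have h4 : R ≤ (a + 4) * d := hR.le
        calc R * (8 * B) ≤ ((a + 4) * d) * (8 * B) := by gcongr
          _ = d * (8 * B * (a + 4)) := by ring
      linarith
  have hRpos : 0 ≤ R := by linarith
  calc 1 / (128 * B * (a + 4)) * d * R
      = (d / 16) * (R / (8 * B * (a + 4))) := by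
        field_simp
        ring
    _ ≤ n * (N - 1) := by
        apply mul_le_mul (by linarith) key (by positivity) hn0
    _ ≤ T := hNT'

theorem main (C : ℝ) (hC : 0 < C) : ∃ c' ε₀ : ℝ, 0 < c' ∧ 0 < ε₀ ∧ ∃ d₀ : ℕ, ∀ d : ℕ, d₀ ≤ d →
    ∀ ε : ℝ, 0 < ε → ε ≤ ε₀ → ∀ M : ℝ, M ≤ C * (d : ℝ) ^ 2 →
    ∀ (σ Ξ : Type) [Fintype σ] [MeasurableSpace Ξ] (ρ : Measure Ξ) [IsProbabilityMeasure ρ],
    (Fintype.card σ : ℝ) ≤ 2 ^ M → ∀ (A : Learner d σ Ξ) (T : ℕ), A.Succeeds ρ T ε →
      c' * d * Real.log (1 / ε) ≤ T := by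
  set a : ℕ := ⌈C⌉₊ + 1 with ha
  have haC : C + 1 ≤ a := by
    rw [ha]
    push_cast
    linarith [Nat.le_ceil C]
  have ha0 : (0 : ℝ) ≤ a := Nat.cast_nonneg _
  refine ⟨1 / (128 * (16 * a + 19) * (a + 4)), (1 / 2) ^ (58 + 8 * (16 * a + 19)),
    by positivity, by positivity, 16 + 8 * (16 * a + 19) + a + 64, ?_⟩
  intro d hd ε hε hε2 M hM σ Ξ _ _ ρ _ hcard A T hA
  have hd1 : (1 : ℝ) ≤ d := by
    have : 1 ≤ d := by omega
    exact_mod_cast this
  -- number of states
  have hcard2 : (Fintype.card (σ × Bool) : ℝ) ≤ 2 ^ (a * d ^ 2) := by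
    rw [Fintype.card_prod, Fintype.card_bool]
    push_cast
    have h1 : (2 : ℝ) ^ M * 2 = 2 ^ (M + 1) := by
      rw [Real.rpow_add (by norm_num), Real.rpow_one]
    have h2 : M + 1 ≤ a * (d : ℝ) ^ 2 := by nlinarith
    calc (Fintype.card σ : ℝ) * 2 ≤ 2 ^ M * 2 := by gcongr
      _ = 2 ^ (M + 1) := h1
      _ ≤ (2 : ℝ) ^ ((a : ℝ) * (d : ℝ) ^ 2) :=
          Real.rpow_le_rpow_of_exponent_le (by norm_num) h2
      _ = 2 ^ (a * d ^ 2) := by
          have h3 : (a : ℝ) * (d : ℝ) ^ 2 = ((a * d ^ 2 : ℕ) : ℝ) := by push_cast; ring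
          rw [h3, Real.rpow_natCast]
  have hcard1 : (Fintype.card σ : ℝ) ≤ 2 ^ (a * d ^ 2) := by
    refine le_trans ?_ hcard2
    rw [Fintype.card_prod, Fintype.card_bool]
    push_cast
    have : (0 : ℝ) ≤ Fintype.card σ := Nat.cast_nonneg _
    linarith
  set R : ℝ := Real.logb 2 (1 / ε) with hR
  have hεR : ε = (1 / 2 : ℝ) ^ R := by
    rw [hR, one_div, Real.inv_rpow (by norm_num), Real.rpow_logb (by norm_num) (by norm_num)
      (by positivity)]
    simp
  have hlogR : Real.log (1 / ε) ≤ R := by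
    rw [hR, Real.logb, le_div_iff₀ (Real.log_pos (by norm_num))]
    have h0 : 0 ≤ Real.log (1 / ε) := by
      apply Real.log_nonneg
      rw [le_div_iff₀ hε, one_mul]
      refine hε2.trans ?_
      exact pow_le_one₀ (by norm_num) (by norm_num)
    have h1 : Real.log 2 ≤ 1 := by linarith [Real.log_two_lt_d9]
    nlinarith
  -- lower bounds on R from upper bounds on ε, natural exponents
  have hRlow : ∀ k : ℕ, ε ≤ (1 / 2 : ℝ) ^ k → (k : ℝ) ≤ R := by
    intro k hk
    rw [hεR, ← Real.rpow_natCast] at hk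
    exact (Real.rpow_le_rpow_left_iff_of_base_lt_one (by norm_num) (by norm_num)).mp hk
  have hRup : ∀ k : ℕ, (k : ℝ) ≤ R → ε ≤ (1 / 2 : ℝ) ^ k := by
    intro k hk
    rw [hεR, ← Real.rpow_natCast]
    exact (Real.rpow_le_rpow_left_iff_of_base_lt_one (by norm_num) (by norm_num)).mpr hk
  have hR0 : (58 : ℝ) + 8 * (16 * a + 19) ≤ R := by
    have := hRlow _ hε2
    push_cast at this
    exact this
  have hR1 : R < (a + 4) * d := by
    by_contra hcon
    push Not at hcon
    have h1 : ε ≤ (1 / 2 : ℝ) ^ ((a + 4) * d) := hRup _ (by push_cast; exact hcon)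
    have h2 := hA.count (by omega) hε
    have h3 : (Fintype.card σ : ℝ) * (2 ^ (2 * d + 1) * ε ^ (d - 1)) ≤ 1 / 2 :=
      count_aux a (by omega) hcard1 ε hε h1
    linarith
  have hmain := arith_bound (T := T) hd hR0 hR1 (fun N hT hN => by
    by_contra hcon
    push Not at hcon
    have h1 : ε ≤ (1 / 2 : ℝ) ^ (Jmax a N + 21) := hRup _ (by push_cast; exact hcon)
    have h2 := hA.windows (by omega) a hε hcard2 N hT hN
    linarith)
  refine le_trans ?_ hmain
  have : (0 : ℝ) ≤ 1 / (128 * (16 * a + 19) * (a + 4)) * d := by positivity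
  exact mul_le_mul_of_nonneg_left hlogR this

end P309
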