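import Vale.Agent.P309.L0
import Vale.Agent.P309.I1

/-! # P309, module L1 (first part): windows of an online process driven by i.i.d. rows -/

open MeasureTheory ProbabilityTheory Metric
open scoped ENNReal NNReal

namespace P309

/-- concatenation of a window and the remaining rows -/
noncomputable def cat {d n : ℕ} (p : (Fin n → E d) × (ℕ → E d)) : ℕ → E d :=
  fun j => if h : j < n then p.1 ⟨j, h⟩ else p.2 (j - n)

theorem measurable_cat {d n : ℕ} :
    Measurable (cat : (Fin n → E d) × (ℕ → E d) → ℕ → E d) := by
  refine measurable_pi_lambda _ fun j => ?_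
  unfold cat
  split_ifs with h
  · exact (measurable_pi_apply _).comp measurable_fst
  · exact (measurable_pi_apply _).comp measurable_snd

theorem map_cat (d n : ℕ) : ((rows d n).prod (rowsInf d)).map cat = rowsInf d := by
  classical
  unfold rowsInf
  apply Measure.eq_infinitePi
  intro s t ht
  rw [Measure.map_apply measurable_cat (MeasurableSet.pi s.countable_toSet fun i _ => ht i)]
  have hinj : Set.InjOn (fun j : ℕ => j + n) ((fun j : ℕ => j + n) ⁻¹' (s : Set ℕ)) :=
    fun a _ b _ h => by simpa using h
  have e : cat ⁻¹' (Set.pi (s : Set ℕ) t) =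
      (Set.univ.pi (fun r : Fin n => if (r : ℕ) ∈ s then t r else Set.univ)) ×ˢ
        (Set.pi ((s.preimage (fun j => j + n) hinj : Finset ℕ) : Set ℕ)
          (fun j => t (j + n))) := by
    ext p
    simp only [Set.mem_preimage, Set.mem_pi, Finset.mem_coe, Set.mem_prod, Set.mem_univ,
      forall_true_left, Finset.mem_preimage]
    constructor
    · intro h
      constructor
      · intro r
        split_ifs with hr
        · have := h r hr
          simpa [cat, r.2] using this
        · trivial
      · intro j hj
        have := h (j + n) hj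
        simpa [cat] using this
    · rintro ⟨h1, h2⟩ j hj
      by_cases hjn : j < n
      · have := h1 ⟨j, hjn⟩
        simp only [hj, if_true] at this
        simpa [cat, hjn] using this
      · have h3 : j - n + n = j := Nat.sub_add_cancel (not_lt.1 hjn)
        have := h2 (j - n) (by rw [h3]; exact hj)
        rw [h3] at this
        simpa [cat, hjn] using this
  rw [e, Measure.prod_prod]
  have h1 : (rows d n) (Set.univ.pi (fun r : Fin n => if (r : ℕ) ∈ s then t r else Set.univ)) =
      ∏ j ∈ s with j < n, stdGaussian (E d) (t j) := by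
    unfold rows
    rw [Measure.pi_pi]
    have : ∀ r : Fin n, stdGaussian (E d) (if (r : ℕ) ∈ s then t r else Set.univ) =
        if (r : ℕ) ∈ s then stdGaussian (E d) (t r) else 1 := by
      intro r; split_ifs <;> simp
    simp only [this]
    rw [Fin.prod_univ_eq_prod_range (fun j => if j ∈ s then stdGaussian (E d) (t j) else 1) n,
      ← Finset.prod_filter]
    apply Finset.prod_congr _ (fun _ _ => rfl)
    ext j
    simp only [Finset.mem_filter, Finset.mem_range]
    tauto
  have h2 : (Measure.infinitePi fun _ : ℕ => stdGaussian (E d))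
      (Set.pi ((s.preimage (fun j => j + n) hinj : Finset ℕ) : Set ℕ) (fun j => t (j + n))) =
      ∏ j ∈ s with ¬ j < n, stdGaussian (E d) (t j) := by
    rw [Measure.infinitePi_pi _ (fun i _ => ht (i + n))]
    rw [Finset.prod_preimage' (fun j => j + n) s hinj (fun j => stdGaussian (E d) (t j))]
    apply Finset.prod_congr _ (fun _ _ => rfl)
    ext j
    simp only [Finset.mem_filter, Set.mem_range, not_lt]
    constructor
    · rintro ⟨h, k, hk⟩; exact ⟨h, by omega⟩
    · rintro ⟨h, hk⟩; exact ⟨h, j - n, by omega⟩
  rw [h1, h2, Finset.prod_filter_mul_prod_filter_not]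

/-- iterate an online rule from time `off` -/
def runY {d : ℕ} {τ : Type} (f : ℕ → τ → E d → ℝ → τ) (off : ℕ) (m : τ) (x : ℕ → E d)
    (y : ℕ → ℝ) : ℕ → τ
  | 0 => m
  | k + 1 => f (off + k) (runY f off m x y k) (x k) (y k)

theorem runY_add {d : ℕ} {τ : Type} (f : ℕ → τ → E d → ℝ → τ) (off : ℕ) (m : τ)
    (x : ℕ → E d) (y : ℕ → ℝ) (n k : ℕ) :
    runY f off m x y (n + k) =
      runY f (off + n) (runY f off m x y n) (fun j => x (n + j)) (fun j => y (n + j)) k := by
  induction k with
  | zero => rfl
  | succ k ih =>
    rw [← Nat.add_assoc, runY, ih, runY, Nat.add_assoc]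

theorem runY_congr {d : ℕ} {τ : Type} (f : ℕ → τ → E d → ℝ → τ) (off : ℕ) (m : τ)
    (x x' : ℕ → E d) (y y' : ℕ → ℝ) (n : ℕ) (hx : ∀ j < n, x j = x' j)
    (hy : ∀ j < n, y j = y' j) : runY f off m x y n = runY f off m x' y' n := by
  induction n with
  | zero => rfl
  | succ n ih =>
    rw [runY, runY, ih (fun j hj => hx j (by omega)) (fun j hj => hy j (by omega)),
      hx n (by omega), hy n (by omega)]

theorem measurable_runY {d : ℕ} {τ Ω : Type} [Finite τ] [MeasurableSpace Ω]
    (f : Ω → ℕ → τ → E d → ℝ → τ)
    (hf : ∀ t m v, MeasurableSet {p : Ω × E d × ℝ | f p.1 t m p.2.1 p.2.2 = v})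
    (off : ℕ) (m : Ω → τ) (hm : ∀ v, MeasurableSet {ω | m ω = v})
    (x : Ω → ℕ → E d) (hx : Measurable x) (y : Ω → ℕ → ℝ) (hy : Measurable y) (k : ℕ) (v : τ) :
    MeasurableSet {ω | runY (f ω) off (m ω) (x ω) (y ω) k = v} := by
  induction k generalizing v with
  | zero => exact hm v
  | succ k ih =>
    have e : {ω | runY (f ω) off (m ω) (x ω) (y ω) (k + 1) = v} =
        ⋃ u : τ, ({ω | runY (f ω) off (m ω) (x ω) (y ω) k = u} ∩
          {ω | f ω (off + k) u (x ω k) (y ω k) = v}) := by
      ext ω
      simp only [Set.mem_ofPred_eq, Set.mem_iUnion, Set.mem_inter_iff, runY]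
      constructor
      · intro h; exact ⟨_, rfl, h⟩
      · rintro ⟨u, h1, h2⟩; rw [h1]; exact h2
    rw [e]
    refine MeasurableSet.iUnion fun u => (ih u).inter ?_
    have hg : Measurable (fun ω : Ω => (ω, x ω k, y ω k)) := by
      refine measurable_id.prodMk (Measurable.prodMk ?_ ?_)
      · exact (measurable_pi_apply k).comp hx
      · exact (measurable_pi_apply k).comp hy
    exact hg (hf (off + k) u v)

/-- labels of a row sequence -/
noncomputable def lab {d : ℕ} (s : E d) (x : ℕ → E d) : ℕ → ℝ := fun j => inner ℝ (x j) s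

theorem measurable_lab {d : ℕ} (s : E d) : Measurable (lab s) := by
  refine measurable_pi_lambda _ fun j => ?_
  unfold lab
  exact (measurable_pi_apply j).inner_const

/-- extension of a window by zero -/
def extn {α : Type} [Zero α] {n : ℕ} (X : Fin n → α) : ℕ → α :=
  fun j => if h : j < n then X ⟨j, h⟩ else 0

theorem measurable_extn {α : Type} [Zero α] [MeasurableSpace α] {n : ℕ} :
    Measurable (extn : (Fin n → α) → ℕ → α) := by
  refine measurable_pi_lambda _ fun j => ?_
  unfold extn
  split_ifs with h
  · exact measurable_pi_apply _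
  · exact measurable_const

/-- the transition of a whole window -/
def win {d n : ℕ} {τ : Type} (f : ℕ → τ → E d → ℝ → τ) (off : ℕ) (m : τ) (X : Fin n → E d)
    (Y : Fin n → ℝ) : τ := runY f off m (extn X) (extn Y) n

theorem measurableSet_win {d n : ℕ} {τ : Type} [Finite τ] (f : ℕ → τ → E d → ℝ → τ)
    (hf : ∀ t m v, MeasurableSet {p : E d × ℝ | f t m p.1 p.2 = v}) (off : ℕ) (m v : τ) :
    MeasurableSet {p : (Fin n → E d) × (Fin n → ℝ) | win f off m p.1 p.2 = v} := by
  have := measurable_runY (Ω := (Fin n → E d) × (Fin n → ℝ)) (fun _ => f)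
    (fun t m v => measurable_snd (hf t m v)) off (fun _ => m)
    (fun v => by
      by_cases h : m = v
      · simp [h]
      · simp [h])
    (fun p => extn p.1) (measurable_extn.comp measurable_fst)
    (fun p => extn p.2) (measurable_extn.comp measurable_snd) n v
  exact this

/-- The success probability of the process is the windowed value. -/
theorem rowsInf_eq_val {d n : ℕ} {τ : Type} [Finite τ] (f : ℕ → τ → E d → ℝ → τ)
    (hf : ∀ t m v, MeasurableSet {p : E d × ℝ | f t m p.1 p.2 = v}) (o : τ → E d) (ε : ℝ)
    (s : E d) (N i : ℕ) (hi : i ≤ N) (m : τ) :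
    rowsInf d {x | s ∈ closedBall (o (runY f ((N - i) * n) m x (lab s x) (i * n))) ε} =
      val (n := n) (fun j m X Y => win f ((N - 1 - j) * n) m X Y) o ε i m s := by
  induction i generalizing m with
  | zero =>
    simp only [Nat.zero_mul, runY, val]
    by_cases h : s ∈ closedBall (o m) ε
    · simp [h]
    · simp [h]
  | succ i ih =>
    have hmeas : ∀ (off k : ℕ) (m : τ), MeasurableSet
        {x : ℕ → E d | s ∈ closedBall (o (runY f off m x (lab s x) k)) ε} := by
      intro off k m
      have e : {x : ℕ → E d | s ∈ closedBall (o (runY f off m x (lab s x) k)) ε} =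
          ⋃ v : {v : τ // s ∈ closedBall (o v) ε},
            {x : ℕ → E d | runY f off m x (lab s x) k = v} := by
        ext x
        simp only [Set.mem_ofPred_eq, Set.mem_iUnion]
        constructor
        · intro h; exact ⟨⟨_, h⟩, rfl⟩
        · rintro ⟨v, hv⟩; rw [hv]; exact v.2
      rw [e]
      refine MeasurableSet.iUnion fun v => ?_
      exact measurable_runY (Ω := ℕ → E d) (fun _ => f)
        (fun t m v => measurable_snd (hf t m v)) off (fun _ => m)
        (fun v => by
          by_cases h : m = v
          · simp [h]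
          · simp [h])
        (fun x => x) measurable_id (fun x => lab s x) (measurable_lab s) k v
    rw [val, ← map_cat d n, Measure.map_apply measurable_cat (hmeas _ _ _),
      Measure.prod_apply (measurable_cat (hmeas _ _ _))]
    apply lintegral_congr
    intro X
    rw [← ih (by omega)]
    congr 1
    ext x'
    simp only [Set.mem_preimage, Set.mem_ofPred_eq]
    have e1 : (i + 1) * n = n + i * n := by ring
    have e2 : (N - (i + 1)) * n + n = (N - i) * n := by
      have : N - i = N - (i + 1) + 1 := by omega
      rw [this]; ring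
    have e3 : N - 1 - i = N - (i + 1) := by omega
    rw [e1, runY_add, e2, e3]
    have h1 : runY f ((N - (i + 1)) * n) m (cat (X, x')) (lab s (cat (X, x'))) n =
        win f ((N - (i + 1)) * n) m X (ap X s) := by
      unfold win
      apply runY_congr
      · intro j hj; simp [cat, extn, hj]
      · intro j hj; simp [cat, extn, lab, ap, hj]
    have h2 : (fun j => cat (X, x') (n + j)) = x' := by
      funext j; simp [cat]
    have h3 : (fun j => lab s (cat (X, x')) (n + j)) = lab s x' := by
      funext j; simp [cat, lab]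
    rw [h1, h2, h3]

/-- truncated transition rule -/
noncomputable def Learner.stp {d : ℕ} {σ Ξ : Type} [MeasurableSpace Ξ] (A : Learner d σ Ξ)
    (T : ℕ) (ξ : Ξ) (t : ℕ) (m : σ × Bool) (x : E d) (y : ℝ) : σ × Bool :=
  if T ≤ t then m else if m.2 then m else A.step t ξ m.1 x y

theorem Learner.stp_run {d : ℕ} {σ Ξ : Type} [MeasurableSpace Ξ] (A : Learner d σ Ξ)
    (T : ℕ) (ξ : Ξ) (s : E d) (x : ℕ → E d) (k : ℕ) :
    runY (A.stp T ξ) 0 (A.init ξ, false) x (lab s x) k = A.run ξ s x (min k T) := by
  induction k with
  | zero => simp [runY, Learner.run]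
  | succ k ih =>
    rw [runY, ih]
    by_cases hk : T ≤ k
    · have h1 : min k T = T := min_eq_right hk
      have h2 : min (k + 1) T = T := min_eq_right (by omega)
      rw [h1, h2]
      simp [Learner.stp, hk]
    · have h1 : min k T = k := min_eq_left (by omega)
      have h2 : min (k + 1) T = k + 1 := min_eq_left (by omega)
      rw [h1, h2]
      simp [Learner.stp, hk, Learner.run, lab]

theorem Learner.measurableSet_stp {d : ℕ} {σ Ξ : Type} [MeasurableSpace Ξ]
    (A : Learner d σ Ξ) (T : ℕ) (t : ℕ) (m v : σ × Bool) :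
    MeasurableSet {p : Ξ × E d × ℝ | A.stp T p.1 t m p.2.1 p.2.2 = v} := by
  unfold Learner.stp
  by_cases h : T ≤ t
  · simp only [h, if_true]
    exact MeasurableSet.const _
  · by_cases h1 : m.2 = true
    · simp only [h, if_false, h1, if_true]
      exact MeasurableSet.const _
    · simp only [h, if_false, h1]
      exact A.meas_step t m.1 v

/-- For a fixed seed, the success probability of a learner with horizon `T ≤ n * N` equals the
value function of a windowed learner (windows of `n` samples). -/
theorem seed_success {d n : ℕ} {σ Ξ : Type} [MeasurableSpace Ξ] [Finite σ]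
    (A : Learner d σ Ξ) (T N : ℕ) (hTN : T ≤ n * N) (ξ : Ξ) :
    ∃ g : ℕ → σ × Bool → (Fin n → E d) → (Fin n → ℝ) → σ × Bool,
      (∀ i m v, MeasurableSet {p : (Fin n → E d) × (Fin n → ℝ) | g i m p.1 p.2 = v}) ∧
      ∀ (r : ℝ) (s : E d),
        rowsInf d {x | A.out ξ (A.run ξ s x T).1 ∈ closedBall s r} =
          val g (fun m => A.out ξ m.1) r N (A.init ξ, false) s := by
  have hf : ∀ t m v, MeasurableSet {p : E d × ℝ | A.stp T ξ t m p.1 p.2 = v} := by
    intro t m v
    have hg : Measurable (fun q : E d × ℝ => (ξ, q.1, q.2)) := by fun_prop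
    exact hg (A.measurableSet_stp T t m v)
  refine ⟨fun j m X Y => win (A.stp T ξ) ((N - 1 - j) * n) m X Y,
    fun i m v => measurableSet_win _ hf _ m v, fun r s => ?_⟩
  rw [← rowsInf_eq_val (A.stp T ξ) hf (fun v : σ × Bool => A.out ξ v.1) r s N N le_rfl]
  have hTN' : T ≤ N * n := by rwa [mul_comm] at hTN
  simp only [Nat.sub_self, Nat.zero_mul, Learner.stp_run, min_eq_right hTN', mem_closedBall,
    dist_comm s]

end P309
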