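import Vale.Agent.P309.L1a

open MeasureTheory ProbabilityTheory Metric
open scoped ENNReal NNReal

namespace P309

variable {d : ℕ} {σ Ξ : Type} [MeasurableSpace Ξ]

/-- The success event. -/
def Learner.succ (A : Learner d σ Ξ) (T : ℕ) (ε : ℝ) : Set (Ξ × E d × (ℕ → E d)) :=
  {p | Real.arccos (inner ℝ (A.out p.1 (A.run p.1 p.2.1 p.2.2 T).1) p.2.1) ≤ ε}

lemma Learner.measurableSet_succ [Fintype σ] (A : Learner d σ Ξ) (T : ℕ) (ε : ℝ) :
    MeasurableSet (A.succ T ε) := by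
  have : A.succ T ε = ⋃ v : σ × Bool, ({p : Ξ × E d × (ℕ → E d) | A.run p.1 p.2.1 p.2.2 T = v} ∩
      {p | Real.arccos (inner ℝ (A.out p.1 v.1) p.2.1) ≤ ε}) := by
    ext p
    simp only [Learner.succ, Set.mem_ofPred_eq, Set.mem_iUnion, Set.mem_inter_iff]
    constructor
    · intro h
      exact ⟨_, rfl, h⟩
    · rintro ⟨v, h1, h2⟩
      rw [h1]
      exact h2
  rw [this]
  refine MeasurableSet.iUnion fun v => (A.measurableSet_run T v).inter ?_
  have h1 : Measurable fun p : Ξ × E d × (ℕ → E d) => A.out p.1 v.1 :=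
    (A.meas_out v.1).comp measurable_fst
  have h2 : Measurable fun p : Ξ × E d × (ℕ → E d) =>
      Real.arccos (inner ℝ (A.out p.1 v.1) p.2.1) := by
    refine Real.continuous_arccos.measurable.comp ?_
    exact h1.inner measurable_snd.fst
  exact measurableSet_le h2 measurable_const

lemma Learner.Succeeds.slice [Fintype σ] {A : Learner d σ Ξ} {ρ : Measure Ξ}
    [IsProbabilityMeasure ρ] [IsProbabilityMeasure (unif d)] {T : ℕ} {ε : ℝ}
    (hA : A.Succeeds ρ T ε) (B : ℝ≥0∞)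
    (hB : ∀ ξ, ∫⁻ s, rowsInf d {x | Real.arccos (inner ℝ (A.out ξ (A.run ξ s x T).1) s) ≤ ε}
      ∂(unif d) ≤ B) : 2 / 3 ≤ B := by
  have h1 : (ρ.prod ((unif d).prod (rowsInf d))) (A.succ T ε) =
      ∫⁻ ξ, ∫⁻ s, rowsInf d {x | Real.arccos (inner ℝ (A.out ξ (A.run ξ s x T).1) s) ≤ ε}
      ∂(unif d) ∂ρ := by
    rw [Measure.prod_apply (A.measurableSet_succ T ε)]
    congr 1
    ext ξ
    rw [Measure.prod_apply (measurable_prodMk_left (A.measurableSet_succ T ε))]
    rfl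
  have h2 : 2 / 3 ≤ (ρ.prod ((unif d).prod (rowsInf d))) (A.succ T ε) := hA
  rw [h1] at h2
  refine h2.trans ((lintegral_mono hB).trans ?_)
  simp

lemma dist_le_of_arccos {o s : E d} (ho : ‖o‖ = 1) (hs : ‖s‖ = 1) {ε : ℝ}
    (h : Real.arccos (inner ℝ o s) ≤ ε) : o ∈ closedBall s ε := by
  have hin : |inner ℝ o s| ≤ 1 := by
    have := abs_real_inner_le_norm o s
    rwa [ho, hs, one_mul] at this
  set θ := Real.arccos (inner ℝ o s) with hθ
  have hθ0 : 0 ≤ θ := Real.arccos_nonneg _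
  have hcos : Real.cos θ = inner ℝ o s :=
    Real.cos_arccos (abs_le.mp hin).1 (abs_le.mp hin).2
  have h1 : 1 - θ ^ 2 / 2 ≤ inner ℝ o s := by
    rw [← hcos]
    exact Real.one_sub_sq_div_two_le_cos
  have h2 : ‖o - s‖ ^ 2 ≤ θ ^ 2 := by
    rw [norm_sub_sq_real, ho, hs]
    linarith
  have h3 : ‖o - s‖ ≤ θ := abs_le_of_sq_le_sq' h2 hθ0 |>.2
  rw [mem_closedBall, dist_eq_norm]
  exact h3.trans h

/-- Any finite learner: counting bound. -/
lemma Learner.Succeeds.count [Fintype σ] {A : Learner d σ Ξ} {ρ : Measure Ξ}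
    [IsProbabilityMeasure ρ] (hd : 1 ≤ d) {T : ℕ} {ε : ℝ} (hε : 0 < ε)
    (hA : A.Succeeds ρ T ε) :
    (2 : ℝ) / 3 ≤ Fintype.card σ * (2 ^ (2 * d + 1) * ε ^ (d - 1)) := by
  have hP := unif_prob hd
  have hB : ∀ ξ, ∫⁻ s, rowsInf d {x | Real.arccos (inner ℝ (A.out ξ (A.run ξ s x T).1) s) ≤ ε}
      ∂(unif d) ≤ ENNReal.ofReal (Fintype.card σ * (2 ^ (2 * d + 1) * ε ^ (d - 1))) := by
    intro ξ
    have h1 : ∀ᵐ s ∂(unif d), rowsInf d {x | Real.arccos (inner ℝ
        (A.out ξ (A.run ξ s x T).1) s) ≤ ε} ≤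
        (⋃ m : σ, closedBall (A.out ξ m) ε).indicator 1 s := by
      have hs : ∀ᵐ s ∂(unif d), ‖s‖ = 1 := unif_sphere
      filter_upwards [hs] with s hs
      by_cases hmem : s ∈ ⋃ m : σ, closedBall (A.out ξ m) ε
      · rw [Set.indicator_of_mem hmem]
        exact prob_le_one
      · have : {x | Real.arccos (inner ℝ (A.out ξ (A.run ξ s x T).1) s) ≤ ε} = ∅ := by
          ext x
          simp only [Set.mem_ofPred_eq, Set.mem_empty_iff_false, iff_false]
          intro h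
          apply hmem
          have := dist_le_of_arccos (A.out_mem ξ _) hs h
          rw [mem_closedBall, dist_comm] at this
          exact Set.mem_iUnion.mpr ⟨_, mem_closedBall.mpr this⟩
        rw [this]
        simp
    calc ∫⁻ s, rowsInf d {x | Real.arccos (inner ℝ (A.out ξ (A.run ξ s x T).1) s) ≤ ε}
          ∂(unif d) ≤ ∫⁻ s, (⋃ m : σ, closedBall (A.out ξ m) ε).indicator 1 s ∂(unif d) :=
          lintegral_mono_ae h1
      _ = unif d (⋃ m : σ, closedBall (A.out ξ m) ε) := by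
          rw [lintegral_indicator_one]
          exact MeasurableSet.iUnion fun m => measurableSet_closedBall
      _ ≤ ∑ m : σ, ENNReal.ofReal (2 ^ (2 * d + 1) * ε ^ (d - 1)) :=
          (measure_iUnion_fintype_le _ _).trans
            (Finset.sum_le_sum fun m _ => unif_closedBall hd _ ε hε)
      _ = _ := by
          rw [Finset.sum_const, Finset.card_univ, nsmul_eq_mul,
            ENNReal.ofReal_mul (by positivity)]
          simp
  have h := hA.slice _ hB
  have h23 : (2 : ℝ≥0∞) / 3 = ENNReal.ofReal (2 / 3) := by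
    rw [ENNReal.ofReal_div_of_pos (by norm_num)]
    simp
  rw [h23, ENNReal.ofReal_le_ofReal_iff (by positivity)] at h
  exact h

/-- Windowed bound. -/
lemma Learner.Succeeds.windows [Fintype σ] {A : Learner d σ Ξ} {ρ : Measure Ξ}
    [IsProbabilityMeasure ρ] (hd : 64 ≤ d) (a : ℕ) {T : ℕ} {ε : ℝ} (hε : 0 < ε)
    (hcard : (Fintype.card (σ × Bool) : ℝ) ≤ 2 ^ (a * d ^ 2)) (N : ℕ)
    (hT : T ≤ d / 8 * N) (hN : Jmax a N ≤ d)
    (hA : A.Succeeds ρ T ε) : (1 / 2 : ℝ) ^ (Jmax a N + 21) < ε := by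
  classical
  by_contra hcon
  push Not at hcon
  have hP := unif_prob (d := d) (by omega)
  have hB : ∀ ξ, ∫⁻ s, rowsInf d {x | Real.arccos (inner ℝ (A.out ξ (A.run ξ s x T).1) s) ≤ ε}
      ∂(unif d) ≤ 1 / 2 := by
    intro ξ
    obtain ⟨g, hg1, hg2⟩ := seed_success A (n := d / 8) T N hT ξ
    refine le_trans (lintegral_mono_ae ?_)
      (core a hd hcard N hN ε hε hcon g hg1 (fun m => A.out ξ m.1) (A.init ξ, false))
    have hs : ∀ᵐ s ∂(unif d), ‖s‖ = 1 := unif_sphere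
    filter_upwards [hs] with s hs
    rw [← hg2 ε s]
    exact measure_mono fun x hx => dist_le_of_arccos (A.out_mem ξ _) hs hx
  have h := hA.slice _ hB
  have h23 : (2 : ℝ≥0∞) / 3 = ENNReal.ofReal (2 / 3) := by
    rw [ENNReal.ofReal_div_of_pos (by norm_num)]
    simp
  have h12 : (1 : ℝ≥0∞) / 2 = ENNReal.ofReal (1 / 2) := by
    rw [ENNReal.ofReal_div_of_pos (by norm_num)]
    simp
  rw [h23, h12, ENNReal.ofReal_le_ofReal_iff (by positivity)] at h
  norm_num at h

end P309
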