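import Vale.Agent.P309.C1

open MeasureTheory ProbabilityTheory Metric
open scoped ENNReal NNReal

namespace P309

/-- a finite measurable cover has a measurable selection of indices -/
lemma exists_sel {X : Type*} [MeasurableSpace X] {K : ℕ} (B : Fin K → Set X)
    (hB : ∀ i, MeasurableSet (B i)) (hcov : ∀ z, ∃ i, z ∈ B i) :
    ∃ enc : X → Fin K, (∀ i, MeasurableSet {z | enc z = i}) ∧ ∀ z, z ∈ B (enc z) := by
  classical
  have hne : ∀ z, (Finset.univ.filter (fun i => z ∈ B i)).Nonempty := by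
    intro z
    obtain ⟨i, hi⟩ := hcov z
    exact ⟨i, Finset.mem_filter.2 ⟨Finset.mem_univ _, hi⟩⟩
  set enc : X → Fin K := fun z => (Finset.univ.filter (fun i => z ∈ B i)).min' (hne z) with henc
  have hmem : ∀ z, z ∈ B (enc z) := fun z =>
    (Finset.mem_filter.1 (Finset.min'_mem _ (hne z))).2
  have hmin : ∀ z (j : Fin K), z ∈ B j → enc z ≤ j := by
    intro z j hz
    have h3 : j ∈ Finset.univ.filter (fun i => z ∈ B i) :=
      Finset.mem_filter.2 ⟨Finset.mem_univ _, hz⟩
    exact Finset.min'_le (Finset.univ.filter (fun i => z ∈ B i)) j h3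
  refine ⟨enc, fun i => ?_, hmem⟩
  have h1 : {z | enc z = i} = B i ∩ ⋂ j : {j : Fin K // j < i}, (B j)ᶜ := by
    ext z
    simp only [Set.mem_ofPred_eq, Set.mem_inter_iff, Set.mem_iInter, Set.mem_compl_iff,
      Subtype.forall]
    constructor
    · intro h
      refine ⟨h ▸ hmem z, fun j hj hz => ?_⟩
      have h2 : enc z ≤ j := hmin z j hz
      rw [h] at h2
      exact absurd hj (not_lt.2 h2)
    · rintro ⟨hi, hj⟩
      apply le_antisymm
      · exact hmin z i hi
      · by_contra hlt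
        push Not at hlt
        exact hj _ hlt (hmem z)
  rw [h1]
  exact (hB i).inter (MeasurableSet.iInter fun j => (hB j).compl)

/-- radial projection to the unit ball -/
noncomputable def rproj {d : ℕ} (z : E d) : E d := if ‖z‖ ≤ 1 then z else ‖z‖⁻¹ • z

lemma measurable_rproj {d : ℕ} : Measurable (rproj (d := d)) := by
  unfold rproj
  refine Measurable.ite (measurableSet_le measurable_norm measurable_const) measurable_id ?_
  exact (measurable_norm.inv).smul measurable_id

lemma norm_rproj {d : ℕ} (z : E d) : ‖rproj z‖ ≤ 1 := by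
  unfold rproj
  split_ifs with h
  · exact h
  · push Not at h
    have h0 : ‖z‖ ≠ 0 := by linarith
    rw [norm_smul, norm_inv, norm_norm, inv_mul_cancel₀ h0]

lemma rproj_sub {d : ℕ} (z s : E d) (hs : ‖s‖ = 1) : ‖rproj z - s‖ ≤ ‖z - s‖ := by
  unfold rproj
  split_ifs with h
  · exact le_rfl
  · push Not at h
    have h0 : (0 : ℝ) < ‖z‖ := by linarith
    have h1 : ‖‖z‖⁻¹ • z - s‖ ^ 2 ≤ ‖z - s‖ ^ 2 := by
      rw [norm_sub_sq_real, norm_sub_sq_real, real_inner_smul_left, norm_smul, norm_inv,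
        norm_norm, inv_mul_cancel₀ h0.ne', hs]
      have h2 : inner ℝ z s ≤ ‖z‖ := by
        have := real_inner_le_norm z s
        rwa [hs, mul_one] at this
      have h3 : (0 : ℝ) ≤ 1 - ‖z‖⁻¹ := by
        have : ‖z‖⁻¹ ≤ 1 := inv_le_one_of_one_le₀ h.le
        linarith
      have h4 : (1 - ‖z‖⁻¹) * inner ℝ z s ≤ (1 - ‖z‖⁻¹) * ‖z‖ :=
        mul_le_mul_of_nonneg_left h2 h3
      have h5 : (1 - ‖z‖⁻¹) * ‖z‖ = ‖z‖ - 1 := by
        field_simp
      nlinarith [sq_nonneg (‖z‖ - 1)]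
    exact le_of_sq_le_sq h1 (norm_nonneg _)

/-- U2: a finite quantiser that never loses more than `δ` w.r.t. points of the unit sphere. -/
theorem exists_round {d : ℕ} (_hd : 1 ≤ d) (δ : ℝ) (hδ : 0 < δ) (hδ1 : δ ≤ 1) :
    ∃ (K : ℕ) (dec : Fin K → E d) (enc : E d → Fin K),
      (K : ℝ) ≤ (3 / δ) ^ d ∧ (∀ i, MeasurableSet {z | enc z = i}) ∧
      (∀ i, ‖dec i‖ ≤ 1) ∧
      ∀ z s : E d, ‖s‖ = 1 → ‖dec (enc z) - s‖ ≤ ‖z - s‖ + δ := by
  obtain ⟨t, ht1, -, ht3, ht4⟩ := exists_net (F := E d) 0 1 δ hδ zero_le_one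
  set e := t.equivFin with he
  set dec : Fin t.card → E d := fun i => (e.symm i : E d) with hdec
  obtain ⟨enc, henc1, henc2⟩ := exists_sel
    (fun i : Fin t.card => {z : E d | dist (rproj z) (dec i) ≤ δ})
    (fun i => measurableSet_le (measurable_rproj.dist measurable_const) measurable_const)
    (fun z => by
      obtain ⟨y, hy, hy2⟩ := ht4 (rproj z) (by
        rw [mem_closedBall, dist_zero_right]; exact norm_rproj z)
      refine ⟨e ⟨y, hy⟩, ?_⟩
      simp only [Set.mem_ofPred_eq, hdec, Equiv.symm_apply_apply]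
      exact hy2)
  refine ⟨t.card, dec, enc, ?_, henc1, ?_, ?_⟩
  · have h1 : Module.finrank ℝ (E d) = d := by
      simp [E]
    rw [h1] at ht3
    refine ht3.trans (pow_le_pow_left₀ (by positivity) ?_ d)
    rw [mul_one]
    have : (1 : ℝ) ≤ 1 / δ := by
      rw [le_div_iff₀ hδ]
      linarith
    have h2 : (3 : ℝ) / δ = 1 / δ + 2 / δ := by ring
    linarith
  · intro i
    have := ht1 _ (e.symm i).2
    rw [mem_closedBall, dist_zero_right] at this
    exact this
  · intro z s hs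
    have h1 : dist (rproj z) (dec (enc z)) ≤ δ := henc2 z
    rw [dist_eq_norm, norm_sub_rev] at h1
    calc ‖dec (enc z) - s‖ = ‖(dec (enc z) - rproj z) + (rproj z - s)‖ := by congr 1; abel
      _ ≤ ‖dec (enc z) - rproj z‖ + ‖rproj z - s‖ := norm_add_le _ _
      _ ≤ δ + ‖z - s‖ := add_le_add h1 (rproj_sub z s hs)
      _ = ‖z - s‖ + δ := add_comm _ _

end P309
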