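import Vale.Agent.P309.U3a
import Vale.Agent.P309.U2
import Vale.Agent.P309.L1

open MeasureTheory ProbabilityTheory Metric
open scoped ENNReal NNReal

namespace P309

/-- normalisation -/
noncomputable def nrm {d : ℕ} (e₀ z : E d) : E d := if z = 0 then e₀ else ‖z‖⁻¹ • z

theorem norm_nrm {d : ℕ} {e₀ : E d} (h : ‖e₀‖ = 1) (z : E d) : ‖nrm e₀ z‖ = 1 := by
  unfold nrm
  split_ifs with hz
  · exact h
  · have : ‖z‖ ≠ 0 := norm_ne_zero_iff.2 hz
    rw [norm_smul, norm_inv, norm_norm, inv_mul_cancel₀ this]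

/-- the quantised Kaczmarz learner -/
noncomputable def kLearner {d K : ℕ} (dec : Fin K → E d) (enc : E d → Fin K) (e₀ : E d)
    (h₀ : ‖e₀‖ = 1) (henc : ∀ i, MeasurableSet {z | enc z = i}) : Learner d (Fin K) Unit where
  init := fun _ => enc 0
  step := fun t _ m x y => (krule dec enc t m x y, false)
  out := fun _ m => nrm e₀ (dec m)
  meas_init := fun m => MeasurableSet.const _
  meas_step := by
    intro t m v
    by_cases hv : false = v.2
    · have h1 : {p : Unit × E d × ℝ | (krule dec enc t m p.2.1 p.2.2, false) = v}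
          = Prod.snd ⁻¹' {p : E d × ℝ | krule dec enc t m p.1 p.2 = v.1} := by
        ext p
        simp only [Set.mem_ofPred_eq, Set.mem_preimage, Prod.ext_iff, hv, and_true]
      rw [h1]
      exact measurable_snd (krule_fiber dec henc t m v.1)
    · have h1 : {p : Unit × E d × ℝ | (krule dec enc t m p.2.1 p.2.2, false) = v} = ∅ := by
        ext p
        simp only [Set.mem_ofPred_eq, Prod.ext_iff, hv, and_false, Set.mem_empty_iff_false]
      rw [h1]
      exact MeasurableSet.empty
  meas_out := fun m => measurable_const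
  out_mem := fun _ m => norm_nrm h₀ _

theorem kLearner_run {d K : ℕ} (dec : Fin K → E d) (enc : E d → Fin K) (e₀ : E d)
    (h₀ : ‖e₀‖ = 1) (henc : ∀ i, MeasurableSet {z | enc z = i}) (ξ : Unit) (s : E d)
    (x : ℕ → E d) (k : ℕ) :
    (kLearner dec enc e₀ h₀ henc).run ξ s x k
      = (runY (krule dec enc) 0 (enc 0) x (lab s x) k, false) := by
  induction k with
  | zero => rfl
  | succ k ih =>
    rw [Learner.run, ih]
    simp only [Bool.false_eq_true, if_false]
    rw [runY, Nat.zero_add]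
    rfl

/-- closeness of the state implies closeness of the direction -/
theorem arccos_nrm_le {d : ℕ} {e₀ z s : E d} (hs : ‖s‖ = 1) {ε : ℝ} (hε : 0 < ε)
    (hε2 : ε ≤ 1 / 2) (h : ‖z - s‖ ^ 2 ≤ ε ^ 2 / 10) :
    Real.arccos (inner ℝ (nrm e₀ z) s) ≤ ε := by
  have hz : z ≠ 0 := by
    intro hz
    rw [hz, zero_sub, norm_neg, hs] at h
    nlinarith
  have hzn : 0 < ‖z‖ := norm_pos_iff.2 hz
  have hn : nrm e₀ z = ‖z‖⁻¹ • z := by
    unfold nrm
    rw [if_neg hz]
  set o : E d := ‖z‖⁻¹ • z with ho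
  have hon : ‖o‖ = 1 := by
    rw [ho, norm_smul, norm_inv, norm_norm, inv_mul_cancel₀ hzn.ne']
  have h1 : ‖o - z‖ ≤ ‖z - s‖ := by
    have h2 : o - z = (‖z‖⁻¹ - 1) • z := by
      rw [ho, sub_smul, one_smul]
    have h3 : ‖o - z‖ = |1 - ‖z‖| := by
      rw [h2, norm_smul, Real.norm_eq_abs]
      have h4 : |‖z‖⁻¹ - 1| * ‖z‖ = |(‖z‖⁻¹ - 1) * ‖z‖| := by
        rw [abs_mul, abs_of_pos hzn]
      rw [h4]
      congr 1
      field_simp
    rw [h3]
    have h5 := abs_norm_sub_norm_le s z
    rw [hs] at h5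
    rw [norm_sub_rev z s]
    exact h5
  have h6 : ‖o - s‖ ≤ 2 * ‖z - s‖ := by
    calc ‖o - s‖ = ‖(o - z) + (z - s)‖ := by
          congr 1
          abel
      _ ≤ ‖o - z‖ + ‖z - s‖ := norm_add_le _ _
      _ ≤ 2 * ‖z - s‖ := by linarith
  have h7 : ‖o - s‖ ^ 2 ≤ 4 * (ε ^ 2 / 10) := by
    calc ‖o - s‖ ^ 2 ≤ (2 * ‖z - s‖) ^ 2 := pow_le_pow_left₀ (norm_nonneg _) h6 2
      _ = 4 * ‖z - s‖ ^ 2 := by ring
      _ ≤ _ := by linarith
  have h8 : (inner ℝ o s : ℝ) = 1 - ‖o - s‖ ^ 2 / 2 := by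
    rw [norm_sub_sq_real, hon, hs]
    ring
  have hpi := Real.pi_lt_d2
  have hpi0 := Real.pi_pos
  have hpi3 := Real.pi_gt_three
  have h9 : Real.cos ε ≤ 1 - 2 / Real.pi ^ 2 * ε ^ 2 := by
    apply Real.cos_le_one_sub_mul_cos_sq
    rw [abs_of_pos hε]
    linarith
  have h10 : (1 : ℝ) / 5 ≤ 2 / Real.pi ^ 2 := by
    rw [div_le_div_iff₀ (by norm_num) (by positivity)]
    nlinarith
  have h11 : Real.cos ε ≤ inner ℝ o s := by
    rw [h8]
    have : 1 / 5 * ε ^ 2 ≤ 2 / Real.pi ^ 2 * ε ^ 2 := by gcongr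
    linarith
  rw [hn]
  calc Real.arccos (inner ℝ o s) ≤ Real.arccos (Real.cos ε) := Real.arccos_le_arccos h11
    _ = ε := Real.arccos_cos hε.le (by linarith)

/-- U3: the quantised Kaczmarz learner. -/
theorem upper {d : ℕ} (hd : 2 ≤ d) (ε : ℝ) (hε : 0 < ε) (hε2 : ε ≤ 1 / 2) :
    ∃ (K : ℕ) (A : Learner d (Fin K) Unit) (T : ℕ), (K : ℝ) ≤ (60 * d / ε) ^ d ∧
      (T : ℝ) ≤ 23 * d * Real.log (1 / ε) ∧ A.Succeeds (Measure.dirac ()) T ε := by
  have hdr : (2 : ℝ) ≤ d := by exact_mod_cast hd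
  set δ : ℝ := ε / (20 * d) with hδ
  have hδ0 : 0 < δ := by positivity
  have hδ40 : δ ≤ 1 / 40 := by
    rw [hδ, div_le_div_iff₀ (by positivity) (by norm_num)]
    nlinarith
  obtain ⟨K, dec, enc, hK, henc, -, hround⟩ := exists_round (d := d) (by omega) δ hδ0
    (by linarith)
  set e₀ : E d := EuclideanSpace.single ⟨0, by omega⟩ 1 with he₀
  have h₀ : ‖e₀‖ = 1 := by simp [he₀]
  set L : ℝ := Real.log (1 / ε) with hL
  have hL0 : 0.69 ≤ L := by
    have h1 : Real.log 2 ≤ L := by
      rw [hL]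
      apply Real.log_le_log (by norm_num)
      rw [le_div_iff₀ hε]
      linarith
    have := Real.log_two_gt_d9
    linarith
  set T : ℕ := ⌈4 * d * L + 10 * d⌉₊ with hT
  have hT1 : 4 * d * L + 10 * d ≤ T := Nat.le_ceil _
  have hT2 : (T : ℝ) ≤ 4 * d * L + 10 * d + 1 := (Nat.ceil_lt_add_one (by positivity)).le
  refine ⟨K, kLearner dec enc e₀ h₀ henc, T, ?_, ?_, ?_⟩
  · refine hK.trans (le_of_eq ?_)
    congr 1
    rw [hδ]
    field_simp
    ring
  · nlinarith
  · unfold Learner.Succeeds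
    simp only [kLearner_run]
    set M : E d × (ℕ → E d) → Fin K := fun q =>
      runY (krule dec enc) 0 (enc 0) q.2 (lab q.1 q.2) T with hM
    have hMm : Measurable M := measurable_krun dec henc 0 (enc 0) T
    have hprobU : IsProbabilityMeasure (unif d) := unif_prob (by omega)
    set F : Set (E d × (ℕ → E d)) := {q | ε ^ 2 / 10 < ‖dec (M q) - q.1‖ ^ 2} with hF
    have hFm : MeasurableSet F := by
      apply measurableSet_lt measurable_const
      apply Measurable.pow_const
      apply Measurable.norm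
      apply Measurable.sub _ measurable_fst
      exact (measurable_of_finite dec).comp hMm
    -- the failure probability for a fixed signal
    have hfail : ∀ s : E d, ‖s‖ = 1 → rowsInf d (Prod.mk s ⁻¹' F) ≤ ENNReal.ofReal (1 / 3) := by
      intro s hs
      have hb := krun_bound hd hδ0.le dec henc hround s hs T 0 (enc 0)
      set a : ℝ := 1 - 1 / (2 * d) with ha
      have ha0 : 0 ≤ a := by
        rw [ha, sub_nonneg, div_le_one (by linarith)]
        linarith
      have haT : a ^ T ≤ ε ^ 2 / 120 := by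
        have h1 : a ≤ Real.exp (-(1 / (2 * d))) := by
          have := Real.add_one_le_exp (-(1 / (2 * (d : ℝ))))
          rw [ha]
          linarith
        calc a ^ T ≤ (Real.exp (-(1 / (2 * d)))) ^ T := pow_le_pow_left₀ ha0 h1 T
          _ = Real.exp (T * (-(1 / (2 * d)))) := by rw [← Real.exp_nat_mul]
          _ ≤ Real.exp (-(2 * L) - 5) := by
              apply Real.exp_le_exp.2
              have h2 : (4 * d * L + 10 * d) * (1 / (2 * (d : ℝ))) = 2 * L + 5 := by
                field_simp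
                ring
              have h3 : (4 * d * L + 10 * d) * (1 / (2 * (d : ℝ))) ≤ T * (1 / (2 * (d : ℝ))) := by
                gcongr
              linarith
          _ = ε ^ 2 * Real.exp (-5) := by
              rw [sub_eq_add_neg, Real.exp_add]
              congr 1
              rw [hL, Real.log_div one_ne_zero hε.ne', Real.log_one, zero_sub]
              have : -(2 * -Real.log ε) = Real.log ε + Real.log ε := by ring
              rw [this, Real.exp_add, Real.exp_log hε]
              ring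
          _ ≤ ε ^ 2 * (1 / 120) := by
              have h5 : Real.exp (-5) ≤ 1 / 120 := by
                rw [Real.exp_neg, ← one_div]
                apply one_div_le_one_div_of_le (by norm_num)
                have h6 : Real.exp 5 = Real.exp 1 ^ 5 := by
                  rw [← Real.exp_nat_mul]
                  norm_num
                rw [h6]
                have h7 := Real.exp_one_gt_d9
                calc (120 : ℝ) ≤ 2.7 ^ 5 := by norm_num
                  _ ≤ Real.exp 1 ^ 5 := by gcongr; linarith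
              gcongr
          _ = _ := by ring
      have hstart : ‖dec (enc 0) - s‖ ^ 2 ≤ 2 := by
        have h1 := hround 0 s hs
        rw [zero_sub, norm_neg, hs] at h1
        have h2 : ‖dec (enc 0) - s‖ ≤ 1 + 1 / 40 := by linarith
        calc ‖dec (enc 0) - s‖ ^ 2 ≤ (1 + 1 / 40) ^ 2 := pow_le_pow_left₀ (norm_nonneg _) h2 2
          _ ≤ 2 := by norm_num
      have hbound : a ^ T * ‖dec (enc 0) - s‖ ^ 2 + 6 * d ^ 2 * δ ^ 2 * (1 - a ^ T)
          ≤ ε ^ 2 / 30 := by
        have haT0 : 0 ≤ a ^ T := pow_nonneg ha0 T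
        have h1 : a ^ T * ‖dec (enc 0) - s‖ ^ 2 ≤ ε ^ 2 / 120 * 2 :=
          mul_le_mul haT hstart (sq_nonneg _) (by positivity)
        have h2 : 6 * (d : ℝ) ^ 2 * δ ^ 2 = 6 * ε ^ 2 / 400 := by
          rw [hδ]
          field_simp
          ring
        rw [h2]
        have h3 : 6 * ε ^ 2 / 400 * (1 - a ^ T) ≤ 6 * ε ^ 2 / 400 * 1 := by
          apply mul_le_mul_of_nonneg_left _ (by positivity)
          linarith
        nlinarith [sq_nonneg ε]
      have hmark := mul_meas_ge_le_lintegral (μ := rowsInf d)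
        (measurable_krun' dec henc 0 (enc 0) T s) (ENNReal.ofReal (ε ^ 2 / 10))
      have hsub : rowsInf d (Prod.mk s ⁻¹' F) ≤ rowsInf d {x | ENNReal.ofReal (ε ^ 2 / 10) ≤
          ENNReal.ofReal (‖dec (runY (krule dec enc) 0 (enc 0) x (lab s x) T) - s‖ ^ 2)} := by
        apply measure_mono
        intro x hx
        have hx' : ε ^ 2 / 10 < ‖dec (M (s, x)) - s‖ ^ 2 := hx
        exact ENNReal.ofReal_le_ofReal hx'.le
      have h10 : ENNReal.ofReal (ε ^ 2 / 10) * rowsInf d (Prod.mk s ⁻¹' F)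
          ≤ ENNReal.ofReal (ε ^ 2 / 30) := by
        calc ENNReal.ofReal (ε ^ 2 / 10) * rowsInf d (Prod.mk s ⁻¹' F)
            ≤ ENNReal.ofReal (ε ^ 2 / 10) * rowsInf d {x | ENNReal.ofReal (ε ^ 2 / 10) ≤
              ENNReal.ofReal (‖dec (runY (krule dec enc) 0 (enc 0) x (lab s x) T) - s‖ ^ 2)} := by
              gcongr
          _ ≤ _ := hmark
          _ ≤ _ := hb
          _ ≤ _ := ENNReal.ofReal_le_ofReal hbound
      have hpos : 0 < ε ^ 2 / 10 := by positivity
      have h11 : rowsInf d (Prod.mk s ⁻¹' F)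
          ≤ ENNReal.ofReal (ε ^ 2 / 30) / ENNReal.ofReal (ε ^ 2 / 10) := by
        rw [ENNReal.le_div_iff_mul_le (Or.inl (by simpa using hpos))
          (Or.inl ENNReal.ofReal_ne_top), mul_comm]
        exact h10
      refine h11.trans (le_of_eq ?_)
      rw [← ENNReal.ofReal_div_of_pos hpos]
      congr 1
      field_simp
      norm_num
    -- integration over the signal
    have hae : ∀ᵐ s ∂(unif d), ‖s‖ = 1 := by
      rw [ae_iff]
      exact unif_sphere
    have hνF : ((unif d).prod (rowsInf d)) F ≤ ENNReal.ofReal (1 / 3) := by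
      rw [Measure.prod_apply hFm]
      calc ∫⁻ s, rowsInf d (Prod.mk s ⁻¹' F) ∂(unif d)
          ≤ ∫⁻ _, ENNReal.ofReal (1 / 3) ∂(unif d) := by
            apply lintegral_mono_ae
            filter_upwards [hae] with s hs
            exact hfail s hs
        _ = ENNReal.ofReal (1 / 3) := by
            rw [lintegral_const, measure_univ, mul_one]
    have hνN : ((unif d).prod (rowsInf d)) ({x | ‖x‖ = 1}ᶜ ×ˢ Set.univ) = 0 := by
      rw [Measure.prod_prod, unif_sphere, zero_mul]
    set S : Set (Unit × E d × (ℕ → E d)) := {p | Real.arccos (inner ℝ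
      ((kLearner dec enc e₀ h₀ henc).out p.1 (runY (krule dec enc) 0 (enc 0) p.2.2
        (lab p.2.1 p.2.2) T)) p.2.1) ≤ ε} with hS
    have hcomp : Sᶜ ⊆ Set.univ ×ˢ (F ∪ {x | ‖x‖ = 1}ᶜ ×ˢ Set.univ) := by
      intro p hp
      rw [Set.mem_prod]
      refine ⟨Set.mem_univ _, ?_⟩
      by_contra hcon
      rw [Set.mem_union, not_or] at hcon
      obtain ⟨h1, h2⟩ := hcon
      apply hp
      have hs : ‖p.2.1‖ = 1 := by
        by_contra hne
        apply h2
        exact ⟨hne, Set.mem_univ _⟩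
      have h3 : ‖dec (M p.2) - p.2.1‖ ^ 2 ≤ ε ^ 2 / 10 := by
        by_contra hgt
        exact h1 (lt_of_not_ge hgt)
      exact arccos_nrm_le hs hε hε2 h3
    have hSc : ((Measure.dirac ()).prod ((unif d).prod (rowsInf d))) Sᶜ
        ≤ ENNReal.ofReal (1 / 3) := by
      calc ((Measure.dirac ()).prod ((unif d).prod (rowsInf d))) Sᶜ
          ≤ ((Measure.dirac ()).prod ((unif d).prod (rowsInf d)))
              (Set.univ ×ˢ (F ∪ {x | ‖x‖ = 1}ᶜ ×ˢ Set.univ)) := measure_mono hcomp
        _ = ((unif d).prod (rowsInf d)) (F ∪ {x | ‖x‖ = 1}ᶜ ×ˢ Set.univ) := by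
            rw [Measure.prod_prod, measure_univ, one_mul]
        _ ≤ ((unif d).prod (rowsInf d)) F
              + ((unif d).prod (rowsInf d)) ({x | ‖x‖ = 1}ᶜ ×ˢ Set.univ) := measure_union_le _ _
        _ ≤ ENNReal.ofReal (1 / 3) := by
            rw [hνN, add_zero]
            exact hνF
    have htot : (1 : ℝ≥0∞) ≤ ((Measure.dirac ()).prod ((unif d).prod (rowsInf d))) S
        + ENNReal.ofReal (1 / 3) := by
      calc (1 : ℝ≥0∞) = ((Measure.dirac ()).prod ((unif d).prod (rowsInf d))) Set.univ :=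
            measure_univ.symm
        _ ≤ ((Measure.dirac ()).prod ((unif d).prod (rowsInf d))) (S ∪ Sᶜ) := by
            rw [Set.union_compl_self]
        _ ≤ _ := measure_union_le _ _
        _ ≤ _ := by gcongr
    have h23 : (2 / 3 : ℝ≥0∞) + ENNReal.ofReal (1 / 3) = 1 := by
      have h1 : (2 / 3 : ℝ≥0∞) = ENNReal.ofReal (2 / 3) := by
        rw [ENNReal.ofReal_div_of_pos (by norm_num)]
        norm_num
      rw [h1, ← ENNReal.ofReal_add (by norm_num) (by norm_num)]
      norm_num
    rw [← h23] at htot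
    exact (ENNReal.add_le_add_iff_right ENNReal.ofReal_ne_top).1 htot

end P309
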