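import Vale.Agent.P309.L1
import Vale.Agent.P309.U3

open MeasureTheory ProbabilityTheory Metric
open scoped ENNReal NNReal

namespace P309

/-- With too little memory no learner succeeds, whatever its horizon. -/
theorem impossible {d : ℕ} (hd : 1 ≤ d) {ε : ℝ} (hε : 0 < ε) {M : ℝ}
    (hM : M < (d - 1) * Real.logb 2 (1 / ε) - (2 * d + 2))
    {σ Ξ : Type} [Fintype σ] [MeasurableSpace Ξ] (ρ : Measure Ξ) [IsProbabilityMeasure ρ]
    (hcard : (Fintype.card σ : ℝ) ≤ 2 ^ M) (A : Learner d σ Ξ) (T : ℕ) :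
    ¬ A.Succeeds ρ T ε := by
  intro hA
  have h := hA.count hd hε
  set R : ℝ := Real.logb 2 (1 / ε) with hR
  have hεR : ε = (2 : ℝ) ^ (-R) := by
    rw [hR, Real.rpow_neg (by norm_num), Real.rpow_logb (by norm_num) (by norm_num)
      (by positivity)]
    simp
  have h1 : ε ^ (d - 1) = (2 : ℝ) ^ (-((d - 1) * R)) := by
    rw [hεR, ← Real.rpow_natCast, ← Real.rpow_mul (by norm_num), Nat.cast_sub hd]
    congr 1
    push_cast
    ring
  have h2 : (2 : ℝ) ^ (2 * d + 1) = (2 : ℝ) ^ (2 * (d : ℝ) + 1) := by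
    rw [← Real.rpow_natCast]
    congr 1
    push_cast
    ring
  have h3 : (Fintype.card σ : ℝ) * (2 ^ (2 * d + 1) * ε ^ (d - 1)) ≤ (2 : ℝ) ^ (-1 : ℝ) := by
    rw [h1, h2]
    calc (Fintype.card σ : ℝ) * ((2 : ℝ) ^ (2 * (d : ℝ) + 1) * (2 : ℝ) ^ (-((d - 1) * R)))
        ≤ (2 : ℝ) ^ M * ((2 : ℝ) ^ (2 * (d : ℝ) + 1) * (2 : ℝ) ^ (-((d - 1) * R))) := by
          gcongr
      _ = (2 : ℝ) ^ (M + ((2 * (d : ℝ) + 1) + -((d - 1) * R))) := by
          rw [Real.rpow_add (by norm_num) M, Real.rpow_add (by norm_num) (2 * (d : ℝ) + 1)]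
      _ ≤ (2 : ℝ) ^ (-1 : ℝ) := by
          apply Real.rpow_le_rpow_of_exponent_le (by norm_num)
          linarith
  have h4 : (2 : ℝ) ^ (-1 : ℝ) = 1 / 2 := by
    rw [Real.rpow_neg_one]
    norm_num
  rw [h4] at h3
  linarith

/-- Enough memory for the quantised Kaczmarz learner. -/
theorem upper_bits {d : ℕ} (hd : 2 ≤ d) {ε : ℝ} (hε : 0 < ε) (hε2 : ε ≤ 1 / 2) {M : ℝ}
    (hM : d * Real.logb 2 (60 * d / ε) ≤ M) :
    ∃ (K : ℕ) (A : Learner d (Fin K) Unit) (T : ℕ), (K : ℝ) ≤ 2 ^ M ∧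
      (T : ℝ) ≤ 23 * d * Real.log (1 / ε) ∧ A.Succeeds (Measure.dirac ()) T ε := by
  obtain ⟨K, A, T, hK, hT, hA⟩ := upper hd ε hε hε2
  refine ⟨K, A, T, ?_, hT, hA⟩
  refine hK.trans ?_
  have hd0 : (0 : ℝ) < d := by
    have : 0 < d := by omega
    exact_mod_cast this
  have hpos : 0 < 60 * (d : ℝ) / ε := by positivity
  calc (60 * (d : ℝ) / ε) ^ d = ((2 : ℝ) ^ Real.logb 2 (60 * d / ε)) ^ d := by
        rw [Real.rpow_logb (by norm_num) (by norm_num) hpos]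
    _ = (2 : ℝ) ^ ((d : ℝ) * Real.logb 2 (60 * d / ε)) := by
        rw [← Real.rpow_natCast, ← Real.rpow_mul (by norm_num), mul_comm]
    _ ≤ 2 ^ M := Real.rpow_le_rpow_of_exponent_le (by norm_num) hM

end P309
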