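import Mathlib

/-! # P309: the learning model of the statement -/

open MeasureTheory ProbabilityTheory Metric
open scoped ENNReal NNReal

namespace P309

/-- Signal space `R^d`. -/
abbrev E (d : ℕ) := EuclideanSpace ℝ (Fin d)

/-- The uniform probability measure on the unit sphere of `R^d`, as a measure on `R^d`:
the normalised surface measure. -/
noncomputable def unif (d : ℕ) : Measure (E d) :=
  ((volume : Measure (E d)).toSphere Set.univ)⁻¹ •
    ((volume : Measure (E d)).toSphere).map Subtype.val

/-- The law of the infinite sequence of rows: independent standard Gaussian vectors. -/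
noncomputable def rowsInf (d : ℕ) : Measure (ℕ → E d) :=
  Measure.infinitePi fun _ => stdGaussian (E d)

/-- A learner: `σ` is the set of persistent states, `Ξ` the space of random seeds.
`step t ξ m x y` is the new state together with the decision whether to stop. -/
structure Learner (d : ℕ) (σ Ξ : Type) [MeasurableSpace Ξ] where
  init : Ξ → σ
  step : ℕ → Ξ → σ → E d → ℝ → σ × Bool
  out : Ξ → σ → E d
  meas_init : ∀ m, MeasurableSet {ξ | init ξ = m}
  meas_step : ∀ t m v, MeasurableSet {p : Ξ × E d × ℝ | step t p.1 m p.2.1 p.2.2 = v}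
  meas_out : ∀ m, Measurable fun ξ => out ξ m
  out_mem : ∀ ξ m, ‖out ξ m‖ = 1

/-- State (and stopping flag) after `t` samples, for seed `ξ`, signal `s`, rows `x`. -/
noncomputable def Learner.run {d : ℕ} {σ Ξ : Type} [MeasurableSpace Ξ] (A : Learner d σ Ξ)
    (ξ : Ξ) (s : E d) (x : ℕ → E d) : ℕ → σ × Bool
  | 0 => (A.init ξ, false)
  | t + 1 =>
    if (A.run ξ s x t).2 then A.run ξ s x t
    else A.step t ξ (A.run ξ s x t).1 (x t) (inner ℝ (x t) s)

/-- Success at accuracy `ε` with horizon `T`: the seed has law `ρ`, the signal is uniform on the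
sphere, and seed, signal and rows are independent. -/
def Learner.Succeeds {d : ℕ} {σ Ξ : Type} [MeasurableSpace Ξ] (A : Learner d σ Ξ)
    (ρ : Measure Ξ) (T : ℕ) (ε : ℝ) : Prop :=
  2 / 3 ≤ (ρ.prod ((unif d).prod (rowsInf d)))
    {p | Real.arccos (inner ℝ (A.out p.1 (A.run p.1 p.2.1 p.2.2 T).1) p.2.1) ≤ ε}

end P309
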