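import Vale.Agent.P309.W1
import Vale.Agent.P309.K1
import Vale.Agent.P309.K3

open MeasureTheory ProbabilityTheory Metric
open scoped ENNReal NNReal

namespace P309

/-- Admissible posteriors after `t` windows (`J` is the largest allowed depth, the number of
memory states is at most `2 ^ (A d ^ 2)`). -/
def Good {d : ℕ} (A : ℕ) (μ : Measure (E d)) (J t : ℕ) (P : Measure (E d)) : Prop :=
  ∃ (L : ℕ) (z : E d), L ≤ J ∧ Reg P z ((1 / 2 : ℝ) ^ L) (2 ^ (6 * d)) (d / 2) ∧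
    P ≤ ENNReal.ofReal
      ((2 : ℝ) ^ ((16 * A + 19) * (d : ℝ) * t + (((d / 2 : ℕ) : ℝ) + 1) * L)) • μ

/-- The largest allowed depth for `N` windows. -/
def Jmax (A N : ℕ) : ℕ := (64 * A + 76) * N + 8

/-- numerical bound for the constant of the window lemma -/
theorem o1_const {d : ℕ} (hd : 64 ≤ d) :
    (512 : ℝ) ^ (d / 8) * Real.sqrt (2 ^ (6 * d) * 2 ^ (2 * (d / 8) + 2 * (d / 2) + 1)) ≤
      2 ^ (5 * d) := by
  have h1 : (512 : ℝ) ^ (d / 8) = 2 ^ (9 * (d / 8)) := by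
    rw [pow_mul]; norm_num
  have h2 : Real.sqrt ((2 : ℝ) ^ (6 * d) * 2 ^ (2 * (d / 8) + 2 * (d / 2) + 1)) ≤
      2 ^ (3 * d + d / 8 + d / 2 + 1) := by
    rw [Real.sqrt_le_left (by positivity), ← pow_add, ← pow_mul]
    exact pow_le_pow_right₀ (by norm_num) (by omega)
  calc (512 : ℝ) ^ (d / 8) * Real.sqrt (2 ^ (6 * d) * 2 ^ (2 * (d / 8) + 2 * (d / 2) + 1))
      ≤ 2 ^ (9 * (d / 8)) * 2 ^ (3 * d + d / 8 + d / 2 + 1) := by
        rw [h1]; gcongr
    _ = 2 ^ (9 * (d / 8) + (3 * d + d / 8 + d / 2 + 1)) := by rw [← pow_add]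
    _ ≤ 2 ^ (5 * d) := pow_le_pow_right₀ (by norm_num) (by omega)

/-- numerical bound for the root of the number of states -/
theorem o1_root {d : ℕ} (A : ℕ) (hd : 64 ≤ d) (Nc : ℝ) (h1 : 1 ≤ Nc)
    (h2 : Nc ≤ 2 ^ (A * d ^ 2)) :
    (2 ^ d * Nc) ^ ((1 : ℝ) / (((d / 8 : ℕ) : ℝ) + 1)) ≤ 2 ^ ((8 * A + 1) * d) := by
  have hd' : (64 : ℝ) ≤ d := by exact_mod_cast hd
  have hm : (d : ℝ) / 8 ≤ ((d / 8 : ℕ) : ℝ) + 1 := by
    have : d ≤ 8 * (d / 8) + 8 := by omega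
    have h : (d : ℝ) ≤ 8 * ((d / 8 : ℕ) : ℝ) + 8 := by exact_mod_cast this
    linarith
  have hm0 : (0 : ℝ) < ((d / 8 : ℕ) : ℝ) + 1 := by positivity
  calc (2 ^ d * Nc) ^ ((1 : ℝ) / (((d / 8 : ℕ) : ℝ) + 1))
      ≤ ((2 : ℝ) ^ ((d : ℝ) + A * (d : ℝ) ^ 2)) ^ ((1 : ℝ) / (((d / 8 : ℕ) : ℝ) + 1)) := by
        apply Real.rpow_le_rpow (by positivity) _ (by positivity)
        rw [Real.rpow_add (by norm_num), Real.rpow_natCast]
        have h3 : (A : ℝ) * (d : ℝ) ^ 2 = ((A * d ^ 2 : ℕ) : ℝ) := by push_cast; ring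
        rw [h3, Real.rpow_natCast]
        gcongr
    _ = (2 : ℝ) ^ (((d : ℝ) + A * (d : ℝ) ^ 2) * ((1 : ℝ) / (((d / 8 : ℕ) : ℝ) + 1))) := by
        rw [← Real.rpow_mul (by norm_num)]
    _ ≤ (2 : ℝ) ^ (((8 * A + 1) * d : ℕ) : ℝ) := by
        apply Real.rpow_le_rpow_of_exponent_le (by norm_num)
        rw [mul_one_div, div_le_iff₀ hm0]
        push_cast
        have hA : (0 : ℝ) ≤ A := Nat.cast_nonneg _
        have h4 : (d : ℝ) + A * (d : ℝ) ^ 2 ≤ (8 * A + 1) * d * (d / 8) := by nlinarith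
        refine h4.trans ?_
        gcongr
    _ = 2 ^ ((8 * A + 1) * d) := Real.rpow_natCast _ _

/-- one value of the new state -/
theorem o1_single {d : ℕ} (A : ℕ) (hd : 64 ≤ d) (μ : Measure (E d))
    (hμ1 : μ (closedBall (0 : E d) 1)ᶜ = 0)
    (hμ : ∀ (x : E d) (r : ℝ), 0 < r →
      μ (closedBall x r) ≤ ENNReal.ofReal (2 ^ (2 * d + 1) * r ^ (d - 1)))
    (Nc : ℝ) (hNc1 : 1 ≤ Nc) (hNc : Nc ≤ 2 ^ (A * d ^ 2))
    (N t : ℕ) (ht : t < N) (hN : Jmax A N ≤ d) (P : Measure (E d))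
    (hP : Good A μ (Jmax A N) t P) (p : Measure (E d)) (hp1 : p Set.univ ≤ 1)
    (hp : ∀ B : Set (E d), MeasurableSet B →
        p B ≤ (p Set.univ) ^ (((d / 8 : ℕ) : ℝ) / (((d / 8 : ℕ) : ℝ) + 1)) *
          ENNReal.ofReal (2 ^ (5 * d)) * (P B) ^ ((1 : ℝ) / 2)) :
    ∃ (k : ℕ) (c : Fin k → ℝ≥0∞) (P' : Fin k → Measure (E d)) (q : Measure (E d)),
      p = (∑ i, c i • P' i) + q ∧ (∀ i, Good A μ (Jmax A N) (t + 1) (P' i)) ∧
      q Set.univ ≤ ENNReal.ofReal ((1 / 2) ^ d / Nc) + 3 * p Set.univ * (1 / 2) ^ d := by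
  have hd' : (64 : ℝ) ≤ d := by exact_mod_cast hd
  by_cases hsmall : p Set.univ ≤ ENNReal.ofReal ((1 / 2) ^ d / Nc)
  · refine ⟨0, Fin.elim0, Fin.elim0, p, by simp, fun i => i.elim0, ?_⟩
    exact hsmall.trans le_self_add
  rw [not_le] at hsmall
  set a : ℝ≥0∞ := p Set.univ with ha
  have ha0 : a ≠ 0 := (lt_of_le_of_lt zero_le hsmall).ne'
  have hatop : a ≠ ∞ := (hp1.trans_lt ENNReal.one_lt_top).ne
  obtain ⟨L, z, hLJ, hreg, hden⟩ := hP
  have hPp := hreg.prob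
  -- the normalised measure
  set Q : Measure (E d) := a⁻¹ • p with hQ
  have hQprob : IsProbabilityMeasure Q := ⟨by
    rw [hQ, Measure.smul_apply, smul_eq_mul, ← ha, ENNReal.inv_mul_cancel ha0 hatop]⟩
  have hroot : a⁻¹ * a ^ (((d / 8 : ℕ) : ℝ) / (((d / 8 : ℕ) : ℝ) + 1)) ≤
      ENNReal.ofReal (2 ^ ((8 * A + 1) * d)) := by
    have hm0 : (0 : ℝ) < ((d / 8 : ℕ) : ℝ) + 1 := by positivity
    have h1 : a⁻¹ * a ^ (((d / 8 : ℕ) : ℝ) / (((d / 8 : ℕ) : ℝ) + 1)) =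
        (a⁻¹) ^ ((1 : ℝ) / (((d / 8 : ℕ) : ℝ) + 1)) := by
      rw [← ENNReal.rpow_neg_one, ← ENNReal.rpow_add _ _ ha0 hatop, ← ENNReal.rpow_mul]
      congr 1
      field_simp
      ring
    have h2 : a⁻¹ ≤ ENNReal.ofReal (2 ^ d * Nc) := by
      have h3 := ENNReal.inv_le_inv.2 hsmall.le
      refine h3.trans ?_
      rw [← ENNReal.ofReal_inv_of_pos (by positivity)]
      apply ENNReal.ofReal_le_ofReal
      rw [inv_div, one_div, inv_pow, div_inv_eq_mul, mul_comm]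
    rw [h1]
    calc (a⁻¹) ^ ((1 : ℝ) / (((d / 8 : ℕ) : ℝ) + 1))
        ≤ (ENNReal.ofReal (2 ^ d * Nc)) ^ ((1 : ℝ) / (((d / 8 : ℕ) : ℝ) + 1)) := by gcongr
      _ = ENNReal.ofReal ((2 ^ d * Nc) ^ ((1 : ℝ) / (((d / 8 : ℕ) : ℝ) + 1))) := by
          rw [ENNReal.ofReal_rpow_of_pos (by positivity)]
      _ ≤ ENNReal.ofReal (2 ^ ((8 * A + 1) * d)) :=
          ENNReal.ofReal_le_ofReal (o1_root A hd Nc hNc1 hNc)
  have hQB : ∀ B : Set (E d), MeasurableSet B →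
      Q B ≤ ((2 ^ ((8 * A + 6) * d) : ℝ≥0) : ℝ≥0∞) * (P B) ^ ((1 : ℝ) / 2) := by
    intro B hB
    rw [hQ, Measure.smul_apply, smul_eq_mul]
    calc a⁻¹ * p B ≤ a⁻¹ * (a ^ (((d / 8 : ℕ) : ℝ) / (((d / 8 : ℕ) : ℝ) + 1)) *
          ENNReal.ofReal (2 ^ (5 * d)) * (P B) ^ ((1 : ℝ) / 2)) := by
          gcongr
          exact hp B hB
      _ = (a⁻¹ * a ^ (((d / 8 : ℕ) : ℝ) / (((d / 8 : ℕ) : ℝ) + 1))) *
          ENNReal.ofReal (2 ^ (5 * d)) * (P B) ^ ((1 : ℝ) / 2) := by ring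
      _ ≤ ENNReal.ofReal (2 ^ ((8 * A + 1) * d)) * ENNReal.ofReal (2 ^ (5 * d)) *
            (P B) ^ ((1 : ℝ) / 2) := by
          gcongr
      _ = ((2 ^ ((8 * A + 6) * d) : ℝ≥0) : ℝ≥0∞) * (P B) ^ ((1 : ℝ) / 2) := by
          congr 1
          rw [← ENNReal.ofReal_mul (by positivity), ← pow_add,
            show (8 * A + 1) * d + 5 * d = (8 * A + 6) * d by ring,
            ENNReal.ofReal_pow (by norm_num)]
          push_cast
          norm_num
  obtain ⟨H, hH, hHc, hHP⟩ := cut P Q (2 ^ ((8 * A + 6) * d)) (2 ^ ((16 * A + 13) * d))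
    (by positivity) hQB
  have hHc' : Q Hᶜ ≤ (1 / 2) ^ d := by
    refine hHc.trans (le_of_eq ?_)
    push_cast
    rw [← pow_mul, show (8 * A + 6) * d * 2 = (16 * A + 12) * d by ring,
      show (16 * A + 13) * d = (16 * A + 12) * d + d by ring, pow_add,
      ENNReal.div_eq_inv_mul, ENNReal.mul_inv (by simp) (by simp), mul_comm (_ * _),
      ← mul_assoc, ENNReal.mul_inv_cancel (by simp) (by finiteness), one_mul, one_div,
      ENNReal.inv_pow]
  have hQH1 : Q H ≤ 1 := prob_le_one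
  have hQH : (1 / 2 : ℝ≥0∞) ≤ Q H := by
    have h1 : Q H + Q Hᶜ = 1 := by rw [measure_add_measure_compl hH, measure_univ]
    have h2 : Q Hᶜ ≤ 1 / 2 := by
      refine hHc'.trans ?_
      calc (1 / 2 : ℝ≥0∞) ^ d ≤ (1 / 2) ^ 1 :=
            pow_le_pow_of_le_one (by norm_num) (by norm_num) (by omega)
        _ = 1 / 2 := pow_one _
    by_contra hcon
    rw [not_le] at hcon
    have h3 : Q H + Q Hᶜ < 1 / 2 + 1 / 2 :=
      ENNReal.add_lt_add_of_lt_of_le (by finiteness) hcon h2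
    rw [h1, ENNReal.add_halves] at h3
    exact lt_irrefl _ h3
  have hQH0 : Q H ≠ 0 := (lt_of_lt_of_le (by norm_num) hQH).ne'
  have hQHtop : Q H ≠ ∞ := measure_ne_top _ _
  set P1 : Measure (E d) := (Q H)⁻¹ • Q.restrict H with hP1
  have hP1prob : IsProbabilityMeasure P1 := ⟨by
    rw [hP1, Measure.smul_apply, Measure.restrict_apply_univ, smul_eq_mul,
      ENNReal.inv_mul_cancel hQH0 hQHtop]⟩
  have hinv : (Q H)⁻¹ ≤ 2 := by
    have := ENNReal.inv_le_inv.2 hQH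
    simpa using this
  have hP1P : P1 ≤ ENNReal.ofReal (2 ^ ((16 * A + 13) * d + 1)) • P := by
    refine Measure.le_iff.2 fun s hs => ?_
    rw [hP1, Measure.smul_apply, Measure.smul_apply, smul_eq_mul, smul_eq_mul]
    have h1 := hHP s
    rw [Measure.smul_apply] at h1
    calc (Q H)⁻¹ * Q.restrict H s ≤ 2 * ((2 ^ ((16 * A + 13) * d) : ℝ≥0) • P s) := by gcongr
      _ = ENNReal.ofReal (2 ^ ((16 * A + 13) * d + 1)) * P s := by
          rw [ENNReal.smul_def, smul_eq_mul, ← mul_assoc]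
          congr 1
          rw [ENNReal.ofReal_pow (by norm_num), pow_succ]
          push_cast
          rw [mul_comm]
          norm_num
  set b : ℕ := d / 2 with hb
  set D : ℝ := (16 * A + 13) * d + 1 + ((16 * A + 19) * (d : ℝ) * t + ((b : ℝ) + 1) * L) with hD
  have hden1 : P1 ≤ ENNReal.ofReal ((2 : ℝ) ^ D) • μ := by
    refine Measure.le_iff.2 fun s hs => ?_
    have h1 := hP1P s
    have h2 := hden s
    rw [Measure.smul_apply, smul_eq_mul] at h1 h2 ⊢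
    calc P1 s ≤ ENNReal.ofReal (2 ^ ((16 * A + 13) * d + 1)) * P s := h1
      _ ≤ ENNReal.ofReal (2 ^ ((16 * A + 13) * d + 1)) *
          (ENNReal.ofReal ((2 : ℝ) ^ ((16 * A + 19) * (d : ℝ) * t + ((b : ℝ) + 1) * L)) *
            μ s) := by gcongr
      _ = ENNReal.ofReal ((2 : ℝ) ^ D) * μ s := by
          rw [← mul_assoc, ← ENNReal.ofReal_mul (by positivity), hD]
          congr 2
          rw [Real.rpow_add (by norm_num) ((16 * A + 13) * (d : ℝ) + 1)]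
          congr 1
          rw [← Real.rpow_natCast]
          push_cast
          rfl
  have hsupp1 : P1 (closedBall z ((1 / 2 : ℝ) ^ L))ᶜ = 0 := by
    have h1 : P1 (closedBall z ((1 / 2 : ℝ) ^ L))ᶜ ≤ 0 :=
      (hP1P (closedBall z ((1 / 2 : ℝ) ^ L))ᶜ).trans_eq
        (by rw [Measure.smul_apply, hreg.supp, smul_zero])
    exact le_antisymm h1 zero_le
  have hb2 : b ≤ d := by omega
  have hbr : (b : ℝ) ≤ d / 2 := by
    have : 2 * b ≤ d := by omega
    have h : 2 * (b : ℝ) ≤ d := by exact_mod_cast this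
    linarith
  have hLd : (L : ℝ) ≤ d := by exact_mod_cast hLJ.trans hN
  have htN : (t : ℝ) ≤ N - 1 := by
    have : (t : ℝ) + 1 ≤ N := by exact_mod_cast ht
    linarith
  have hJ : ∀ j : ℕ, Jmax A N < j → D + (2 * d + 1) + b * ((j : ℝ) - L) ≤ ((d : ℝ) - 1) * j := by
    intro j hj
    have hA : (0 : ℝ) ≤ A := Nat.cast_nonneg _
    have hj' : (64 * A + 76) * (N : ℝ) + 9 ≤ j := by
      have : (64 * A + 76) * N + 9 ≤ j := by unfold Jmax at hj; omega
      exact_mod_cast this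
    have h1 : (d : ℝ) / 4 * ((64 * A + 76) * N + 9) ≤ (d - 1 - b) * j := by
      have : (d : ℝ) / 4 ≤ d - 1 - b := by linarith
      have h0 : (0 : ℝ) ≤ (64 * A + 76) * N + 9 := by positivity
      calc (d : ℝ) / 4 * ((64 * A + 76) * N + 9) ≤ (d - 1 - b) * ((64 * A + 76) * N + 9) := by
            gcongr
        _ ≤ (d - 1 - b) * j := by
            apply mul_le_mul_of_nonneg_left hj'
            linarith
    have h2 : (16 * A + 19) * (d : ℝ) * t ≤ (16 * A + 19) * (d : ℝ) * (N - 1) := by gcongr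
    have h3 : (16 * A + 13) * (d : ℝ) + 1 + (16 * A + 19) * (d : ℝ) * (N - 1) + L + (2 * d + 1) ≤
        (d : ℝ) / 4 * ((64 * A + 76) * N + 9) := by nlinarith
    rw [hD]
    nlinarith
  obtain ⟨k, c, P'', L', q', hsplit, hq', hall⟩ := reveal μ P1 z b L (Jmax A N) D (by omega) hb2
    hμ1 hμ hsupp1 hden1 hLJ hN hJ
  refine ⟨k, fun i => a * Q H * c i, P'', (a * Q H) • q' + a • Q.restrict Hᶜ, ?_, ?_, ?_⟩
  · have h1 : p = a • Q := by
      rw [hQ, smul_smul, ENNReal.mul_inv_cancel ha0 hatop, one_smul]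
    have h2 : Q.restrict H = (Q H) • P1 := by
      rw [hP1, smul_smul, ENNReal.mul_inv_cancel hQH0 hQHtop, one_smul]
    calc p = a • Q := h1
      _ = a • (Q.restrict H + Q.restrict Hᶜ) := by rw [Measure.restrict_add_restrict_compl hH]
      _ = a • ((Q H) • ((∑ i, c i • P'' i) + q') + Q.restrict Hᶜ) := by rw [h2, ← hsplit]
      _ = (∑ i, (a * Q H * c i) • P'' i) + ((a * Q H) • q' + a • Q.restrict Hᶜ) := by
          rw [smul_add, smul_add, smul_add, smul_smul, smul_smul, Finset.smul_sum, add_assoc]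
          congr 1
          refine Finset.sum_congr rfl fun i _ => ?_
          rw [smul_smul]
  · intro i
    obtain ⟨h1, h2, ⟨z', hz'⟩, h3⟩ := hall i
    refine ⟨L' i, z', h2, hz', h3.trans ?_⟩
    refine Measure.le_iff.2 fun s hs => ?_
    rw [Measure.smul_apply, Measure.smul_apply, smul_eq_mul, smul_eq_mul]
    refine mul_le_mul_left (ENNReal.ofReal_le_ofReal
      (Real.rpow_le_rpow_of_exponent_le (by norm_num) ?_)) _
    rw [hD]
    push_cast
    nlinarith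
  · rw [Measure.add_apply]
    have hr : (a • Q.restrict Hᶜ) Set.univ = a * Q Hᶜ := by
      rw [Measure.smul_apply a, Measure.restrict_apply_univ, smul_eq_mul]
    rw [hr]
    calc a * Q H * q' Set.univ + a * Q Hᶜ ≤ a * 1 * (2 * (1 / 2) ^ d) + a * (1 / 2) ^ d := by
          gcongr
      _ = 3 * a * (1 / 2) ^ d := by ring
      _ ≤ _ := le_add_self

/-- O1: one window maps admissible posteriors to mixtures of admissible posteriors. -/
theorem one_step {d : ℕ} (A : ℕ) (hd : 64 ≤ d) (μ : Measure (E d))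
    (hμ1 : μ (closedBall (0 : E d) 1)ᶜ = 0)
    (hμ : ∀ (x : E d) (r : ℝ), 0 < r →
      μ (closedBall x r) ≤ ENNReal.ofReal (2 ^ (2 * d + 1) * r ^ (d - 1)))
    {ι : Type} [Fintype ι] (hcard : (Fintype.card ι : ℝ) ≤ 2 ^ (A * d ^ 2))
    (N t : ℕ) (ht : t < N) (hN : Jmax A N ≤ d) (P : Measure (E d))
    (hP : Good A μ (Jmax A N) t P)
    (κ : ι → (Fin (d / 8) → E d) × (Fin (d / 8) → ℝ) → ℝ≥0∞)
    (hκ : ∀ v, Measurable (κ v)) (hsum : ∀ x, ∑ v, κ v x ≤ 1) :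
    ∃ (k : ι → ℕ) (c : ∀ v, Fin (k v) → ℝ≥0∞) (P' : ∀ v, Fin (k v) → Measure (E d))
      (q : ι → Measure (E d)),
      (∀ v, push P (κ v) = (∑ i, c v i • P' v i) + q v) ∧
      (∀ v i, Good A μ (Jmax A N) (t + 1) (P' v i)) ∧
      ∑ v, q v Set.univ ≤ 6 * (1 / 2) ^ (d / 8) := by
  obtain ⟨L, z, hLJ, hreg, hden⟩ := id hP
  have hPp := hreg.prob
  obtain ⟨p0, q0, hpq, hq0, hp0⟩ := window (n := d / 8) (d / 8) P z ((1 / 2 : ℝ) ^ L)
    (2 ^ (6 * d)) (by positivity) (one_le_pow₀ (by norm_num)) (d / 2) hreg (by omega) κ hκ hsum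
  -- total mass
  have htot : ∑ v, p0 v Set.univ ≤ 1 := by
    calc ∑ v, p0 v Set.univ ≤ ∑ v, push P (κ v) Set.univ := by
          refine Finset.sum_le_sum fun v _ => ?_
          rw [hpq v, Measure.add_apply]
          exact le_self_add
      _ = ∑ v, ∫⁻ x, κ v x ∂(w1rho (d / 8) P) :=
          Finset.sum_congr rfl fun v _ => w1_push_univ P _ (hκ v)
      _ = ∫⁻ x, ∑ v, κ v x ∂(w1rho (d / 8) P) := (lintegral_finsetSum _ fun v _ => hκ v).symm
      _ ≤ ∫⁻ _x, 1 ∂(w1rho (d / 8) P) := lintegral_mono fun x => hsum x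
      _ = 1 := by rw [lintegral_const, measure_univ, mul_one]
  have hv1 : ∀ v, p0 v Set.univ ≤ 1 := fun v =>
    (Finset.single_le_sum (f := fun v => p0 v Set.univ) (fun _ _ => zero_le)
      (Finset.mem_univ v)).trans htot
  have hex : ∀ v, ∃ (k : ℕ) (c : Fin k → ℝ≥0∞) (P' : Fin k → Measure (E d)) (q : Measure (E d)),
      p0 v = (∑ i, c i • P' i) + q ∧ (∀ i, Good A μ (Jmax A N) (t + 1) (P' i)) ∧
      q Set.univ ≤ ENNReal.ofReal ((1 / 2) ^ d / (Fintype.card ι : ℝ)) +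
        3 * p0 v Set.univ * (1 / 2) ^ d := by
    intro v
    have hc1 : (1 : ℝ) ≤ Fintype.card ι := by
      have : 0 < Fintype.card ι := Fintype.card_pos_iff.2 ⟨v⟩
      exact_mod_cast this
    refine o1_single A hd μ hμ1 hμ _ hc1 hcard N t ht hN P hP (p0 v) (hv1 v) fun B hB => ?_
    refine (hp0 v B hB).trans ?_
    gcongr
    exact o1_const hd
  choose k c P' q hsplit hgood hq using hex
  refine ⟨k, c, P', fun v => q v + q0 v, fun v => ?_, hgood, ?_⟩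
  · rw [hpq v, ← add_assoc, ← hsplit v]
  · simp only [Measure.add_apply]
    rw [Finset.sum_add_distrib]
    have h1 : ∑ v, q v Set.univ ≤ 4 * (1 / 2) ^ d := by
      calc ∑ v, q v Set.univ ≤ ∑ v, (ENNReal.ofReal ((1 / 2) ^ d / (Fintype.card ι : ℝ)) +
            3 * p0 v Set.univ * (1 / 2) ^ d) := Finset.sum_le_sum fun v _ => hq v
        _ = Fintype.card ι * ENNReal.ofReal ((1 / 2) ^ d / (Fintype.card ι : ℝ)) +
            3 * (∑ v, p0 v Set.univ) * (1 / 2) ^ d := by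
            rw [Finset.sum_add_distrib, Finset.sum_const, Finset.card_univ, nsmul_eq_mul,
              Finset.mul_sum, Finset.sum_mul]
        _ ≤ (1 / 2) ^ d + 3 * 1 * (1 / 2) ^ d := by
            gcongr
            rcases Nat.eq_zero_or_pos (Fintype.card ι) with h | h
            · rw [h]; simp
            · have h' : (0 : ℝ) < Fintype.card ι := by exact_mod_cast h
              rw [← ENNReal.ofReal_natCast, ← ENNReal.ofReal_mul h'.le, mul_div_cancel₀ _ h'.ne',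
                ENNReal.ofReal_pow (by norm_num), ENNReal.ofReal_div_of_pos (by norm_num)]
              norm_num
        _ = 4 * (1 / 2) ^ d := by ring
    calc ∑ v, q v Set.univ + ∑ v, q0 v Set.univ
        ≤ 4 * (1 / 2) ^ d + 2 * (1 / 2) ^ (d / 8) := add_le_add h1 hq0
      _ ≤ 4 * (1 / 2) ^ (d / 8) + 2 * (1 / 2) ^ (d / 8) := by
          gcongr ?_ + _
          gcongr 4 * ?_
          exact pow_le_pow_of_le_one (by norm_num) (by norm_num) (by omega)
      _ = 6 * (1 / 2) ^ (d / 8) := by ring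

end P309
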