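import Vale.Agent.P309.Defs

open MeasureTheory ProbabilityTheory Metric
open scoped ENNReal NNReal

namespace P309

theorem r1_exp_le : Real.exp (9 / 2) * √(2 * Real.pi) ≤ 256 := by
  have h1 : Real.exp (9 / 2) ≤ 91 := by
    have h := Real.exp_one_lt_d9
    have h2 : Real.exp (9 / 2) ^ 2 = Real.exp 1 ^ 9 := by
      rw [← Real.exp_nat_mul, ← Real.exp_nat_mul]
      congr 1
      norm_num
    have h3 : Real.exp 1 ^ 9 ≤ 91 ^ 2 := by
      calc Real.exp 1 ^ 9 ≤ (2.7182818286 : ℝ) ^ 9 :=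
            pow_le_pow_left₀ (Real.exp_pos 1).le h.le 9
        _ ≤ 91 ^ 2 := by norm_num
    rw [← h2] at h3
    exact le_of_sq_le_sq h3 (by norm_num)
  have h4 : √(2 * Real.pi) ≤ 2.6 := by
    rw [show (2.6 : ℝ) = √(2.6 ^ 2) by rw [Real.sqrt_sq (by norm_num)]]
    apply Real.sqrt_le_sqrt
    have := Real.pi_lt_d2
    norm_num
    linarith
  calc Real.exp (9 / 2) * √(2 * Real.pi) ≤ 91 * 2.6 :=
        mul_le_mul h1 h4 (Real.sqrt_nonneg _) (by norm_num)
    _ ≤ 256 := by norm_num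

/-- R1: volume of a Euclidean ball of radius `3 sqrt n w` in label space. -/
theorem region_vol {n : ℕ} (a : Fin n → ℝ) (w : ℝ) (hw : 0 < w) :
    volume {Y : Fin n → ℝ | ∑ r, (Y r - a r) ^ 2 ≤ 9 * n * w ^ 2} ≤
      ENNReal.ofReal ((256 * w) ^ n) := by
  set v : ℝ≥0 := ⟨w ^ 2, by positivity⟩ with hv
  have hvne : v ≠ 0 := by
    intro h
    have h0 : (v : ℝ) = 0 := by rw [h]; rfl
    have h1 : w ^ 2 = 0 := h0
    have : 0 < w ^ 2 := by positivity
    linarith
  have hvc : (v : ℝ) = w ^ 2 := rfl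
  set C : ℝ := Real.exp (9 / 2) * √(2 * Real.pi * v) with hC
  have hsq : 0 < √(2 * Real.pi * v) := by
    apply Real.sqrt_pos.mpr
    rw [hvc]
    positivity
  set g : Fin n → ℝ → ℝ := fun r y => C * gaussianPDFReal (a r) v y with hg
  have hgexp : ∀ r y, g r y = Real.exp (9 / 2 - (y - a r) ^ 2 / (2 * w ^ 2)) := by
    intro r y
    simp only [hg, hC, gaussianPDFReal, hvc]
    rw [hvc] at hsq
    rw [show 9 / 2 - (y - a r) ^ 2 / (2 * w ^ 2) = 9 / 2 + -(y - a r) ^ 2 / (2 * w ^ 2) by ring,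
      Real.exp_add]
    field_simp
  have hgint : ∀ r, Integrable (g r) := fun r => (integrable_gaussianPDFReal _ _).const_mul _
  have hgval : ∀ r, ∫ y, g r y = C := by
    intro r
    simp only [hg]
    rw [integral_const_mul, integral_gaussianPDFReal_eq_one _ hvne, mul_one]
  have hCle : C ≤ 256 * w := by
    rw [hC, hvc, Real.sqrt_mul (by positivity), Real.sqrt_sq hw.le, ← mul_assoc]
    exact mul_le_mul_of_nonneg_right r1_exp_le hw.le
  have hC0 : 0 ≤ C := by positivity
  have hint : Integrable (fun Y : Fin n → ℝ => ∏ r, g r (Y r)) :=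
    Integrable.fintype_prod (μ := fun _ => volume) hgint
  have hpos : ∀ Y : Fin n → ℝ, 0 ≤ ∏ r, g r (Y r) := fun Y =>
    Finset.prod_nonneg fun r _ => by rw [hgexp]; positivity
  set S := {Y : Fin n → ℝ | ∑ r, (Y r - a r) ^ 2 ≤ 9 * n * w ^ 2} with hS
  have hSm : MeasurableSet S := by
    apply measurableSet_le
    · fun_prop
    · fun_prop
  calc volume S = ∫⁻ Y : Fin n → ℝ, S.indicator 1 Y := by rw [lintegral_indicator_one hSm]
    _ ≤ ∫⁻ Y : Fin n → ℝ, ENNReal.ofReal (∏ r, g r (Y r)) := by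
      apply lintegral_mono
      intro Y
      by_cases hY : Y ∈ S
      · rw [Set.indicator_of_mem hY]
        simp only [Pi.one_apply]
        rw [ENNReal.one_le_ofReal]
        simp_rw [hgexp]
        rw [← Real.exp_sum]
        rw [Real.one_le_exp_iff]
        rw [Finset.sum_sub_distrib]
        simp only [Finset.sum_const, Finset.card_univ, Fintype.card_fin, nsmul_eq_mul]
        have hY' : ∑ r, (Y r - a r) ^ 2 ≤ 9 * n * w ^ 2 := hY
        have : ∑ r, (Y r - a r) ^ 2 / (2 * w ^ 2) ≤ (n : ℝ) * (9 / 2) := by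
          rw [← Finset.sum_div, div_le_iff₀ (by positivity)]
          linarith
        linarith
      · rw [Set.indicator_of_notMem hY]
        exact bot_le
    _ = ENNReal.ofReal (∫ Y : Fin n → ℝ, ∏ r, g r (Y r)) := by
      rw [ofReal_integral_eq_lintegral_ofReal hint (ae_of_all _ hpos)]
    _ = ENNReal.ofReal (C ^ n) := by
      rw [integral_fintype_prod_volume_eq_prod]
      simp [hgval]
    _ ≤ ENNReal.ofReal ((256 * w) ^ n) :=
      ENNReal.ofReal_le_ofReal (pow_le_pow_left₀ hC0 hCle n)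

theorem r1_gauss_exp : ∫⁻ y, ENNReal.ofReal (Real.exp (y ^ 2 / 4)) ∂(gaussianReal 0 1)
    = ENNReal.ofReal (√2) := by
  rw [gaussianReal_of_var_ne_zero _ one_ne_zero, lintegral_withDensity_eq_lintegral_mul _
    (measurable_gaussianPDF 0 1) (by fun_prop)]
  have h : ∀ y : ℝ, (gaussianPDF 0 1 * fun y => ENNReal.ofReal (Real.exp (y ^ 2 / 4))) y
      = ENNReal.ofReal (√2) * gaussianPDF 0 2 y := by
    intro y
    simp only [Pi.mul_apply, gaussianPDF]
    rw [← ENNReal.ofReal_mul (gaussianPDFReal_nonneg _ _ _),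
      ← ENNReal.ofReal_mul (Real.sqrt_nonneg _)]
    congr 1
    simp only [gaussianPDFReal, NNReal.coe_one, NNReal.coe_ofNat, sub_zero, mul_one]
    rw [mul_assoc, ← Real.exp_add, show (2 * Real.pi * 2 : ℝ) = 2 * (2 * Real.pi) by ring,
      Real.sqrt_mul (by norm_num : (0:ℝ) ≤ 2) (2 * Real.pi), mul_inv]
    rw [show -y ^ 2 / 2 + y ^ 2 / 4 = -y ^ 2 / (2 * 2) by ring]
    have h2 : √2 ≠ 0 := by positivity
    field_simp
  simp_rw [h]
  rw [lintegral_const_mul _ (measurable_gaussianPDF 0 2),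
    lintegral_gaussianPDF_eq_one _ (by norm_num), mul_one]

theorem r1_one {d : ℕ} (u : E d) (w : ℝ) (hw : 0 < w) (hu : ‖u‖ ≤ w) :
    ∫⁻ x, ENNReal.ofReal (Real.exp ((inner ℝ x u) ^ 2 / (4 * w ^ 2))) ∂(stdGaussian (E d))
      ≤ ENNReal.ofReal (√2) := by
  set L : StrongDual ℝ (E d) := innerSL ℝ u with hL
  have hmap : (stdGaussian (E d)).map L = gaussianReal 0 (‖u‖ ^ 2).toNNReal := by
    rw [IsGaussian.map_eq_gaussianReal, integral_strongDual_stdGaussian,
      variance_dual_stdGaussian, hL, innerSL_apply_norm]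
  have hmap2 : (gaussianReal 0 1).map (fun y => ‖u‖ * y)
      = gaussianReal 0 (‖u‖ ^ 2).toNNReal := by
    rw [gaussianReal_map_const_mul]
    congr 1
    · simp
    · ext
      simp
  calc ∫⁻ x, ENNReal.ofReal (Real.exp ((inner ℝ x u) ^ 2 / (4 * w ^ 2))) ∂(stdGaussian (E d))
      = ∫⁻ y, ENNReal.ofReal (Real.exp (y ^ 2 / (4 * w ^ 2))) ∂((stdGaussian (E d)).map L) := by
        rw [lintegral_map (by fun_prop) (by fun_prop)]
        apply lintegral_congr
        intro x
        rw [hL, innerSL_apply_apply, real_inner_comm]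
    _ = ∫⁻ y, ENNReal.ofReal (Real.exp ((‖u‖ * y) ^ 2 / (4 * w ^ 2))) ∂(gaussianReal 0 1) := by
        rw [hmap, ← hmap2, lintegral_map (by fun_prop) (by fun_prop)]
    _ ≤ ∫⁻ y, ENNReal.ofReal (Real.exp (y ^ 2 / 4)) ∂(gaussianReal 0 1) := by
        apply lintegral_mono
        intro y
        apply ENNReal.ofReal_le_ofReal
        apply Real.exp_le_exp.mpr
        have h1 : (‖u‖ * y) ^ 2 ≤ w ^ 2 * y ^ 2 := by
          rw [mul_pow]
          exact mul_le_mul_of_nonneg_right
            (pow_le_pow_left₀ (norm_nonneg u) hu 2) (sq_nonneg y)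
        rw [div_le_div_iff₀ (by positivity) (by norm_num)]
        nlinarith
    _ = ENNReal.ofReal (√2) := r1_gauss_exp

/-- R1: Gaussian tail of the labels of a vector of norm at most `w`. -/
theorem region_tail {d n : ℕ} (u : E d) (w : ℝ) (hw : 0 < w) (hu : ‖u‖ ≤ w) :
    rows d n {X | 9 * n * w ^ 2 < ∑ r, (ap X u r) ^ 2} ≤ (1 / 2) ^ n := by
  set f : E d → ℝ := fun x => Real.exp ((inner ℝ x u) ^ 2 / (4 * w ^ 2)) with hf
  have hfm : Measurable f := by fun_prop
  have hf0 : ∀ x, 0 ≤ f x := fun x => (Real.exp_pos _).le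
  have hfl := r1_one u w hw hu
  have hfi : Integrable f (stdGaussian (E d)) := by
    refine ⟨hfm.aestronglyMeasurable, ?_⟩
    rw [hasFiniteIntegral_iff_ofReal (ae_of_all _ hf0)]
    exact lt_of_le_of_lt hfl ENNReal.ofReal_lt_top
  have hfv : ∫ x, f x ∂(stdGaussian (E d)) ≤ √2 := by
    rw [integral_eq_lintegral_of_nonneg_ae (ae_of_all _ hf0) hfm.aestronglyMeasurable]
    exact ENNReal.toReal_le_of_le_ofReal (Real.sqrt_nonneg _) hfl
  have hfv0 : 0 ≤ ∫ x, f x ∂(stdGaussian (E d)) := integral_nonneg hf0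
  have hPi : Integrable (fun X : Fin n → E d => ∏ r, f (X r)) (rows d n) :=
    Integrable.fintype_prod (μ := fun _ => stdGaussian (E d)) (fun _ => hfi)
  have hP0 : ∀ X : Fin n → E d, 0 ≤ ∏ r, f (X r) := fun X => Finset.prod_nonneg fun r _ => hf0 _
  have hPv : ∫ X, ∏ r, f (X r) ∂(rows d n) = (∫ x, f x ∂(stdGaussian (E d))) ^ n := by
    unfold rows
    rw [integral_fintype_prod_eq_prod (f := fun _ : Fin n => f)]
    simp
  set S : Set (Fin n → E d) := {X | 9 * n * w ^ 2 < ∑ r, (ap X u r) ^ 2} with hS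
  have hSm : MeasurableSet S := by
    apply measurableSet_lt
    · fun_prop
    · unfold ap
      fun_prop
  calc rows d n S = ∫⁻ X, S.indicator 1 X ∂(rows d n) := by rw [lintegral_indicator_one hSm]
    _ ≤ ∫⁻ X, ENNReal.ofReal (Real.exp (-(9 / 4)) ^ n * ∏ r, f (X r)) ∂(rows d n) := by
      apply lintegral_mono
      intro X
      by_cases hX : X ∈ S
      · rw [Set.indicator_of_mem hX]
        simp only [Pi.one_apply]
        rw [ENNReal.one_le_ofReal]
        simp only [hf]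
        rw [← Real.exp_sum, ← Real.exp_nat_mul, ← Real.exp_add, Real.one_le_exp_iff,
          ← Finset.sum_div]
        have hX' : 9 * n * w ^ 2 < ∑ r, (inner ℝ (X r) u : ℝ) ^ 2 := hX
        have h1 : (n : ℝ) * (9 / 4) ≤ (∑ r, (inner ℝ (X r) u : ℝ) ^ 2) / (4 * w ^ 2) := by
          rw [le_div_iff₀ (by positivity)]
          linarith
        linarith
      · rw [Set.indicator_of_notMem hX]
        exact bot_le
    _ = ENNReal.ofReal (∫ X, Real.exp (-(9 / 4)) ^ n * ∏ r, f (X r) ∂(rows d n)) := by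
      rw [ofReal_integral_eq_lintegral_ofReal (hPi.const_mul _)
        (ae_of_all _ fun X => mul_nonneg (by positivity) (hP0 X))]
    _ ≤ ENNReal.ofReal ((1 / 2) ^ n) := by
      apply ENNReal.ofReal_le_ofReal
      rw [integral_const_mul, hPv, ← mul_pow]
      apply pow_le_pow_left₀ (by positivity)
      have h1 : (3.25 : ℝ) ≤ Real.exp (9 / 4) := by
        have := Real.add_one_le_exp (9 / 4 : ℝ)
        linarith
      have h2 : √2 ≤ 1.5 := by
        rw [show (1.5 : ℝ) = √(1.5 ^ 2) by rw [Real.sqrt_sq (by norm_num)]]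
        apply Real.sqrt_le_sqrt
        norm_num
      rw [Real.exp_neg]
      rw [inv_mul_le_iff₀ (Real.exp_pos _)]
      linarith
    _ = (1 / 2) ^ n := by
      rw [ENNReal.ofReal_pow (by norm_num)]
      congr 1
      rw [ENNReal.ofReal_div_of_pos (by norm_num)]
      simp

end P309
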