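import Vale.Agent.P309.G1

open MeasureTheory ProbabilityTheory Metric
open scoped ENNReal NNReal

namespace P309

theorem stdGaussian_zero {d : ℕ} (hd : 1 ≤ d) : stdGaussian (E d) {0} = 0 := by
  set w : E d := EuclideanSpace.single ⟨0, hd⟩ 1 with hw
  have hwn : ‖w‖ = 1 := by simp [hw]
  have hinf : infDist w ((⊥ : Submodule ℝ (E d)) : Set (E d)) = 1 := by
    rw [Submodule.bot_coe, infDist_singleton, dist_zero_right, hwn]
  have h := gauss_step (⊥ : Submodule ℝ (E d)) Set.univ MeasurableSet.univ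
    (fun x y _ => Iff.rfl) w 0 le_rfl (by rw [hinf]; exact one_pos)
  rw [hinf, zero_div, ENNReal.ofReal_zero, mul_zero, Set.univ_inter] at h
  apply le_antisymm _ zero_le
  refine (measure_mono ?_).trans h
  intro x hx
  rw [Set.mem_singleton_iff] at hx
  subst hx
  simp

theorem kz_meas {d : ℕ} (u : E d) :
    Measurable (fun x : E d => (inner ℝ x u : ℝ) ^ 2 / ‖x‖ ^ 2) := by
  apply Measurable.div
  · apply Measurable.pow_const
    exact (Continuous.measurable (by fun_prop))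
  · apply Measurable.pow_const
    exact (Continuous.measurable (by fun_prop))

theorem kz_bound {d : ℕ} (u x : E d) : (inner ℝ x u : ℝ) ^ 2 / ‖x‖ ^ 2 ≤ ‖u‖ ^ 2 := by
  rcases eq_or_ne x 0 with hx | hx
  · subst hx
    simp
  · have hxn : 0 < ‖x‖ ^ 2 := by positivity
    rw [div_le_iff₀ hxn]
    have h := abs_real_inner_le_norm x u
    calc (inner ℝ x u : ℝ) ^ 2 = |(inner ℝ x u : ℝ)| ^ 2 := (sq_abs _).symm
      _ ≤ (‖x‖ * ‖u‖) ^ 2 := pow_le_pow_left₀ (abs_nonneg _) h 2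
      _ = ‖u‖ ^ 2 * ‖x‖ ^ 2 := by ring

theorem kz_int {d : ℕ} (u : E d) :
    Integrable (fun x : E d => (inner ℝ x u : ℝ) ^ 2 / ‖x‖ ^ 2) (stdGaussian (E d)) := by
  refine Integrable.of_bound (kz_meas u).aestronglyMeasurable (‖u‖ ^ 2) ?_
  refine Filter.Eventually.of_forall fun x => ?_
  rw [Real.norm_eq_abs, abs_of_nonneg (by positivity)]
  exact kz_bound u x

theorem kz_inv {d : ℕ} (u w : E d) (h : ‖u‖ = ‖w‖) :
    ∫ x, (inner ℝ x u : ℝ) ^ 2 / ‖x‖ ^ 2 ∂(stdGaussian (E d))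
      = ∫ x, (inner ℝ x w : ℝ) ^ 2 / ‖x‖ ^ 2 ∂(stdGaussian (E d)) := by
  set R : E d ≃ₗᵢ[ℝ] E d := (ℝ ∙ (u - w))ᗮ.reflection with hR
  have hRu : R u = w := Submodule.reflection_sub h
  have hmap : (stdGaussian (E d)).map R = stdGaussian (E d) := stdGaussian_map R
  conv_rhs => rw [← hmap]
  rw [integral_map (by fun_prop) (kz_meas w).aestronglyMeasurable]
  refine integral_congr_ae (Filter.Eventually.of_forall fun x => ?_)
  simp only
  rw [R.norm_map, ← hRu, R.inner_map_map]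

theorem kz_value {d : ℕ} (hd : 1 ≤ d) (e : E d) :
    (d : ℝ) * ∫ x, (inner ℝ x e : ℝ) ^ 2 / ‖x‖ ^ 2 ∂(stdGaussian (E d)) = ‖e‖ ^ 2 := by
  have h1 : ∀ j : Fin d, ∫ x, (inner ℝ x (‖e‖ • (EuclideanSpace.single j 1 : E d)) : ℝ) ^ 2
      / ‖x‖ ^ 2 ∂(stdGaussian (E d))
      = ∫ x, (inner ℝ x e : ℝ) ^ 2 / ‖x‖ ^ 2 ∂(stdGaussian (E d)) := by
    intro j
    apply kz_inv
    rw [norm_smul, norm_norm]
    simp
  have h2 : (d : ℝ) * ∫ x, (inner ℝ x e : ℝ) ^ 2 / ‖x‖ ^ 2 ∂(stdGaussian (E d))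
      = ∑ j : Fin d, ∫ x, (inner ℝ x (‖e‖ • (EuclideanSpace.single j 1 : E d)) : ℝ) ^ 2
      / ‖x‖ ^ 2 ∂(stdGaussian (E d)) := by
    rw [Finset.sum_congr rfl fun j _ => h1 j, Finset.sum_const, Finset.card_univ,
      Fintype.card_fin, nsmul_eq_mul]
  rw [h2, ← integral_finsetSum _ fun j _ => kz_int _]
  have h3 : (fun x : E d => ∑ j : Fin d, (inner ℝ x (‖e‖ • (EuclideanSpace.single j 1 : E d)) : ℝ) ^ 2
      / ‖x‖ ^ 2) =ᵐ[stdGaussian (E d)] fun _ => ‖e‖ ^ 2 := by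
    have h0 : ∀ᵐ x ∂(stdGaussian (E d)), x ≠ 0 := by
      rw [ae_iff]
      simpa using stdGaussian_zero hd
    filter_upwards [h0] with x hx
    rw [← Finset.sum_div]
    have h4 : ∀ j : Fin d, (inner ℝ x (‖e‖ • (EuclideanSpace.single j 1 : E d)) : ℝ) ^ 2
        = ‖e‖ ^ 2 * ‖x j‖ ^ 2 := by
      intro j
      rw [real_inner_smul_right, EuclideanSpace.inner_single_right, mul_pow, Real.norm_eq_abs,
        sq_abs]
      simp
    rw [Finset.sum_congr rfl fun j _ => h4 j, ← Finset.mul_sum, ← EuclideanSpace.norm_sq_eq]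
    have hxn : ‖x‖ ^ 2 ≠ 0 := by positivity
    rw [mul_div_cancel_right₀ _ hxn]
  rw [integral_congr_ae h3]
  simp

/-- U1: one Kaczmarz step contracts the mean squared error by the factor `1 - 1/d`
(only `≤` is needed). -/
theorem kaczmarz {d : ℕ} (hd : 2 ≤ d) (e : E d) :
    ∫⁻ x, ENNReal.ofReal (‖e - (inner ℝ x e / ‖x‖ ^ 2) • x‖ ^ 2) ∂(stdGaussian (E d)) ≤
      ENNReal.ofReal ((1 - 1 / d) * ‖e‖ ^ 2) := by
  have hdr : (0 : ℝ) < d := by
    have : 0 < d := by omega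
    exact_mod_cast this
  have h1 : ∀ x : E d, ‖e - (inner ℝ x e / ‖x‖ ^ 2) • x‖ ^ 2
      = ‖e‖ ^ 2 - (inner ℝ x e : ℝ) ^ 2 / ‖x‖ ^ 2 := by
    intro x
    rcases eq_or_ne x 0 with hx | hx
    · subst hx
      simp
    · have hxn : ‖x‖ ^ 2 ≠ 0 := by positivity
      rw [norm_sub_sq_real, real_inner_smul_right, norm_smul, mul_pow, real_inner_comm,
        Real.norm_eq_abs, sq_abs]
      field_simp
      ring
  simp only [h1]
  rw [← ofReal_integral_eq_lintegral_ofReal]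
  · apply ENNReal.ofReal_le_ofReal
    rw [integral_sub (integrable_const _) (kz_int e)]
    have h2 := kz_value (d := d) (by omega) e
    have h3 : ∫ x, (inner ℝ x e : ℝ) ^ 2 / ‖x‖ ^ 2 ∂(stdGaussian (E d)) = ‖e‖ ^ 2 / d := by
      rw [eq_div_iff hdr.ne', mul_comm]
      exact h2
    rw [h3, integral_const]
    simp only [probReal_univ, smul_eq_mul, one_mul]
    apply le_of_eq
    ring
  · exact (integrable_const _).sub (kz_int e)
  · refine Filter.Eventually.of_forall fun x => ?_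
    simp only [Pi.zero_apply, sub_nonneg]
    exact kz_bound e x

end P309
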