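import Vale.Agent.P309.U1
import Vale.Agent.P309.L1a

/-! # P309, U3 (first part): the quantised Kaczmarz process -/

open MeasureTheory ProbabilityTheory Metric
open scoped ENNReal NNReal

namespace P309

/-- the Kaczmarz update -/
noncomputable def kupd {d : ℕ} (z x : E d) (y : ℝ) : E d :=
  z + ((y - inner ℝ x z) / ‖x‖ ^ 2) • x

/-- the quantised update rule -/
noncomputable def krule {d K : ℕ} (dec : Fin K → E d) (enc : E d → Fin K) (_ : ℕ) (m : Fin K)
    (x : E d) (y : ℝ) : Fin K := enc (kupd (dec m) x y)

theorem kupd_sub {d : ℕ} (z x s : E d) :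
    kupd z x (inner ℝ x s) - s = (z - s) - (inner ℝ x (z - s) / ‖x‖ ^ 2) • x := by
  unfold kupd
  rw [inner_sub_right]
  module

theorem measurable_kupd {d : ℕ} (z : E d) :
    Measurable (fun p : E d × ℝ => kupd z p.1 p.2) := by
  unfold kupd
  apply Measurable.add measurable_const
  apply Measurable.fun_smul _ measurable_fst
  apply Measurable.div
  · apply Measurable.sub measurable_snd
    exact (Continuous.measurable (by fun_prop))
  · apply Measurable.pow_const
    exact measurable_fst.norm

theorem measurable_enc {d K : ℕ} {enc : E d → Fin K} (henc : ∀ i, MeasurableSet {z | enc z = i}) :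
    Measurable enc := measurable_to_countable' henc

theorem krule_fiber {d K : ℕ} (dec : Fin K → E d) {enc : E d → Fin K}
    (henc : ∀ i, MeasurableSet {z | enc z = i}) (t : ℕ) (m v : Fin K) :
    MeasurableSet {p : E d × ℝ | krule dec enc t m p.1 p.2 = v} := by
  have h := (measurable_enc henc).comp (measurable_kupd (dec m))
  exact h (measurableSet_singleton v)

theorem measurable_krun {d K : ℕ} (dec : Fin K → E d) {enc : E d → Fin K}
    (henc : ∀ i, MeasurableSet {z | enc z = i}) (off : ℕ) (m : Fin K) (k : ℕ) :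
    Measurable (fun p : E d × (ℕ → E d) =>
      runY (krule dec enc) off m p.2 (lab p.1 p.2) k) := by
  apply measurable_to_countable'
  intro v
  have hlab : Measurable (fun p : E d × (ℕ → E d) => lab p.1 p.2) := by
    refine measurable_pi_lambda _ fun j => ?_
    unfold lab
    exact ((measurable_pi_apply j).comp measurable_snd).inner measurable_fst
  exact measurable_runY (Ω := E d × (ℕ → E d)) (fun _ => krule dec enc)
    (fun t m v => measurable_snd (krule_fiber dec henc t m v)) off (fun _ => m)
    (fun v => by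
      by_cases h : m = v
      · simp [h]
      · simp [h])
    (fun p => p.2) measurable_snd (fun p => lab p.1 p.2) hlab k v

theorem measurable_krun' {d K : ℕ} (dec : Fin K → E d) {enc : E d → Fin K}
    (henc : ∀ i, MeasurableSet {z | enc z = i}) (off : ℕ) (m : Fin K) (k : ℕ) (s : E d) :
    Measurable (fun x : ℕ → E d =>
      ENNReal.ofReal (‖dec (runY (krule dec enc) off m x (lab s x) k) - s‖ ^ 2)) := by
  have h1 : Measurable (fun x : ℕ → E d => runY (krule dec enc) off m x (lab s x) k) :=
    (measurable_krun dec henc off m k).comp (measurable_const.prodMk measurable_id)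
  have h2 : Measurable (fun i : Fin K => ENNReal.ofReal (‖dec i - s‖ ^ 2)) :=
    measurable_of_finite _
  exact h2.comp h1

/-- one step in mean square -/
theorem kstep_real {d : ℕ} (hd : 2 ≤ d) {z s z' : E d} {δ u : ℝ}
    (hu : ‖z - s‖ = u) (h : ‖z' - s‖ ≤ ‖z - s‖ + δ) :
    ‖z' - s‖ ^ 2 ≤ (1 + 1 / (2 * d)) * u ^ 2 + (1 + 2 * d) * δ ^ 2 := by
  have hdr : (2 : ℝ) ≤ d := by exact_mod_cast hd
  rw [hu] at h
  have hu0 : 0 ≤ u := by rw [← hu]; exact norm_nonneg _
  have h1 : ‖z' - s‖ ^ 2 ≤ (u + δ) ^ 2 := pow_le_pow_left₀ (norm_nonneg _) h 2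
  have h2 : 2 * u * δ ≤ 1 / (2 * d) * u ^ 2 + 2 * d * δ ^ 2 := by
    have h3 : 0 ≤ (u - 2 * d * δ) ^ 2 / (2 * d) := by positivity
    have h4 : (u - 2 * d * δ) ^ 2 / (2 * d) = 1 / (2 * d) * u ^ 2 + 2 * d * δ ^ 2 - 2 * u * δ := by
      field_simp
      ring
    linarith
  nlinarith

/-- the mean square error of the quantised Kaczmarz process -/
theorem krun_bound {d K : ℕ} (hd : 2 ≤ d) {δ : ℝ} (hδ : 0 ≤ δ) (dec : Fin K → E d)
    {enc : E d → Fin K} (henc : ∀ i, MeasurableSet {z | enc z = i})
    (hround : ∀ z s : E d, ‖s‖ = 1 → ‖dec (enc z) - s‖ ≤ ‖z - s‖ + δ) (s : E d) (hs : ‖s‖ = 1)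
    (k : ℕ) : ∀ (off : ℕ) (m : Fin K),
    ∫⁻ x, ENNReal.ofReal (‖dec (runY (krule dec enc) off m x (lab s x) k) - s‖ ^ 2) ∂(rowsInf d)
      ≤ ENNReal.ofReal ((1 - 1 / (2 * d)) ^ k * ‖dec m - s‖ ^ 2
        + 6 * d ^ 2 * δ ^ 2 * (1 - (1 - 1 / (2 * d)) ^ k)) := by
  have hdr : (2 : ℝ) ≤ d := by exact_mod_cast hd
  have ha0 : (0 : ℝ) ≤ 1 - 1 / (2 * d) := by
    rw [sub_nonneg, div_le_one (by linarith)]
    linarith
  have ha1 : (1 : ℝ) - 1 / (2 * d) ≤ 1 := by
    have : (0 : ℝ) ≤ 1 / (2 * d) := by positivity
    linarith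
  induction k with
  | zero =>
    intro off m
    simp [runY]
  | succ k ih =>
    intro off m
    have hmc : Measurable (fun p : (Fin 1 → E d) × (ℕ → E d) => ENNReal.ofReal
        (‖dec (runY (krule dec enc) off m (cat p) (lab s (cat p)) (k + 1)) - s‖ ^ 2)) :=
      (measurable_krun' dec henc off m (k + 1) s).comp measurable_cat
    rw [← map_cat d 1, lintegral_map (measurable_krun' dec henc off m (k + 1) s) measurable_cat,
      lintegral_prod _ hmc.aemeasurable]
    set a : ℝ := 1 - 1 / (2 * d) with ha
    have hak : 0 ≤ a ^ k := pow_nonneg ha0 k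
    have hak1 : a ^ k ≤ 1 := pow_le_one₀ ha0 ha1
    set e : E d := dec m - s with he
    set A : ℝ := a ^ k * (1 + 1 / (2 * d)) with hA
    set B : ℝ := a ^ k * ((1 + 2 * d) * δ ^ 2) + 6 * d ^ 2 * δ ^ 2 * (1 - a ^ k) with hB
    have hA0 : 0 ≤ A := by positivity
    have hB0 : 0 ≤ B := by
      have : 0 ≤ 1 - a ^ k := by linarith
      positivity
    calc ∫⁻ X : Fin 1 → E d, ∫⁻ x' : ℕ → E d, ENNReal.ofReal (‖dec (runY (krule dec enc) off m
            (cat (X, x')) (lab s (cat (X, x'))) (k + 1)) - s‖ ^ 2) ∂(rowsInf d) ∂(rows d 1)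
        ≤ ∫⁻ X : Fin 1 → E d, ENNReal.ofReal (A * ‖e - (inner ℝ (X 0) e / ‖X 0‖ ^ 2) • X 0‖ ^ 2 + B)
            ∂(rows d 1) := by
          apply lintegral_mono
          intro X
          simp only
          have h1 : ∀ x' : ℕ → E d, runY (krule dec enc) off m (cat (X, x'))
              (lab s (cat (X, x'))) (k + 1)
              = runY (krule dec enc) (off + 1) (enc (kupd (dec m) (X 0) (inner ℝ (X 0) s))) x'
                (lab s x') k := by
            intro x'
            rw [Nat.add_comm k 1, runY_add]
            have e1 : runY (krule dec enc) off m (cat (X, x')) (lab s (cat (X, x'))) 1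
                = enc (kupd (dec m) (X 0) (inner ℝ (X 0) s)) := by
              simp [runY, krule, cat, lab]
            have h2 : (fun j => cat (X, x') (1 + j)) = x' := by
              funext j; simp [cat]
            have h3 : (fun j => lab s (cat (X, x')) (1 + j)) = lab s x' := by
              funext j; simp [cat, lab]
            rw [e1, h2, h3]
          simp only [h1]
          refine (ih (off + 1) _).trans (ENNReal.ofReal_le_ofReal ?_)
          have h4 := kstep_real hd (z := kupd (dec m) (X 0) (inner ℝ (X 0) s)) rfl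
            (hround (kupd (dec m) (X 0) (inner ℝ (X 0) s)) s hs)
          rw [kupd_sub] at h4
          rw [hA, hB]
          nlinarith
      _ = ∫⁻ x, ENNReal.ofReal (A * ‖e - (inner ℝ x e / ‖x‖ ^ 2) • x‖ ^ 2 + B)
            ∂(stdGaussian (E d)) := by
          have hmp : MeasurePreserving (fun X : Fin 1 → E d => X 0) (rows d 1)
              (stdGaussian (E d)) := measurePreserving_eval (fun _ : Fin 1 => stdGaussian (E d)) 0
          have hme : Measurable (fun x : E d =>
              ENNReal.ofReal (A * ‖e - (inner ℝ x e / ‖x‖ ^ 2) • x‖ ^ 2 + B)) := by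
            apply Measurable.ennreal_ofReal
            apply Measurable.add_const
            apply Measurable.const_mul
            apply Measurable.pow_const
            apply Measurable.norm
            apply Measurable.const_sub
            apply Measurable.fun_smul _ measurable_id
            apply Measurable.div
            · exact (Continuous.measurable (by fun_prop))
            · exact (measurable_norm).pow_const 2
          exact hmp.lintegral_comp hme
      _ = ENNReal.ofReal A * ∫⁻ x, ENNReal.ofReal (‖e - (inner ℝ x e / ‖x‖ ^ 2) • x‖ ^ 2)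
            ∂(stdGaussian (E d)) + ENNReal.ofReal B := by
          have h5 : ∀ x : E d, ENNReal.ofReal (A * ‖e - (inner ℝ x e / ‖x‖ ^ 2) • x‖ ^ 2 + B)
              = ENNReal.ofReal A * ENNReal.ofReal (‖e - (inner ℝ x e / ‖x‖ ^ 2) • x‖ ^ 2)
                + ENNReal.ofReal B := by
            intro x
            rw [ENNReal.ofReal_add (by positivity) hB0, ENNReal.ofReal_mul hA0]
          simp only [h5]
          rw [lintegral_add_right _ measurable_const, lintegral_const_mul' _ _ ENNReal.ofReal_ne_top,
            lintegral_const, measure_univ, mul_one]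
      _ ≤ ENNReal.ofReal A * ENNReal.ofReal ((1 - 1 / d) * ‖e‖ ^ 2) + ENNReal.ofReal B := by
          gcongr
          exact kaczmarz hd e
      _ ≤ ENNReal.ofReal (a ^ (k + 1) * ‖e‖ ^ 2 + 6 * d ^ 2 * δ ^ 2 * (1 - a ^ (k + 1))) := by
          have hd1 : (0 : ℝ) ≤ 1 - 1 / d := by
            rw [sub_nonneg, div_le_one (by linarith)]
            linarith
          rw [← ENNReal.ofReal_mul hA0, ← ENNReal.ofReal_add (by positivity) hB0]
          apply ENNReal.ofReal_le_ofReal
          have h6 : (1 + 1 / (2 * (d : ℝ))) * (1 - 1 / d) ≤ a := by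
            rw [ha]
            have h7 : (1 + 1 / (2 * (d : ℝ))) * (1 - 1 / d)
                = 1 - 1 / (2 * d) - 1 / (2 * d) * (1 / d) := by
              field_simp
              ring
            rw [h7]
            have : 0 ≤ 1 / (2 * (d : ℝ)) * (1 / d) := by positivity
            linarith
          have h8 : A * ((1 - 1 / d) * ‖e‖ ^ 2) ≤ a ^ (k + 1) * ‖e‖ ^ 2 := by
            calc A * ((1 - 1 / d) * ‖e‖ ^ 2)
                = a ^ k * ((1 + 1 / (2 * (d : ℝ))) * (1 - 1 / d)) * ‖e‖ ^ 2 := by
                  rw [hA]; ring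
              _ ≤ a ^ k * a * ‖e‖ ^ 2 := by gcongr
              _ = _ := by rw [pow_succ a k]
          have h9 : B ≤ 6 * d ^ 2 * δ ^ 2 * (1 - a ^ (k + 1)) := by
            have h10 : 6 * (d : ℝ) ^ 2 * δ ^ 2 * (1 - a ^ (k + 1))
                = 6 * d ^ 2 * δ ^ 2 * (1 - a ^ k) + a ^ k * (3 * d * δ ^ 2) := by
              have h1a : 1 - a = 1 / (2 * (d : ℝ)) := by
                rw [ha]
                ring
              have h13 : 6 * (d : ℝ) ^ 2 * δ ^ 2 * (1 - a ^ (k + 1))
                  = 6 * d ^ 2 * δ ^ 2 * (1 - a ^ k) + 6 * d ^ 2 * δ ^ 2 * (a ^ k * (1 - a)) := by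
                ring
              rw [h13, h1a]
              congr 1
              field_simp
              ring
            rw [h10, hB]
            have h11 : (1 + 2 * (d : ℝ)) * δ ^ 2 ≤ 3 * d * δ ^ 2 := by
              have : 0 ≤ δ ^ 2 := sq_nonneg _
              nlinarith
            have h12 := mul_le_mul_of_nonneg_left h11 hak
            linarith
          linarith

end P309
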