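import Vale.Agent.P309.G4
import Vale.Agent.P309.C2
import Vale.Agent.P309.R1

open MeasureTheory ProbabilityTheory Metric
open scoped ENNReal NNReal

namespace P309

/-- the map (signal, rows) to (rows, labels) -/
noncomputable def w1T {d n : ℕ} (p : E d × (Fin n → E d)) : (Fin n → E d) × (Fin n → ℝ) :=
  (p.2, ap p.2 p.1)

theorem w1T_meas {d n : ℕ} : Measurable (w1T (d := d) (n := n)) := by
  have : Continuous (w1T (d := d) (n := n)) := by
    unfold w1T ap
    fun_prop
  exact this.measurable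

/-- joint law of rows and labels -/
noncomputable def w1rho {d : ℕ} (n : ℕ) (P : Measure (E d)) :
    Measure ((Fin n → E d) × (Fin n → ℝ)) := (P.prod (rows d n)).map w1T

instance {d n : ℕ} (P : Measure (E d)) [IsProbabilityMeasure P] :
    IsProbabilityMeasure (w1rho n P) :=
  Measure.isProbabilityMeasure_map w1T_meas.aemeasurable

theorem w1rho_lintegral {d n : ℕ} (P : Measure (E d)) [IsProbabilityMeasure P]
    (F : (Fin n → E d) × (Fin n → ℝ) → ℝ≥0∞) (hF : Measurable F) :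
    ∫⁻ x, F x ∂(w1rho n P) = ∫⁻ s, ∫⁻ X, F (X, ap X s) ∂(rows d n) ∂P := by
  unfold w1rho
  rw [lintegral_map hF w1T_meas, lintegral_prod (fun a => F (w1T a)) (hF.comp w1T_meas).aemeasurable]
  rfl

theorem w1_meas_inner {d n : ℕ} (F : (Fin n → E d) × (Fin n → ℝ) → ℝ≥0∞) (hF : Measurable F) :
    Measurable fun s : E d => ∫⁻ X, F (X, ap X s) ∂(rows d n) :=
  (hF.comp w1T_meas).lintegral_prod_right'

theorem w1_push_apply {d n : ℕ} (P : Measure (E d))
    (F : (Fin n → E d) × (Fin n → ℝ) → ℝ≥0∞) (B : Set (E d)) (hB : MeasurableSet B) :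
    push P F B = ∫⁻ s in B, ∫⁻ X, F (X, ap X s) ∂(rows d n) ∂P := by
  unfold push
  rw [withDensity_apply _ hB]

theorem w1_push_univ {d n : ℕ} (P : Measure (E d)) [IsProbabilityMeasure P]
    (F : (Fin n → E d) × (Fin n → ℝ) → ℝ≥0∞) (hF : Measurable F) :
    push P F Set.univ = ∫⁻ x, F x ∂(w1rho n P) := by
  rw [w1_push_apply P F Set.univ MeasurableSet.univ, Measure.restrict_univ, w1rho_lintegral P F hF]

/-- the typical region of label space -/
def w1R {d : ℕ} (n : ℕ) (z : E d) (w : ℝ) : Set ((Fin n → E d) × (Fin n → ℝ)) :=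
  {x | ∑ r, (x.2 r - ap x.1 z r) ^ 2 ≤ 9 * n * w ^ 2}

theorem w1R_meas {d n : ℕ} (z : E d) (w : ℝ) : MeasurableSet (w1R n z w) := by
  have : Continuous fun x : (Fin n → E d) × (Fin n → ℝ) =>
      ∑ r, (x.2 r - ap x.1 z r) ^ 2 := by
    unfold ap
    fun_prop
  exact (isClosed_le this continuous_const).measurableSet

theorem w1R_vol {d n : ℕ} (z : E d) (w : ℝ) (hw : 0 < w) :
    ((rows d n).prod (volume : Measure (Fin n → ℝ))) (w1R n z w) ≤
      ENNReal.ofReal ((256 * w) ^ n) := by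
  rw [Measure.prod_apply (w1R_meas z w)]
  calc ∫⁻ X, volume (Prod.mk X ⁻¹' (w1R n z w)) ∂(rows d n)
      ≤ ∫⁻ _X : Fin n → E d, ENNReal.ofReal ((256 * w) ^ n) ∂(rows d n) := by
        refine lintegral_mono fun X => ?_
        exact region_vol (fun r => ap X z r) w hw
    _ = ENNReal.ofReal ((256 * w) ^ n) := by
        rw [lintegral_const, measure_univ, mul_one]

theorem w1R_compl {d n : ℕ} (P : Measure (E d)) [IsProbabilityMeasure P] (z : E d) (w : ℝ)
    (hw : 0 < w) (hsupp : P (closedBall z w)ᶜ = 0) :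
    w1rho n P (w1R n z w)ᶜ ≤ (1 / 2) ^ n := by
  unfold w1rho
  rw [Measure.map_apply w1T_meas (w1R_meas z w).compl,
    Measure.prod_apply (w1T_meas (w1R_meas z w).compl)]
  have hae : ∀ᵐ s ∂P, s ∈ closedBall z w := by
    rw [ae_iff]
    exact hsupp
  calc ∫⁻ s, rows d n (Prod.mk s ⁻¹' (w1T ⁻¹' (w1R n z w)ᶜ)) ∂P
      ≤ ∫⁻ _s, (1 / 2 : ℝ≥0∞) ^ n ∂P := by
        refine lintegral_mono_ae ?_
        filter_upwards [hae] with s hs
        have hu : ‖s - z‖ ≤ w := by
          rw [← dist_eq_norm]; exact hs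
        refine le_trans (measure_mono ?_) (region_tail (n := n) (s - z) w hw hu)
        intro X hX
        have h1 : ¬ (∑ r, (ap X s r - ap X z r) ^ 2 ≤ 9 * n * w ^ 2) := hX
        rw [not_le] at h1
        show 9 * n * w ^ 2 < ∑ r, (ap X (s - z) r) ^ 2
        refine h1.trans_le (le_of_eq ?_)
        refine Finset.sum_congr rfl fun r _ => ?_
        unfold ap
        rw [inner_sub_right]
    _ = (1 / 2) ^ n := by rw [lintegral_const, measure_univ, mul_one]

/-- the good set -/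
theorem w1_split {d n : ℕ} (P : Measure (E d)) [IsProbabilityMeasure P] (z : E d) (w : ℝ)
    (hw : 0 < w) (hsupp : P (closedBall z w)ᶜ = 0) :
    ∃ S : Set ((Fin n → E d) × (Fin n → ℝ)), MeasurableSet S ∧
      w1rho n P Sᶜ ≤ 2 * (1 / 2) ^ n ∧
      ∀ F : (Fin n → E d) × (Fin n → ℝ) → ℝ≥0∞, Measurable F →
        ∫⁻ x, S.indicator F x ∂((rows d n).prod volume) ≤
          ENNReal.ofReal ((512 * w) ^ n) * ∫⁻ x, S.indicator F x ∂(w1rho n P) := by
  set c0 : ℝ≥0∞ := ENNReal.ofReal ((512 * w) ^ n) with hc0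
  have hc0pos : c0 ≠ 0 := by
    rw [hc0]
    simp only [ne_eq, ENNReal.ofReal_eq_zero, not_le]
    positivity
  have hc0top : c0 ≠ ∞ := ENNReal.ofReal_ne_top
  set lam : Measure ((Fin n → E d) × (Fin n → ℝ)) :=
    ((rows d n).prod volume).restrict (w1R n z w) with hlam
  have hlamu : lam Set.univ ≤ ENNReal.ofReal ((256 * w) ^ n) := by
    rw [hlam, Measure.restrict_apply_univ]
    exact w1R_vol z w hw
  have hlamfin : IsFiniteMeasure lam := ⟨hlamu.trans_lt ENNReal.ofReal_lt_top⟩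
  have hmufin : IsFiniteMeasure (c0 • w1rho n P) := by
    refine ⟨?_⟩
    rw [Measure.smul_apply, measure_univ, smul_eq_mul, mul_one]
    exact hc0top.lt_top
  obtain ⟨A0, hA0, h1, h2⟩ := hahn_decomposition (c0 • w1rho n P) lam
  refine ⟨A0 ∩ w1R n z w, hA0.inter (w1R_meas z w), ?_, ?_⟩
  · have h3 : w1rho n P A0ᶜ ≤ (1 / 2) ^ n := by
      have h4 := h2 A0ᶜ hA0.compl subset_rfl
      rw [Measure.smul_apply, smul_eq_mul] at h4
      have h5 : c0 * w1rho n P A0ᶜ ≤ ENNReal.ofReal ((256 * w) ^ n) :=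
        h4.trans ((measure_mono (Set.subset_univ _)).trans hlamu)
      have h6 : ENNReal.ofReal ((256 * w) ^ n) = c0 * (1 / 2) ^ n := by
        have : (1 / 2 : ℝ≥0∞) ^ n = ENNReal.ofReal ((1 / 2 : ℝ) ^ n) := by
          rw [ENNReal.ofReal_pow (by norm_num), ENNReal.ofReal_div_of_pos (by norm_num)]
          norm_num
        rw [this, hc0, ← ENNReal.ofReal_mul (by positivity), ← mul_pow]
        congr 2
        ring
      rw [h6] at h5
      exact (ENNReal.mul_le_mul_iff_right hc0pos hc0top).1 h5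
    have h4 : w1rho n P (w1R n z w)ᶜ ≤ (1 / 2) ^ n := w1R_compl P z w hw hsupp
    rw [Set.compl_inter, two_mul]
    exact (measure_union_le _ _).trans (add_le_add h3 h4)
  · intro F hF
    set S := A0 ∩ w1R n z w with hS
    have hSm : MeasurableSet S := hA0.inter (w1R_meas z w)
    have h3 : ((rows d n).prod volume).restrict S ≤ c0 • (w1rho n P).restrict S := by
      refine Measure.le_iff.2 fun t ht => ?_
      rw [Measure.restrict_apply ht, Measure.smul_apply, Measure.restrict_apply ht]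
      have h4 := h1 (t ∩ S) (ht.inter hSm) (fun x hx => hx.2.1)
      rw [hlam, Measure.restrict_apply (ht.inter hSm), Measure.smul_apply] at h4
      have h5 : t ∩ S ∩ w1R n z w = t ∩ S := by
        apply Set.inter_eq_left.2
        intro x hx
        exact hx.2.2
      rwa [h5] at h4
    rw [lintegral_indicator hSm, lintegral_indicator hSm]
    calc ∫⁻ x in S, F x ∂((rows d n).prod volume)
        ≤ ∫⁻ x, F x ∂(c0 • (w1rho n P).restrict S) := lintegral_mono' h3 le_rfl
      _ = c0 * ∫⁻ x in S, F x ∂(w1rho n P) := by rw [lintegral_smul_measure, smul_eq_mul]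

theorem w1_rpow (m : ℕ) (a c C b : ℝ≥0∞) (g : ℝ≥0∞) (hb : b ≤ 1) (hC : 1 ≤ C)
    (hcg : c * g = C) :
    (c * a) ^ ((m : ℝ) / (m + 1)) * ((b ^ ((1 : ℝ) / 2) * g) ^ m * b) ^ ((1 : ℝ) / (m + 1)) ≤
      a ^ ((m : ℝ) / (m + 1)) * C * b ^ ((1 : ℝ) / 2) := by
  have hm : (0 : ℝ) < m + 1 := by positivity
  have hθ0 : 0 ≤ (m : ℝ) / (m + 1) := by positivity
  have hθ1 : (m : ℝ) / (m + 1) ≤ 1 := by
    rw [div_le_one hm]; linarith
  have h1 : ((b ^ ((1 : ℝ) / 2) * g) ^ m * b) ^ ((1 : ℝ) / (m + 1)) =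
      b ^ ((m : ℝ) / (2 * (m + 1)) + 1 / (m + 1)) * g ^ ((m : ℝ) / (m + 1)) := by
    rw [ENNReal.mul_rpow_of_nonneg _ _ (by positivity), ← ENNReal.rpow_natCast,
      ← ENNReal.rpow_mul, ENNReal.mul_rpow_of_nonneg _ _ (by positivity),
      ← ENNReal.rpow_mul, mul_right_comm, ← ENNReal.rpow_add_of_nonneg _ _ (by positivity) (by positivity)]
    congr 2
    · congr 1
      field_simp
    · field_simp
  rw [h1, ENNReal.mul_rpow_of_nonneg _ _ hθ0]
  have h2 : c ^ ((m : ℝ) / (m + 1)) * g ^ ((m : ℝ) / (m + 1)) ≤ C := by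
    rw [← ENNReal.mul_rpow_of_nonneg _ _ hθ0, hcg]
    calc C ^ ((m : ℝ) / (m + 1)) ≤ C ^ (1 : ℝ) := ENNReal.rpow_le_rpow_of_exponent_le hC hθ1
      _ = C := ENNReal.rpow_one C
  have h3 : b ^ ((m : ℝ) / (2 * (m + 1)) + 1 / (m + 1)) ≤ b ^ ((1 : ℝ) / 2) := by
    apply ENNReal.rpow_le_rpow_of_exponent_ge hb
    rw [div_add_div _ _ (by positivity) (by positivity), div_le_div_iff₀ (by positivity) (by positivity)]
    nlinarith
  calc c ^ ((m : ℝ) / (m + 1)) * a ^ ((m : ℝ) / (m + 1)) *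
        (b ^ ((m : ℝ) / (2 * (m + 1)) + 1 / (m + 1)) * g ^ ((m : ℝ) / (m + 1)))
      = a ^ ((m : ℝ) / (m + 1)) * (c ^ ((m : ℝ) / (m + 1)) * g ^ ((m : ℝ) / (m + 1))) *
        b ^ ((m : ℝ) / (2 * (m + 1)) + 1 / (m + 1)) := by ring
    _ ≤ a ^ ((m : ℝ) / (m + 1)) * C * b ^ ((1 : ℝ) / 2) := by gcongr

/-- W1: the window lemma. -/
theorem window {d n : ℕ} (m : ℕ) {ι : Type} [Fintype ι] (P : Measure (E d)) (z : E d)
    (w K : ℝ) (hw : 0 < w) (hK : 1 ≤ K) (b : ℕ) (h : Reg P z w K b)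
    (hb : m + 2 * n + 1 ≤ b) (κ : ι → (Fin n → E d) × (Fin n → ℝ) → ℝ≥0∞)
    (hκ : ∀ v, Measurable (κ v)) (hsum : ∀ x, ∑ v, κ v x ≤ 1) :
    ∃ p q : ι → Measure (E d), (∀ v, push P (κ v) = p v + q v) ∧
      (∑ v, q v Set.univ ≤ 2 * (1 / 2) ^ n) ∧
      ∀ v (B : Set (E d)), MeasurableSet B →
        p v B ≤ (p v Set.univ) ^ ((m : ℝ) / (m + 1)) *
          ENNReal.ofReal (512 ^ n * Real.sqrt (K * 2 ^ (2 * m + 2 * b + 1))) *
            (P B) ^ ((1 : ℝ) / 2) := by
  have hP := h.prob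
  obtain ⟨S, hS, hS1, hS2⟩ := w1_split (n := n) P z w hw h.supp
  refine ⟨fun v => push P (S.indicator (κ v)), fun v => push P (Sᶜ.indicator (κ v)), ?_, ?_, ?_⟩
  · intro v
    unfold push
    rw [← withDensity_add_left (w1_meas_inner _ ((hκ v).indicator hS))]
    congr 1
    funext s
    simp only [Pi.add_apply]
    have hm1 : Measurable fun X : Fin n → E d => S.indicator (κ v) (X, ap X s) := by
      have : Measurable fun X : Fin n → E d => w1T (s, X) := w1T_meas.comp (by fun_prop)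
      exact ((hκ v).indicator hS).comp this
    rw [← lintegral_add_left hm1]
    refine lintegral_congr fun X => ?_
    exact (congrFun (Set.indicator_self_add_compl S (κ v)) (X, ap X s)).symm
  · calc ∑ v, push P (Sᶜ.indicator (κ v)) Set.univ
        = ∑ v, ∫⁻ x, Sᶜ.indicator (κ v) x ∂(w1rho n P) :=
          Finset.sum_congr rfl fun v _ => w1_push_univ P _ ((hκ v).indicator hS.compl)
      _ = ∫⁻ x, ∑ v, Sᶜ.indicator (κ v) x ∂(w1rho n P) :=
          (lintegral_finsetSum _ fun v _ => (hκ v).indicator hS.compl).symm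
      _ ≤ ∫⁻ x, Sᶜ.indicator 1 x ∂(w1rho n P) := by
          refine lintegral_mono fun x => ?_
          by_cases hx : x ∈ Sᶜ
          · simp only [Set.indicator_of_mem hx]
            exact hsum x
          · simp only [Set.indicator_of_notMem hx]
            simp
      _ = w1rho n P Sᶜ := lintegral_indicator_one hS.compl
      _ ≤ 2 * (1 / 2) ^ n := hS1
  · intro v B hB
    have hF : Measurable (S.indicator (κ v)) := (hκ v).indicator hS
    have hF1 : ∀ x, S.indicator (κ v) x ≤ 1 := by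
      intro x
      refine (Set.indicator_le_self S (κ v) x).trans ?_
      exact (Finset.single_le_sum (f := fun v => κ v x) (fun _ _ => zero_le)
        (Finset.mem_univ v)).trans (hsum x)
    have hstar := star m (P.restrict B) _
      (energy_restrict P z w K hw (by linarith) b n m h hb B hB)
      (ENNReal.mul_ne_top (ENNReal.rpow_ne_top_of_nonneg (by positivity) (measure_ne_top _ _))
        ENNReal.ofReal_ne_top) (S.indicator (κ v)) hF hF1
    rw [w1_push_apply P _ B hB]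
    refine hstar.trans ?_
    have h1 : ∫⁻ x, S.indicator (κ v) x ∂((rows d n).prod volume) ≤
        ENNReal.ofReal ((512 * w) ^ n) * push P (S.indicator (κ v)) Set.univ := by
      rw [w1_push_univ P _ hF]
      exact hS2 (κ v) (hκ v)
    rw [Measure.restrict_apply_univ]
    refine le_trans ?_ (w1_rpow m (push P (S.indicator (κ v)) Set.univ)
      (ENNReal.ofReal ((512 * w) ^ n)) _ (P B)
      (ENNReal.ofReal (Real.sqrt (K * 2 ^ (2 * m + 2 * b + 1)) / w ^ n))
      (prob_le_one) ?_ ?_)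
    · gcongr
    · rw [ENNReal.one_le_ofReal]
      have h2 : (1 : ℝ) ≤ 512 ^ n := one_le_pow₀ (by norm_num)
      have h3 : (1 : ℝ) ≤ Real.sqrt (K * 2 ^ (2 * m + 2 * b + 1)) := by
        rw [Real.one_le_sqrt]
        have : (1 : ℝ) ≤ 2 ^ (2 * m + 2 * b + 1) := one_le_pow₀ (by norm_num)
        nlinarith
      nlinarith
    · rw [← ENNReal.ofReal_mul (by positivity)]
      congr 1
      rw [mul_pow]
      field_simp

end P309
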